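import Mathlib

/-! P109: a shift-robust binary code (probabilistic method).
PLAN.  Sample space `Ω = Msg × Fin c → ZMod 2` (or `Msg → Fin c → ZMod 2`), `b μ a = if a < c then ω (μ, a) else 0`.
Fix `μ μ' i β` with `i ≠ 0 ∨ μ ≠ μ'`, `Y a ω = b μ a + b μ' (a + i) - β a`, weight `w y = if y = 0 then 1 else 1/2`.
Induction on `k ≤ c - i`: `∑ ω, ∏ a < k, w (Y a ω) = |Ω| (3/4)^k`; in the step flip the coordinate `(μ', k + i)`
(an involution of `Ω` which fixes `Y a` for `a < k` and changes `Y k` by one).  The product is `(1/2)^wt`.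
If `20 wt < c` then `(965/1000)^c < (1/2)^wt` (20th powers, `0.965^20 ≤ 1/2`), and `(3/4)^(c-i) ≤ 0.8661^c`
because `c ≤ 2 (c - i)`; `0.8661 / 0.965 ≤ 0.9`.  So the bad fraction is `≤ 0.9^c` for each of the at most
`|Msg|^2 (c+1) 2^N` quadruples (a periodic `β` is `a ↦ f (a % N)`, `f : Fin N → ZMod 2`). -/

open Finset

namespace Vale.Agent.P109.N

/-- The code word read from a sample point. -/
def codeB {Msg : Type} (c : ℕ) (ω : Msg × Fin c → ZMod 2) (μ : Msg) (a : ℕ) : ZMod 2 :=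
  if h : a < c then ω (μ, ⟨a, h⟩) else 0

/-- The weight of one position. -/
noncomputable def codeW {Msg : Type} (c : ℕ) (μ μ' : Msg) (i : ℕ) (β : ℕ → ZMod 2)
    (ω : Msg × Fin c → ZMod 2) (a : ℕ) : ℝ :=
  if codeB c ω μ a + codeB c ω μ' (a + i) ≠ β a then 1 / 2 else 1

theorem code_same {Msg : Type} [DecidableEq Msg] {c : ℕ} (ω : Msg × Fin c → ZMod 2) {μ' : Msg}
    {j : Fin c} {μ : Msg} {a : ℕ} (h' : ¬ (μ = μ' ∧ a = j)) :
    codeB c (ω + Pi.single (μ', j) 1) μ a = codeB c ω μ a := by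
  unfold codeB
  by_cases h : a < c
  · simp only [dif_pos h, Pi.add_apply, Pi.single_apply, Prod.mk.injEq, Fin.ext_iff, if_neg h',
      add_zero]
  · rw [dif_neg h, dif_neg h]

theorem code_diff {Msg : Type} [DecidableEq Msg] {c : ℕ} (ω : Msg × Fin c → ZMod 2) (μ' : Msg)
    {a : ℕ} (h : a < c) :
    codeB c (ω + Pi.single (μ', ⟨a, h⟩) 1) μ' a = codeB c ω μ' a + 1 := by
  unfold codeB
  simp only [dif_pos h, Pi.add_apply, Pi.single_eq_same]

theorem code_sum {Msg : Type} [Fintype Msg] [DecidableEq Msg] {c : ℕ} (μ μ' : Msg) (i : ℕ)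
    (β : ℕ → ZMod 2) (h : i ≠ 0 ∨ μ ≠ μ') (k : ℕ) (hk : k ≤ c - i) :
    ∑ ω : Msg × Fin c → ZMod 2, ∏ a ∈ range k, codeW c μ μ' i β ω a =
      Fintype.card (Msg × Fin c → ZMod 2) * (3 / 4) ^ k := by
  induction k with
  | zero => simp
  | succ k ih =>
    have hj : k + i < c := by omega
    have e : ∑ ω : Msg × Fin c → ZMod 2, ∏ a ∈ range (k + 1),
        codeW c μ μ' i β (ω + Pi.single (μ', ⟨k + i, hj⟩) 1) a =
        ∑ ω : Msg × Fin c → ZMod 2, ∏ a ∈ range (k + 1), codeW c μ μ' i β ω a :=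
      Equiv.sum_comp (Equiv.addRight (Pi.single (μ', (⟨k + i, hj⟩ : Fin c)) (1 : ZMod 2)))
        fun ω : Msg × Fin c → ZMod 2 => ∏ a ∈ range (k + 1), codeW c μ μ' i β ω a
    have e1 : ∀ y b : ZMod 2, y + 1 ≠ b ↔ ¬ y ≠ b := by decide
    have e2 : ∀ ω : Msg × Fin c → ZMod 2, ∏ a ∈ range (k + 1),
        codeW c μ μ' i β (ω + Pi.single (μ', ⟨k + i, hj⟩) 1) a +
        ∏ a ∈ range (k + 1), codeW c μ μ' i β ω a =
        3 / 2 * ∏ a ∈ range k, codeW c μ μ' i β ω a := by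
      intro ω
      have a1 : ¬ (μ = μ' ∧ k = k + i) := fun h' => h.elim (fun h => h (by omega)) fun h => h h'.1
      have a2 : ∀ a ∈ range k, codeW c μ μ' i β (ω + Pi.single (μ', ⟨k + i, hj⟩) 1) a =
          codeW c μ μ' i β ω a := fun a ha => by
        have := mem_range.1 ha
        unfold codeW
        rw [code_same ω (fun h' => by have : a = k + i := h'.2; omega),
          code_same ω (fun h' => by have : a + i = k + i := h'.2; omega)]
      have a3 : codeW c μ μ' i β (ω + Pi.single (μ', ⟨k + i, hj⟩) 1) k + codeW c μ μ' i β ω k =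
          3 / 2 := by
        unfold codeW
        rw [code_same ω (j := ⟨k + i, hj⟩) a1, code_diff, ← add_assoc]
        simp only [e1]
        split_ifs <;> norm_num
      rw [prod_range_succ, prod_range_succ, prod_congr rfl a2, ← mul_add, a3, mul_comm]
    have e3 := sum_congr rfl fun ω (_ : ω ∈ univ) => e2 ω
    rw [sum_add_distrib, ← mul_sum, ih (by omega), e] at e3
    rw [pow_succ]
    linarith

theorem code_bad {Msg : Type} [Fintype Msg] [DecidableEq Msg] {c : ℕ} (μ μ' : Msg) (i : ℕ)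
    (β : ℕ → ZMod 2) (h : i ≠ 0 ∨ μ ≠ μ') (hi : 2 * i ≤ c) :
    ∑ ω : Msg × Fin c → ZMod 2, (if 20 * ((range (c - i)).filter fun a =>
      codeB c ω μ a + codeB c ω μ' (a + i) ≠ β a).card < c then (1 : ℝ) else 0) ≤
      Fintype.card (Msg × Fin c → ZMod 2) * (9 / 10) ^ c := by
  have hp : (0 : ℝ) < (965 / 1000) ^ c := by positivity
  refine le_of_mul_le_mul_right ?_ hp
  have e1 : ((3 : ℝ) / 4) ^ (c - i) ≤ (9 / 10) ^ c * (965 / 1000) ^ c := by
    rw [← mul_pow]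
    calc ((3 : ℝ) / 4) ^ (c - i) ≤ ((9 / 10 * (965 / 1000)) ^ 2) ^ (c - i) :=
          pow_le_pow_left₀ (by norm_num) (by norm_num) _
      _ ≤ _ := by
        rw [← pow_mul]
        exact pow_le_pow_of_le_one (by norm_num) (by norm_num) (by omega)
  rw [mul_assoc, sum_mul]
  refine le_trans (sum_le_sum fun ω _ => ?_) ((code_sum μ μ' i β h _ le_rfl).le.trans
    (mul_le_mul_of_nonneg_left e1 (Nat.cast_nonneg _)))
  unfold codeW
  rw [prod_ite, prod_const, prod_const, one_pow, mul_one]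
  split_ifs with hb
  · rw [one_mul]
    refine (pow_le_pow_of_le_one (by norm_num) (by norm_num) hb.le).trans ?_
    rw [pow_mul]
    exact pow_le_pow_left₀ (by norm_num) (by norm_num) _
  · rw [zero_mul]
    positivity

theorem exists_code (Msg : Type) [Fintype Msg] [DecidableEq Msg] (N c : ℕ) (hN : 0 < N)
    (h : (Fintype.card Msg : ℝ) ^ 2 * (c + 1) * 2 ^ N * (9 / 10) ^ c < 1) :
    ∃ b : Msg → ℕ → ZMod 2, ∀ (μ μ' : Msg) (i : ℕ) (β : ℕ → ZMod 2), 2 * i ≤ c →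
      (i ≠ 0 ∨ μ ≠ μ') → (∀ a, β (a + N) = β a) →
      c ≤ 20 * ((range (c - i)).filter fun a => b μ a + b μ' (a + i) ≠ β a).card := by
  classical
  set bad : Msg × Msg × Fin (c + 1) × (Fin N → ZMod 2) → (Msg × Fin c → ZMod 2) → Prop :=
    fun q ω => (2 * q.2.2.1.1 ≤ c ∧ (q.2.2.1.1 ≠ 0 ∨ q.1 ≠ q.2.1)) ∧
      20 * ((range (c - q.2.2.1.1)).filter fun a => codeB c ω q.1 a + codeB c ω q.2.1 (a + q.2.2.1.1)
        ≠ q.2.2.2 ⟨a % N, Nat.mod_lt _ hN⟩).card < c with hbad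
  have hc : (0 : ℝ) < Fintype.card (Msg × Fin c → ZMod 2) := Nat.cast_pos.2 Fintype.card_pos
  have e1 : ∀ q, ∑ ω, (if bad q ω then (1 : ℝ) else 0) ≤
      Fintype.card (Msg × Fin c → ZMod 2) * (9 / 10) ^ c := fun q => by
    by_cases hq : 2 * q.2.2.1.1 ≤ c ∧ (q.2.2.1.1 ≠ 0 ∨ q.1 ≠ q.2.1)
    · simp only [hbad, hq, true_and]
      exact code_bad _ _ _ (fun a => q.2.2.2 ⟨a % N, Nat.mod_lt _ hN⟩) hq.2 hq.1
    · simp only [hbad, hq, false_and, if_false, sum_const_zero]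
      positivity
  have e2 : ∑ ω, ∑ q, (if bad q ω then (1 : ℝ) else 0) < ∑ _ω : Msg × Fin c → ZMod 2, (1 : ℝ) := by
    rw [sum_comm]
    refine (sum_le_sum fun q _ => e1 q).trans_lt ?_
    rw [sum_const, sum_const, card_univ, card_univ, nsmul_eq_mul, nsmul_eq_mul, mul_left_comm]
    refine mul_lt_mul_of_pos_left (lt_of_eq_of_lt ?_ h) hc
    simp only [Fintype.card_prod, Fintype.card_fin, Fintype.card_fun, ZMod.card]
    push_cast
    ring
  obtain ⟨ω, -, hω⟩ := exists_lt_of_sum_lt e2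
  refine ⟨codeB c ω, fun μ μ' i β h1 h2 h3 => ?_⟩
  by_contra h4
  have e3 : bad (μ, μ', ⟨i, by omega⟩, fun j => β j) ω := by
    refine ⟨⟨h1, h2⟩, ?_⟩
    simp only [Function.Periodic.map_mod_nat h3]
    exact not_le.1 h4
  have e4 := single_le_sum (f := fun q => if bad q ω then (1 : ℝ) else 0)
    (fun q _ => by split_ifs <;> norm_num) (mem_univ (μ, μ', (⟨i, by omega⟩ : Fin (c + 1)), fun j : Fin N => β j))
  rw [if_pos e3] at e4
  linarith

end Vale.Agent.P109.N
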