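import Mathlib

/-! P109: a good scale for a subadditive process.
PLAN.  `a j = (∫ ψ (ℓ 2^j)) / (ℓ 2^j) ∈ [0, K]`.  Telescoping over `j = j0 + i k`, `k ≤ M`, gives `k < M` with
`a (j0 + i k) - a (j0 + i k + i) ≤ K / M`.  With `b = ℓ 2^(j0 + i k)`, `W = 2^i b`, the defect
`Δ x = ∑ r < 2^i, ψ b (s^[r b] x) - ψ W x` is `≥ 0` (iterated subadditivity: `ψ (r b) x ≤ ∑ r' < r, ψ b (s^[r' b] x)`,
note `ψ 0 = 0`), `∫ Δ ≤ W K / M`, Markov: `ν {θ W < Δ} ≤ K / (M θ)`.  If `Δ x ≤ θ W` and `a + a' = W`, write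
`a = r b + e`, `e < b`: `ψ a x + ψ a' (s^[a] x) ≤ ∑ ψ b (..) + K b ≤ ψ W x + θ W + θ W` (treat `a = W` separately). -/

open MeasureTheory Set

namespace Vale.Agent.P109.N

theorem scale_iter {Ω : Type} (s : Ω → Ω) (ψ : ℕ → Ω → ℝ) (K : ℝ) (h1 : ∀ n x, ψ n x ≤ K * n)
    (sub : ∀ a b x, ψ (a + b) x ≤ ψ a x + ψ b (s^[a] x)) (b R : ℕ) (x : Ω) :
    ψ (R * b) x ≤ ∑ r ∈ Finset.range R, ψ b (s^[r * b] x) := by
  induction R with
  | zero => simpa using h1 0 x
  | succ R ih =>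
    rw [Finset.sum_range_succ, Nat.succ_mul]
    linarith [sub (R * b) b x]

theorem scale_split {Ω : Type} (s : Ω → Ω) (ψ : ℕ → Ω → ℝ) (K : ℝ) (hK : 0 ≤ K)
    (h0 : ∀ n x, 0 ≤ ψ n x) (h1 : ∀ n x, ψ n x ≤ K * n)
    (sub : ∀ a b x, ψ (a + b) x ≤ ψ a x + ψ b (s^[a] x)) (b R : ℕ) (x : Ω) :
    ∀ a a', a + a' = R * b →
      ψ a x + ψ a' (s^[a] x) ≤ ∑ r ∈ Finset.range R, ψ b (s^[r * b] x) + K * b := by
  induction R with
  | zero =>
    intro a a' h
    obtain ⟨rfl, rfl⟩ : a = 0 ∧ a' = 0 := by omega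
    have e1 := h1 0 x
    have e2 : 0 ≤ K * b := by positivity
    simp only [Nat.cast_zero, mul_zero] at e1
    simp only [Function.iterate_zero, id, Finset.range_zero, Finset.sum_empty]
    linarith
  | succ R ih =>
    intro a a' h
    rw [Nat.succ_mul] at h
    rw [Finset.sum_range_succ]
    rcases le_or_gt b a' with hb | hb
    · obtain ⟨c, rfl⟩ := Nat.exists_eq_add_of_le' hb
      have e : a + c = R * b := by omega
      have e1 := sub c b (s^[a] x)
      rw [← Function.iterate_add_apply, add_comm c a, e] at e1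
      linarith [ih a c e]
    · obtain ⟨e, rfl⟩ : ∃ e, a = R * b + e := Nat.exists_eq_add_of_le (by omega)
      have e1 : (e : ℝ) + a' = b := by exact_mod_cast (by omega : e + a' = b)
      have e2 := sub (R * b) e x
      have e3 := scale_iter s ψ K h1 sub b R x
      have e4 := h1 e (s^[R * b] x)
      have e5 := h1 a' (s^[R * b + e] x)
      have e6 := h0 b (s^[R * b] x)
      rw [← e1, mul_add]
      linarith

theorem exists_scale {Ω : Type} [MeasurableSpace Ω] (ν : Measure Ω) [IsProbabilityMeasure ν]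
    (s : Ω → Ω) (hs : MeasurePreserving s ν ν) (ψ : ℕ → Ω → ℝ) (hm : ∀ n, Measurable (ψ n))
    (K : ℝ) (h0 : ∀ n x, 0 ≤ ψ n x) (h1 : ∀ n x, ψ n x ≤ K * n)
    (sub : ∀ a b x, ψ (a + b) x ≤ ψ a x + ψ b (s^[a] x)) (i M : ℕ) (hM : 0 < M) (θ : ℝ)
    (hθ : 0 < θ) (hi : K ≤ θ * 2 ^ i) (ℓ j0 : ℕ) (hℓ : 0 < ℓ) :
    ∃ k < M, ν.real {x | ∃ a b, a + b = ℓ * 2 ^ (j0 + i * k + i) ∧
      ψ (a + b) x + 2 * θ * (a + b : ℕ) < ψ a x + ψ b (s^[a] x)} ≤ K / (M * θ) := by
  obtain ⟨x₀⟩ := nonempty_of_isProbabilityMeasure ν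
  have hK : 0 ≤ K := by simpa using (h0 1 x₀).trans (h1 1 x₀)
  have hMp : (0 : ℝ) < M := Nat.cast_pos.2 hM
  have hint : ∀ n, Integrable (ψ n) ν := fun n =>
    Integrable.of_bound (hm n).aestronglyMeasurable (K * n) (ae_of_all _ fun x => by
      rw [Real.norm_eq_abs, abs_of_nonneg (h0 n x)]
      exact h1 n x)
  have hcomp : ∀ n r, ∫ x, ψ n (s^[r] x) ∂ν = ∫ x, ψ n x ∂ν := fun n r => by
    rw [← integral_map (hs.iterate r).measurable.aemeasurable (hm n).aestronglyMeasurable,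
      (hs.iterate r).map_eq]
  set B : ℕ → ℕ := fun k => ℓ * 2 ^ (j0 + i * k) with hB
  have hBp : ∀ k, (0 : ℝ) < B k := fun k => Nat.cast_pos.2 (by positivity)
  set a : ℕ → ℝ := fun k => (∫ x, ψ (B k) x ∂ν) / B k with ha
  obtain ⟨k, hk, hak⟩ : ∃ k < M, a k - a (k + 1) ≤ K / M := by
    by_contra hc
    push Not at hc
    have e1 := Finset.sum_lt_sum_of_nonempty (Finset.nonempty_range_iff.2 hM.ne')
      fun k hk => hc k (Finset.mem_range.1 hk)
    rw [Finset.sum_range_sub', Finset.sum_const, Finset.card_range, nsmul_eq_mul,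
      mul_div_cancel₀ _ hMp.ne'] at e1
    have e2 : 0 ≤ a M := div_nonneg (integral_nonneg (h0 _)) (hBp M).le
    have e3 : a 0 ≤ K := by
      refine (div_le_iff₀ (hBp 0)).2 ?_
      simpa using integral_mono (hint (B 0)) (integrable_const (K * B 0)) (h1 (B 0))
    linarith
  refine ⟨k, hk, ?_⟩
  have hW : B (k + 1) = 2 ^ i * B k := by
    simp only [hB]
    ring
  have hW' : ℓ * 2 ^ (j0 + i * k + i) = 2 ^ i * B k := by
    simp only [hB]
    ring
  have hi2 : ∀ r, Integrable (fun x => ψ (B k) (s^[r * B k] x)) ν := fun r =>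
    (hs.iterate _).integrable_comp_of_integrable (hint _)
  have e1 := mul_meas_ge_le_integral_of_nonneg (μ := ν)
    (f := fun x => ∑ r ∈ Finset.range (2 ^ i), ψ (B k) (s^[r * B k] x) - ψ (2 ^ i * B k) x)
    (ae_of_all _ fun x => sub_nonneg.2 (scale_iter s ψ K h1 sub _ _ x))
    ((integrable_finsetSum _ fun r _ => hi2 r).sub (hint _)) (θ * (2 ^ i * B k))
  rw [integral_sub (integrable_finsetSum _ fun r _ => hi2 r) (hint _),
    integral_finsetSum _ fun r _ => hi2 r] at e1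
  simp only [hcomp, Finset.sum_const, Finset.card_range, nsmul_eq_mul, Nat.cast_pow,
    Nat.cast_ofNat] at e1
  have hp : (0 : ℝ) < 2 ^ i * B k := by have := hBp k; positivity
  have e2 : 2 ^ i * ∫ x, ψ (B k) x ∂ν - ∫ x, ψ (2 ^ i * B k) x ∂ν =
      2 ^ i * B k * (a k - a (k + 1)) := by
    have := hBp k
    simp only [ha, hW, Nat.cast_mul, Nat.cast_pow, Nat.cast_ofNat]
    field_simp
  rw [e2] at e1
  refine le_trans (measureReal_mono (fun x => ?_) (measure_ne_top _ _))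
    (?_ : ν.real {x | θ * (2 ^ i * B k) ≤ ∑ r ∈ Finset.range (2 ^ i), ψ (B k) (s^[r * B k] x) -
      ψ (2 ^ i * B k) x} ≤ _)
  · rintro ⟨c, c', h2, h3⟩
    rw [hW'] at h2
    have e3 := scale_split s ψ K hK h0 h1 sub _ _ x c c' h2
    have e4 := mul_le_mul_of_nonneg_right hi (hBp k).le
    rw [h2] at h3
    push_cast at h3
    change θ * (2 ^ i * B k) ≤ _
    linarith
  · rw [le_div_iff₀ (by positivity)]
    rw [le_div_iff₀ hMp] at hak
    refine le_of_mul_le_mul_left ?_ hp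
    have e3 := mul_le_mul_of_nonneg_right e1 hMp.le
    have e4 := mul_le_mul_of_nonneg_left hak hp.le
    linarith

end Vale.Agent.P109.N
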