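import Vale.Agent.P109.N.Form
import Vale.Agent.P109.N.Scale

/-! P109: a scale at which Green functions of the derivative cocycle are subexponential. -/

open MeasureTheory Set Metric Matrix
open scoped NNReal ENNReal

noncomputable section

namespace Vale.Agent.P109.N

theorem green (d : ℕ) (C : ℝ) (hC : 1 ≤ C) : ∃ K' : ℝ, 1 ≤ K' ∧ ∀ ε θ : ℝ, 0 < ε → 0 < θ →
    ∃ J0 : ℕ, ∀ (ν : Measure (R d)) (s : R d → R d), Flat d C ν s → ∀ ℓ j0 : ℕ, 0 < ℓ →
    ∃ j, j0 ≤ j ∧ j ≤ j0 + J0 ∧ ∃ Bad : Set (R d), ν.real Bad ≤ ε ∧ ∀ p ∉ Bad, ∀ w : ℝ,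
      (∀ t < 2 * (ℓ * 2 ^ j), Nice C ν s (s^[t] p) w) → ∀ a, 1 ≤ a → a < 2 * (ℓ * 2 ^ j) →
      ∀ v : R d, ∃ δ : ℕ → R d, (∀ t, t + 1 < 2 * (ℓ * 2 ^ j) →
        δ (t + 1) = fderiv ℝ s (s^[t] p) (δ t) + if t + 1 = a then v else 0) ∧
      ∀ t < 2 * (ℓ * 2 ^ j), ‖δ t‖ ≤ K' * Real.exp (4 * θ * (ℓ * 2 ^ j : ℕ)) * ‖v‖ := by
  classical
  obtain ⟨K, K', hK', main⟩ := form_main d C hC
  refine ⟨K', hK', fun ε θ hε hθ => ?_⟩
  obtain ⟨i, hi⟩ := pow_unbounded_of_one_lt (K' / θ) (one_lt_two (α := ℝ))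
  obtain ⟨M, hM⟩ := exists_nat_gt (K' / (θ * ε))
  have M0 : (0 : ℝ) < M := lt_trans (by positivity) hM
  refine ⟨i * M, fun ν s hF ℓ j0 hℓ => ?_⟩
  have := hF.prob
  have hs := hF.mp.measurable
  let S : Set (R d) := {z | ‖fderiv ℝ s z‖ ≤ C ∧ (fderiv ℝ s z).det ≠ 0}
  have mS : MeasurableSet S :=
    (measurableSet_le (measurable_fderiv ℝ s).norm measurable_const).inter
      ((ContinuousLinearMap.continuous_det.measurable.comp (measurable_fderiv ℝ s))
        (measurableSet_singleton 0).compl)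
  let A : R d → Mat d := fun z =>
    if z ∈ S then LinearMap.toMatrix' (fderiv ℝ s z : R d →ₗ[ℝ] R d) else 1
  have mA : ∀ i j, Measurable fun z => A z i j := by
    intro i j
    have : (fun z => A z i j) = fun z =>
        if z ∈ S then fderiv ℝ s z (Pi.single j 1) i else (1 : Mat d) i j := by
      ext z
      simp only [A]
      split_ifs <;> simp
    rw [this]
    exact Measurable.ite mS ((measurable_pi_apply i).comp (measurable_fderiv_apply_const ℝ s _))
      measurable_const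
  have A1 : ∀ z, (A z).det ≠ 0 := by
    intro z
    simp only [A]
    split_ifs with h
    · rw [LinearMap.det_toMatrix']; exact h.2
    · simp
  have A2 : ∀ z i j, |A z i j| ≤ C := by
    intro z i j
    simp only [A]
    split_ifs with h
    · rw [LinearMap.toMatrix'_apply]
      refine (norm_le_pi_norm (fderiv ℝ s z (Pi.single j 1)) i).trans ?_
      refine ((fderiv ℝ s z).le_opNorm _).trans ?_
      rw [Pi.norm_single, norm_one, mul_one]
      exact h.1
    · rw [Matrix.one_apply]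
      split_ifs <;> simp <;> linarith
  let ψ : ℕ → R d → ℝ := fun n x => psi K (fun t => A (s^[t] x)) n
  have sh : ∀ a x, (fun t => A (s^[a + t] x)) = fun t => A (s^[t] (s^[a] x)) := by
    intro a x
    ext1 t
    rw [add_comm, Function.iterate_add_apply]
  have mm := fun x => main (fun t => A (s^[t] x)) (fun _ => A1 _) fun _ => A2 _
  obtain ⟨k, hk, hb⟩ := exists_scale ν s hF.mp ψ
    (fun n => measurable_psi K _ (fun t i j => (mA i j).comp (hs.iterate t)) n) K'
    (fun n x => ((mm x).1 n).1) (fun n x => ((mm x).1 n).2)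
    (fun a b x => by have := (mm x).2.1 a b; rwa [sh] at this) i M (by exact_mod_cast M0) θ hθ
    (by rw [div_lt_iff₀ hθ] at hi; linarith) ℓ (j0 + 1) hℓ
  refine ⟨j0 + i * k + i, by omega, by nlinarith, _, hb.trans ?_, ?_⟩
  · rw [div_lt_iff₀ (by positivity)] at hM
    rw [div_le_iff₀ (by positivity)]
    linarith
  intro p hp w hn a ha1 ha2 v
  set W := 2 * (ℓ * 2 ^ (j0 + i * k + i)) with hW
  have e : a + (W - a) = W := by omega
  have hd : ψ a p + ψ (W - a) (s^[a] p) ≤ ψ (a + (W - a)) p + 2 * θ * (a + (W - a) : ℕ) := by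
    by_contra hc
    refine hp ⟨a, W - a, ?_, not_le.1 hc⟩
    rw [e, hW]; ring
  obtain ⟨δ, h1, h2⟩ := (mm p).2.2 a (W - a) _ ha1 (by omega) (by rw [sh]; exact hd) v
  rw [e] at h1 h2
  refine ⟨δ, fun t ht => ?_, fun t ht => (h2 t ht).trans (le_of_eq ?_)⟩
  · have hz : s^[t] p ∈ S := ⟨(hn t (by omega)).bd, (hn t (by omega)).det⟩
    rw [h1 t ht]
    simp only [A, if_pos hz]
    rw [← Matrix.toLin'_apply, Matrix.toLin'_toMatrix']
    rfl
  · rw [hW]
    push_cast
    ring_nf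

end Vale.Agent.P109.N
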