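import Vale.Agent.P109.N.Couple2
import Vale.Agent.P109.N.Couple3

/-! P109: approximate product structure of flat systems at some scale. -/

open MeasureTheory Set Metric
open scoped NNReal ENNReal

noncomputable section

namespace Vale.Agent.P109.N

theorem params (d : ℕ) (C K' ε η : ℝ) (hε : 0 < ε) (hη : 0 < η) : ∃ l0 : ℕ, 0 < l0 ∧
    ∀ L : ℕ, l0 ≤ L → (2 * L : ℕ) ≤ Real.exp (η * L) ∧ d ≤ Real.exp (η * L) ∧
      C ≤ Real.exp (η * L) ∧ K' ≤ Real.exp (η * L) ∧ 16 ≤ Real.exp (η * L) ∧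
      12 / ε ≤ Real.exp (η * L) := by
  obtain ⟨l0, h⟩ := exists_nat_gt (4 / η ^ 2 + (d + |C| + |K'| + 16 + 12 / ε) / η)
  have p1 : 0 < 4 / η ^ 2 := by positivity
  have p2 : 0 < (d + |C| + |K'| + 16 + 12 / ε) / η := by positivity
  refine ⟨l0, by exact_mod_cast (by linarith : (0 : ℝ) < l0), fun L hL => ?_⟩
  have hL' : (l0 : ℝ) ≤ L := by exact_mod_cast hL
  have h1 : 4 / η ^ 2 ≤ L := by linarith
  have h2 : (d + |C| + |K'| + 16 + 12 / ε) / η ≤ L := by linarith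
  rw [div_le_iff₀ (by positivity)] at h1 h2
  have L0 : (0 : ℝ) ≤ L := by positivity
  have e1 := Real.add_one_le_exp (η * L)
  have e2 := Real.quadratic_le_exp_of_nonneg (x := η * L) (by positivity)
  have a1 := le_abs_self C
  have a2 := le_abs_self K'
  have a3 := abs_nonneg C
  have a4 := abs_nonneg K'
  have a5 : 0 < 12 / ε := by positivity
  have a6 : (0 : ℝ) ≤ d := by positivity
  refine ⟨?_, by linarith, by linarith, by linarith, by linarith, by linarith⟩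
  push_cast
  have : 0 ≤ η * L := by positivity
  nlinarith

theorem numerics (d W ℓ : ℕ) (C K' ε T : ℝ) (hC : 1 ≤ C) (hK' : 1 ≤ K') (hε : 0 < ε)
    (hℓ : 0 < ℓ) (ℓW : ℓ ≤ W) (T1 : W ≤ T) (T2 : d ≤ T) (T3 : C ≤ T) (T4 : K' ≤ T) (T5 : 16 ≤ T)
    (T6 : 12 / ε ≤ T) : ∃ (r ρ : ℝ) (m : ℕ), 0 < r ∧ 0 < ρ ∧ 0 < m ∧ ρ ≤ r ∧ r / (2 * m) ≤ r ∧
      r ≤ 1 / ℓ ∧ W * (C * (4 * r)) ≤ ε / 3 ∧ (W * d : ℕ) / (m : ℝ) ≤ ε / 3 ∧
      16 * (d * W) ^ 2 * (K' * T) * C * r ≤ 1 ∧ 4 * (d * W) * (K' * T) * ρ ≤ r / (2 * m) ∧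
      1 ≤ C / ρ ^ d ∧ (2 * (C / ρ) + 3) ^ d * (C / ρ ^ d) ≤ T ^ (41 * d + 1) := by
  have T0 : 0 < T := by linarith
  have T1' : 1 ≤ T := by linarith
  have C0 : 0 < C := by linarith
  have εT : 1 / T ≤ ε / 12 := by
    rw [div_le_iff₀ hε] at T6
    rw [div_le_iff₀ T0]; linarith
  have tp : ∀ {a b : ℕ}, a ≤ b → T ^ a ≤ T ^ b := fun h => pow_le_pow_right₀ T1' h
  set r := 1 / T ^ 9 with hr
  set ρ := 1 / T ^ 19 with hρ
  set m := ⌈T ^ 3⌉₊ with hm
  have m1 : T ^ 3 ≤ m := Nat.le_ceil _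
  have m2 : (m : ℝ) ≤ 2 * T ^ 3 := by
    have := (Nat.ceil_lt_add_one (by positivity : 0 ≤ T ^ 3)).le
    have := one_le_pow₀ (n := 3) T1'
    linarith
  have m0 : (0 : ℝ) < m := lt_of_lt_of_le (by positivity) m1
  have r0 : 0 < r := by positivity
  have ρ0 : 0 < ρ := by positivity
  have dW : (d : ℝ) * W ≤ T ^ 2 := by rw [sq]; gcongr
  have hΓ : K' * T ≤ T ^ 2 := by rw [sq]; gcongr
  have ρi : C / ρ = C * T ^ 19 := by rw [hρ]; field_simp
  have ρd : C / ρ ^ d = C * (T ^ 19) ^ d := by rw [hρ]; simp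
  refine ⟨r, ρ, m, r0, ρ0, by exact_mod_cast m0,
    one_div_le_one_div_of_le (by positivity) (tp (by norm_num)), ?_, ?_, ?_, ?_, ?_, ?_, ?_, ?_⟩
  · have : (1 : ℝ) ≤ m := (one_le_pow₀ T1').trans m1
    exact div_le_self r0.le (by linarith)
  · have : (0 : ℝ) < ℓ := by exact_mod_cast hℓ
    refine one_div_le_one_div_of_le this ?_
    have h1 : (ℓ : ℝ) ≤ W := by exact_mod_cast ℓW
    have := tp (show 1 ≤ 9 by norm_num)
    linarith
  · calc _ ≤ T * (T * (4 * r)) := by gcongr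
      _ = 4 * (1 / T ^ 7) := by rw [hr]; field_simp
      _ ≤ 4 * (1 / T ^ 1) := by
          have := one_div_le_one_div_of_le (by positivity) (tp (show 1 ≤ 7 by norm_num))
          linarith
      _ ≤ _ := by rw [pow_one]; linarith
  · calc _ ≤ T ^ 2 / T ^ 3 := by
          push_cast
          rw [mul_comm]
          gcongr
      _ = 1 / T := by field_simp
      _ ≤ _ := by linarith
  · calc _ ≤ T * (T ^ 2) ^ 2 * T ^ 2 * T * r := by gcongr
      _ = 1 / T := by rw [hr]; field_simp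
      _ ≤ 1 := by rw [div_le_one T0]; exact T1'
  · have : 4 ≤ T := by linarith
    calc _ ≤ T * T ^ 2 * T ^ 2 * ρ := by gcongr
      _ = r / (T ^ 2 * T ^ 3) := by rw [hr, hρ]; field_simp
      _ ≤ _ := by
        refine div_le_div_of_nonneg_left r0.le (by positivity) ?_
        have : 4 ≤ T ^ 2 := by nlinarith
        have : 0 < T ^ 3 := by positivity
        nlinarith
  · rw [ρd]
    exact one_le_mul_of_one_le_of_one_le hC (one_le_pow₀ (one_le_pow₀ T1'))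
  · rw [ρi, ρd]
    have h1 : 2 * (C * T ^ 19) + 3 ≤ T ^ 22 := by
      have a1 : C * T ^ 19 ≤ T ^ 20 := by rw [pow_succ' T 19]; gcongr
      have a2 : 1 ≤ T ^ 20 := one_le_pow₀ T1'
      have a3 : T ^ 22 = T ^ 2 * T ^ 20 := by ring
      have a4 : 5 ≤ T ^ 2 := by nlinarith
      have a5 : 5 * T ^ 20 ≤ T ^ 2 * T ^ 20 := by gcongr
      linarith
    calc _ ≤ (T ^ 22) ^ d * (T * (T ^ 19) ^ d) := by gcongr
      _ = T ^ (41 * d + 1) := by ring

theorem couple (d : ℕ) (C : ℝ) : ∃ κ : ℝ, 1 ≤ κ ∧ ∀ ε θ : ℝ, 0 < ε → 0 < θ → ∃ J0 l0 : ℕ,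
    ∀ (ν : Measure (R d)) (s : R d → R d), Flat d C ν s → ∀ ℓ : ℕ, l0 ≤ ℓ → ∀ j0 : ℕ,
    ∃ j, j0 ≤ j ∧ j ≤ j0 + J0 ∧ ∀ (G : Set (R d)) (E : Set (R d × R d)), MeasurableSet G →
      MeasurableSet E → (∀ p ∈ G, ∀ x y, (∀ t < ℓ * 2 ^ j, dist (s^[t] x) (s^[t] p) ≤ 1 / ℓ ∧
        dist (s^[t] y) (s^[ℓ * 2 ^ j + t] p) ≤ 1 / ℓ) → (x, y) ∈ E) →
      ∃ (U : Finset (Fin d → ℤ)) (α β : (Fin d → ℤ) → Measure (R d)) (D : ℝ), 1 ≤ D ∧
        U.card * D ≤ Real.exp (θ * (ℓ * 2 ^ j : ℕ)) ∧ (∀ u, α u ≤ ν) ∧ ∑ u ∈ U, α u ≤ ν ∧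
        (∀ u, β u univ ≤ 1) ∧ (∀ u ∈ U, β u ≤ ENNReal.ofReal D • ν) ∧
        ∑ u ∈ U, α u univ • β u ≤ ENNReal.ofReal κ • ν ∧
        ν.real G - ε ≤ κ * ∑ u ∈ U, ((α u).prod (β u)).real E := by
  by_cases hC : 1 ≤ C
  swap
  · exact ⟨1, le_rfl, fun _ _ _ _ => ⟨0, 0, fun _ _ hF => absurd hF.one_le hC⟩⟩
  obtain ⟨K', hK', gr⟩ := green d C hC
  have C0 : 0 < C := by linarith
  have d2 : (1 : ℝ) ≤ 2 ^ d := one_le_pow₀ (by norm_num)
  have C2 : 1 ≤ C ^ 2 := one_le_pow₀ hC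
  refine ⟨3 * C ^ 2 * 2 ^ d, by nlinarith, fun ε θ hε hθ => ?_⟩
  set η := θ / (41 * d + 1) with hη
  have η0 : 0 < η := by positivity
  obtain ⟨J0, gr⟩ := gr (ε / 3) (η / 4) (by positivity) (by positivity)
  obtain ⟨l0, l00, pa⟩ := params d C K' ε η hε η0
  refine ⟨J0, l0, fun ν s hF ℓ hℓ j0 => ?_⟩
  obtain ⟨j, j1, j2, B1, hB1, gr⟩ := gr ν s hF ℓ j0 (by omega)
  refine ⟨j, j1, j2, fun G E mG mE hE => ?_⟩
  have := hF.prob
  have hs := hF.mp.measurable
  set L := ℓ * 2 ^ j with hL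
  have ℓL : ℓ ≤ L := Nat.le_mul_of_pos_right _ (by positivity)
  obtain ⟨T1, T2, T3, T4, T5, T6⟩ := pa L (hℓ.trans ℓL)
  have e4 : 4 * (η / 4) * (L : ℝ) = η * L := by ring
  rw [e4] at gr
  set T := Real.exp (η * L) with hT
  set W := 2 * L with hW
  obtain ⟨r, ρ, m, r0, ρ0, m0, ρr, r'r, rℓ, n1, n2, n3, n4, n5, n6⟩ :=
    numerics d W ℓ C K' ε T hC hK' hε (by omega) (by omega) T1 T2 T3 T4 T5 T6
  have T0 : 0 < T := by positivity
  -- the exceptional set
  obtain ⟨k, hk, hB3⟩ := exists_shift ν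
    (fun (i : Fin W × Fin d) p => ⌊m * Int.fract (s^[i.1] p i.2 / r)⌋)
    (fun i => Int.measurable_floor.comp ((measurable_fract.comp
      (((measurable_pi_apply _).comp (hs.iterate _)).div_const _)).const_mul _)) m
    m0
  set B3 := {x | ∃ i : Fin W × Fin d, ⌊m * Int.fract (s^[i.1] x i.2 / r)⌋ = k} with hB3d
  let B2 : Set (R d) := ⋃ t : Fin W, s^[t] ⁻¹' {z | ¬Nice C ν s z (4 * r)}
  have hB2 : ν.real B2 ≤ ε / 3 := by
    refine (measureReal_iUnion_fintype_le _).trans ?_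
    calc _ ≤ ∑ _t : Fin W, C * (4 * r) := by
          refine Finset.sum_le_sum fun t _ => ?_
          refine ENNReal.toReal_le_of_le_ofReal (by positivity) (le_trans ?_ (hF.nice _ (by positivity)))
          have := Measure.le_map_apply (μ := ν) (hs.iterate t).aemeasurable
            {z | ¬Nice C ν s z (4 * r)}
          rwa [(hF.mp.iterate t).map_eq] at this
      _ = W * (C * (4 * r)) := by simp
      _ ≤ _ := n1
  have hB3' : ν.real B3 ≤ ε / 3 := by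
    refine hB3.trans ?_
    simp only [Fintype.card_prod, Fintype.card_fin]
    exact n2
  let Bad := toMeasurable ν (B1 ∪ B2 ∪ B3)
  have hBad : ν.real Bad ≤ ε := by
    have : ν.real Bad = ν.real (B1 ∪ B2 ∪ B3) := by simp only [Bad, Measure.real, measure_toMeasurable]
    rw [this]
    have := measureReal_union_le (μ := ν) (B1 ∪ B2) B3
    have := measureReal_union_le (μ := ν) B1 B2
    linarith
  have nB : ∀ p ∈ G \ Bad, p ∉ B1 ∧ p ∉ B2 ∧ p ∉ B3 := by
    intro p hp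
    have : p ∉ B1 ∪ B2 ∪ B3 := fun h => hp.2 (subset_toMeasurable _ _ h)
    simp only [mem_union, not_or] at this
    exact ⟨this.1.1, this.1.2, this.2⟩
  have nice : ∀ p ∈ G \ Bad, ∀ t < W, Nice C ν s (s^[t] p) (4 * r) := by
    intro p hp t ht
    by_contra h
    exact (nB p hp).2.1 (mem_iUnion.2 ⟨⟨t, ht⟩, h⟩)
  have L0 : 0 < L := by omega
  obtain ⟨U, α, β, u1, u2, u3, u4, u5, u6, u7⟩ := mixture hC hF.up hF.supp _ (hF.mp.iterate L) ρ0
    E mE (ν (G \ Bad)) (3 * ENNReal.ofReal C ^ 2) (by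
    intro v hv
    have mz : Measurable fun x => s^[L] x + v := (hs.iterate L).add_const v
    refine cells (W := W) (L := L) (Γ := K' * T) (r := r) hF (by positivity) n3 r0 hk n4
      (by omega) v hv _ _ (mG.diff (measurableSet_toMeasurable _ _))
      (((measurable_id.prodMk mz) mE).inter (((measurable_box ρ).comp mz)
        (MeasurableSet.of_discrete (s := {u | GoodBox C ρ ν u})))) nice
      (fun p hp => gr p (nB p hp).1 _ (nice p hp))
      (fun p hp t ht i h => (nB p hp).2.2 ⟨(⟨t, ht⟩, i), h⟩) ?_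
    · intro p hp x hx
      refine ⟨hE p hp.1 _ _ fun t ht => ⟨?_, ?_⟩, fun B mB hB => ?_⟩
      · have := hx t (by omega)
        rw [porb_lt _ _ _ _ ht] at this
        linarith
      · have := hx (L + t) (by omega)
        rw [porb_ge _ L0] at this
        linarith
      · refine (nice p hp L (by omega)).low B mB fun y hy => ?_
        have h1 := dist_box ρ0 (y := y) (z := s^[L] x + v) (hB hy)
        have h2 := hx (L + 0) (by omega)
        rw [porb_ge _ L0] at h2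
        have := dist_triangle y (s^[L] x + v) (s^[L] p)
        simp only [Function.iterate_zero, id, add_zero] at h2
        rw [mem_ball]; linarith)
  refine ⟨U, α, β, C / ρ ^ d, n5, ?_, u2, u3, u4, u5, u6.trans ?_, ?_⟩
  · calc _ ≤ T ^ (41 * d + 1) := le_trans (by gcongr) n6
      _ = _ := by
          rw [hT, ← Real.exp_nat_mul, hη]
          congr 1
          push_cast
          field_simp
  · refine Measure.le_iff.2 fun S _ => ?_
    simp only [Measure.smul_apply, smul_eq_mul]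
    gcongr
    nlinarith
  · have fα : ∀ u, IsFiniteMeasure (α u) := fun u => isFiniteMeasure_of_le ν (u2 u)
    have fβ : ∀ u, IsFiniteMeasure (β u) := fun u => ⟨(u4 u).trans_lt ENNReal.one_lt_top⟩
    have h1 := ENNReal.toReal_mono (by
      refine ENNReal.mul_ne_top (by finiteness) (ENNReal.sum_ne_top.2 fun u _ => measure_ne_top _ _)) u7
    rw [ENNReal.toReal_mul, ENNReal.toReal_sum (fun u _ => measure_ne_top _ _)] at h1
    simp only [ENNReal.toReal_mul, ENNReal.toReal_pow, ENNReal.toReal_ofReal C0.le,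
      ENNReal.toReal_ofNat] at h1
    have h2 := le_measureReal_sdiff (μ := ν) (s₁ := G) (s₂ := Bad)
    simp only [Measure.real] at *
    linarith

end Vale.Agent.P109.N
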