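import Vale.Agent.P109.N.Shadow

/-! P109: cells, robust points and comparison of true orbits with pseudo-orbits. -/

open MeasureTheory Set Metric
open scoped NNReal ENNReal

noncomputable section

namespace Vale.Agent.P109.N

theorem le_of_fibres {Ω ι : Type} [MeasurableSpace Ω] [Countable ι] [MeasurableSpace ι]
    [MeasurableSingletonClass ι] (μ : Measure Ω) (f g : Ω → ι) (hg : Measurable g)
    (P Q : Set Ω) (hQ : MeasurableSet Q) (c : ℝ≥0∞)
    (h : ∀ i, μ (P ∩ f ⁻¹' {i}) ≤ c * μ (Q ∩ g ⁻¹' {i})) : μ P ≤ c * μ Q := by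
  have e1 : P = ⋃ i, P ∩ f ⁻¹' {i} := by ext x; simp
  have e2 : Q = ⋃ i, Q ∩ g ⁻¹' {i} := by ext x; simp
  have e3 : μ Q = ∑' i, μ (Q ∩ g ⁻¹' {i}) := by
    conv_lhs => rw [e2]
    refine measure_iUnion ?_ fun i => hQ.inter (hg (measurableSet_singleton i))
    intro i j hij
    refine disjoint_left.2 fun x hx hy => hij ?_
    exact hx.2.symm.trans hy.2
  rw [e3, ← ENNReal.tsum_mul_left]
  calc μ P = μ (⋃ i, P ∩ f ⁻¹' {i}) := by rw [← e1]
    _ ≤ _ := measure_iUnion_le _
    _ ≤ _ := ENNReal.tsum_le_tsum h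

theorem floor_robust (m k : ℕ) (hk : k < m) (a b : ℝ) (ha : ⌊m * Int.fract a⌋ ≠ k)
    (hab : |b - a| ≤ 1 / (2 * m)) : ⌊b - (k + 1 / 2) / m⌋ = ⌊a - (k + 1 / 2) / m⌋ := by
  have m0 : (0 : ℝ) < m := by exact_mod_cast (by omega : 0 < m)
  have hkm : (k : ℝ) + 1 ≤ m := by exact_mod_cast hk
  have k0 : (0 : ℝ) ≤ k := by positivity
  have f0 := Int.fract_nonneg a
  have f1 := Int.fract_lt_one a
  have e : a = ⌊a⌋ + Int.fract a := (Int.floor_add_fract a).symm
  set f := Int.fract a
  set n := ⌊a⌋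
  rw [abs_le] at hab
  have h2 : 1 / (2 * (m : ℝ)) = (1 / 2) / m := by field_simp
  rw [h2] at hab
  set c : ℝ := 1 / m with hc
  have c0 : 0 < c := by positivity
  have cm : c * m = 1 := by rw [hc]; field_simp
  have d1 : ∀ y : ℝ, y / m = y * c := fun y => by rw [hc]; ring
  simp only [d1] at hab ⊢
  have kc : (k + 1) * c ≤ 1 := by nlinarith
  rcases lt_or_gt_of_ne ha with h | h
  · have h3 : m * f < k := by
      have := Int.floor_lt.1 h
      exact_mod_cast this
    have h4 : f < k * c := by nlinarith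
    have i1 : ⌊b - (k + 1 / 2) * c⌋ = n - 1 := by
      rw [Int.floor_eq_iff]; push_cast
      constructor <;> nlinarith
    have i2 : ⌊a - (k + 1 / 2) * c⌋ = n - 1 := by
      rw [Int.floor_eq_iff]; push_cast
      constructor <;> nlinarith
    rw [i1, i2]
  · have h3 : (k : ℝ) + 1 ≤ m * f := by
      have : (k : ℤ) + 1 ≤ ⌊m * f⌋ := h
      have := Int.le_floor.1 this
      exact_mod_cast this
    have h4 : (k + 1) * c ≤ f := by nlinarith
    have kc0 : 0 ≤ k * c := by positivity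
    have i1 : ⌊b - (k + 1 / 2) * c⌋ = n := by
      rw [Int.floor_eq_iff]
      constructor <;> nlinarith
    have i2 : ⌊a - (k + 1 / 2) * c⌋ = n := by
      rw [Int.floor_eq_iff]
      constructor <;> nlinarith
    rw [i1, i2]

theorem exists_shift {Ω ι : Type} [MeasurableSpace Ω] [Fintype ι] (ν : Measure Ω)
    [IsProbabilityMeasure ν] (f : ι → Ω → ℤ) (hf : ∀ i, Measurable (f i)) (m : ℕ) (hm : 0 < m) :
    ∃ k < m, ν.real {x | ∃ i, f i x = k} ≤ Fintype.card ι / m := by
  have h1 : ∀ i, ∑ k ∈ Finset.range m, ν.real {x | f i x = (k : ℕ)} ≤ 1 := by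
    intro i
    rw [← measureReal_biUnion_finset]
    · exact measureReal_le_one
    · intro a _ b _ hab
      refine disjoint_left.2 fun x hx hy => hab ?_
      have : (a : ℤ) = b := hx.symm.trans hy
      exact_mod_cast this
    · exact fun k _ => hf i (measurableSet_singleton _)
  have h2 : ∑ k ∈ Finset.range m, ν.real {x | ∃ i, f i x = (k : ℕ)} ≤
      ∑ _k ∈ Finset.range m, (Fintype.card ι / m : ℝ) := by
    calc _ ≤ ∑ k ∈ Finset.range m, ∑ i, ν.real {x | f i x = (k : ℕ)} := by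
          refine Finset.sum_le_sum fun k _ => ?_
          rw [ofPred_exists]
          exact measureReal_iUnion_fintype_le _
      _ = ∑ i, ∑ k ∈ Finset.range m, ν.real {x | f i x = (k : ℕ)} := Finset.sum_comm
      _ ≤ ∑ _i : ι, (1 : ℝ) := Finset.sum_le_sum fun i _ => h1 i
      _ = _ := by
          have : (m : ℝ) ≠ 0 := by positivity
          simp only [Finset.sum_const, Finset.card_univ, nsmul_eq_mul, mul_one, Finset.card_range]
          field_simp
  obtain ⟨k, hk, h⟩ := Finset.exists_le_of_sum_le ⟨0, Finset.mem_range.2 hm⟩ h2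
  exact ⟨k, Finset.mem_range.1 hk, h⟩

theorem measurable_porb {d : ℕ} {s : R d → R d} (hs : Measurable s) (L : ℕ) (v : R d) (t : ℕ) :
    Measurable fun x => porb s L v x t := by
  induction t with
  | zero => exact measurable_id
  | succ t ih => exact (hs.comp ih).add_const _

theorem porb_lt {d : ℕ} (s : R d → R d) (L : ℕ) (v x : R d) {t : ℕ} (h : t < L) :
    porb s L v x t = s^[t] x := by
  induction t with
  | zero => rfl
  | succ t ih =>
    rw [porb, ih (by omega), if_neg (by omega), add_zero, Function.iterate_succ_apply']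

theorem porb_ge {d : ℕ} (s : R d → R d) {L : ℕ} (hL : 0 < L) (v x : R d) (t : ℕ) :
    porb s L v x (L + t) = s^[t] (s^[L] x + v) := by
  induction t with
  | zero =>
    obtain ⟨n, rfl⟩ : ∃ n, L = n + 1 := ⟨L - 1, by omega⟩
    simp only [Nat.add_zero, Function.iterate_zero, id]
    rw [porb, porb_lt _ _ _ _ (Nat.lt_succ_self n), if_pos rfl, Function.iterate_succ_apply']
  | succ t ih =>
    rw [← add_assoc, porb, ih, if_neg (by omega), add_zero, Function.iterate_succ_apply']

theorem cells {d W L m k : ℕ} {C Γ r ρ : ℝ} {ν : Measure (R d)} {s : R d → R d}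
    (hF : Flat d C ν s) (hΓ : 0 ≤ Γ) (small : 16 * (d * W) ^ 2 * Γ * C * r ≤ 1) (hr : 0 < r)
    (hk : k < m) (hρ : 4 * (d * W) * Γ * ρ ≤ r / (2 * m)) (hW : 0 < W) (v : R d) (hv : ‖v‖ ≤ ρ)
    (P Q : Set (R d)) (mP : MeasurableSet P) (mQ : MeasurableSet Q)
    (hn : ∀ p ∈ P, ∀ t < W, Nice C ν s (s^[t] p) (4 * r))
    (hR : ∀ p ∈ P, ∀ a, 1 ≤ a → a < W → ∀ v : R d, ∃ δ : ℕ → R d,
      (∀ t, t + 1 < W → δ (t + 1) = fderiv ℝ s (s^[t] p) (δ t) + if t + 1 = a then v else 0) ∧
      ∀ t < W, ‖δ t‖ ≤ Γ * ‖v‖)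
    (hrob : ∀ p ∈ P, ∀ t < W, ∀ i, ⌊m * Int.fract (s^[t] p i / r)⌋ ≠ k)
    (hPQ : ∀ p ∈ P, ∀ x, (∀ t < W, dist (porb s L v x t) (s^[t] p) ≤ r / (2 * m)) → x ∈ Q) :
    ν P ≤ 3 * ENNReal.ofReal C ^ 2 * ν Q := by
  have hs := hF.mp.measurable
  have m1 : (1 : ℝ) ≤ m := by exact_mod_cast (by omega : 1 ≤ m)
  let cell : R d → Fin d → ℤ := fun z i => ⌊z i / r - (k + 1 / 2) / m⌋
  have mc : Measurable cell := measurable_pi_lambda _ fun i =>
    Int.measurable_floor.comp (((measurable_pi_apply i).div_const _).sub_const _)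
  have close : ∀ y z, cell y = cell z → dist y z ≤ r := by
    intro y z h
    refine (dist_pi_le_iff hr.le).2 fun i => ?_
    have := Int.abs_sub_lt_one_of_floor_eq_floor (congrFun h i)
    rw [sub_sub_sub_cancel_right, ← sub_div, abs_div, abs_of_pos hr, div_lt_one hr] at this
    exact this.le
  let f : R d → Fin W → Fin d → ℤ := fun p t => cell (s^[t] p)
  let g : R d → Fin W → Fin d → ℤ := fun x t => cell (porb s L v x t)
  have mf : Measurable f := measurable_pi_lambda _ fun t => mc.comp (hs.iterate t)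
  have mg : Measurable g := measurable_pi_lambda _ fun t => mc.comp (measurable_porb hs L v t)
  refine le_of_fibres ν f g mg P Q mQ _ fun w => ?_
  rcases (P ∩ f ⁻¹' {w}).eq_empty_or_nonempty with h | ⟨ξ, hξ⟩
  · simp [h]
  have mP' := mP.inter (mf (measurableSet_singleton w))
  have mQ' := mQ.inter (mg (measurableSet_singleton w))
  have C0 : 0 ≤ C := by linarith [hF.one_le]
  have main := shadow (L := L) hs C0 hΓ ξ (hn ξ hξ.1) (hR ξ hξ.1) small
    (by positivity : 0 < r / (2 * m)) (by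
      rw [div_le_iff₀ (by positivity)]; nlinarith) hρ hW v hv _ _ mP' mQ' (by
      intro p hp t ht
      have : f p = f ξ := hp.2.trans hξ.2.symm
      exact close _ _ (congrFun this ⟨t, ht⟩)) (by
      intro p hp x hx
      refine ⟨hPQ p hp.1 x hx, Eq.trans ?_ hp.2⟩
      ext t i
      refine floor_robust m k hk _ _ (hrob p hp.1 t t.isLt i) ?_
      have := (dist_le_pi_dist _ _ i).trans (hx t t.isLt)
      rw [← sub_div, abs_div, abs_of_pos hr, div_le_iff₀ hr]
      rw [Real.dist_eq] at this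
      calc _ ≤ _ := this
        _ = _ := by ring)
  have low := (hn ξ hξ.1 0 hW).low _ mQ' (by
    intro x hx
    have : g x = f ξ := hx.2.trans hξ.2.symm
    have := close _ _ (congrFun this ⟨0, hW⟩)
    simp only [porb] at this
    rw [mem_ball]; linarith)
  calc _ ≤ ENNReal.ofReal C * volume (P ∩ f ⁻¹' {w}) := hF.up _ mP'
    _ ≤ ENNReal.ofReal C * (3 * (ENNReal.ofReal C * ν (Q ∩ g ⁻¹' {w}))) := by
        gcongr
        exact main.trans (by gcongr)
    _ = _ := by ring

end Vale.Agent.P109.N
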