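import Vale.Agent.P109.N.Couple1

/-! P109: averaging over the jump gives a mixture of few product measures. -/

open MeasureTheory Set Metric
open scoped NNReal ENNReal

noncomputable section

namespace Vale.Agent.P109.N

/-- the box of mesh `ρ` containing `y` -/
def box {d : ℕ} (ρ : ℝ) (y : R d) : Fin d → ℤ := fun i => ⌊y i / ρ⌋

theorem measurable_box {d : ℕ} (ρ : ℝ) : Measurable (box (d := d) ρ) :=
  measurable_pi_lambda _ fun i => Int.measurable_floor.comp ((measurable_pi_apply i).div_const _)

theorem vol_box {d : ℕ} {ρ : ℝ} (hρ : 0 < ρ) (u : Fin d → ℤ) :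
    volume (box ρ ⁻¹' {u}) = ENNReal.ofReal ρ ^ d := by
  have : box ρ ⁻¹' {u} = pi univ fun i => Ico (u i * ρ) ((u i + 1) * ρ) := by
    ext y
    simp only [mem_preimage, mem_singleton_iff, mem_pi, mem_univ, true_imp_iff, mem_Ico,
      funext_iff, box, Int.floor_eq_iff, le_div_iff₀ hρ, div_lt_iff₀ hρ]
  rw [this, Real.volume_pi_Ico]
  simp [add_mul]

theorem dist_box {d : ℕ} {ρ : ℝ} (hρ : 0 < ρ) {y z : R d} (h : box ρ y = box ρ z) :
    dist y z ≤ ρ := by
  refine (dist_pi_le_iff hρ.le).2 fun i => ?_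
  have := Int.abs_sub_lt_one_of_floor_eq_floor (congrFun h i)
  rw [← sub_div, abs_div, abs_of_pos hρ, div_lt_one hρ] at this
  exact this.le

/-- boxes on which `ν` dominates Lebesgue measure -/
def GoodBox {d : ℕ} (C ρ : ℝ) (ν : Measure (R d)) (u : Fin d → ℤ) : Prop :=
  ∀ B, MeasurableSet B → B ⊆ box ρ ⁻¹' {u} → volume B ≤ ENNReal.ofReal C * ν B

theorem mixture {d : ℕ} {C ρ : ℝ} {ν : Measure (R d)} [IsProbabilityMeasure ν] (hC : 1 ≤ C)
    (up : ∀ B, MeasurableSet B → ν B ≤ ENNReal.ofReal C * volume B)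
    (supp : ν (closedBall 0 C)ᶜ = 0) (z : R d → R d) (hz : MeasurePreserving z ν ν)
    (hρ : 0 < ρ) (E : Set (R d × R d)) (hE : MeasurableSet E) (a c : ℝ≥0∞)
    (h : ∀ v, ‖v‖ ≤ ρ → a ≤ c * ν {x | (x, z x + v) ∈ E ∧ GoodBox C ρ ν (box ρ (z x + v))}) :
    ∃ (U : Finset (Fin d → ℤ)) (α β : (Fin d → ℤ) → Measure (R d)),
      (U.card : ℝ) ≤ (2 * (C / ρ) + 3) ^ d ∧ (∀ u, α u ≤ ν) ∧ ∑ u ∈ U, α u ≤ ν ∧
      (∀ u, β u univ ≤ 1) ∧ (∀ u ∈ U, β u ≤ ENNReal.ofReal (C / ρ ^ d) • ν) ∧
      ∑ u ∈ U, α u univ • β u ≤ ENNReal.ofReal (C ^ 2) • ν ∧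
      a ≤ c * 2 ^ d * ∑ u ∈ U, (α u).prod (β u) E := by
  classical
  have mz := hz.measurable
  have mb := measurable_box (d := d) ρ
  set V := ENNReal.ofReal ρ ^ d with hV
  have V0 : V ≠ 0 := pow_ne_zero _ (by simpa using hρ)
  have V1 : V ≠ ⊤ := ENNReal.pow_ne_top ENNReal.ofReal_ne_top
  let Gd : Set (R d) := {y | GoodBox C ρ ν (box ρ y)}
  have mG : MeasurableSet Gd := mb (MeasurableSet.of_discrete (s := {u | GoodBox C ρ ν u}))
  let cube : Set (R d) := box ρ ⁻¹' {0}
  have mcube : MeasurableSet cube := mb (measurableSet_singleton _)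
  let F : Set (R d × R d) := {p | (p ∈ E ∧ p.2 ∈ Gd) ∧ p.2 - z p.1 ∈ cube}
  have mF : MeasurableSet F := (hE.inter (measurable_snd mG)).inter
    ((measurable_snd.sub (mz.comp measurable_fst)) mcube)
  let F' : Set (R d × R d) := (fun p => (p.1, z p.1 + p.2)) ⁻¹' F
  have mF' : MeasurableSet F' :=
    (measurable_fst.prodMk ((mz.comp measurable_fst).add measurable_snd)) mF
  have e1 : ν.prod volume F = ν.prod volume F' := by
    rw [Measure.prod_apply mF, Measure.prod_apply mF']
    refine lintegral_congr fun x => ?_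
    exact (measure_preimage_add volume (z x) (Prod.mk x ⁻¹' F)).symm
  have e2 : a * V ≤ c * ν.prod volume F := by
    rw [e1, Measure.prod_apply_symm mF', ← lintegral_const_mul _
      (measurable_measure_prodMk_right mF'), hV, ← vol_box hρ 0, ← setLIntegral_const]
    refine le_trans (setLIntegral_mono' mcube fun v hv => ?_) (setLIntegral_le_lintegral _ _)
    have hv' : ‖v‖ ≤ ρ := by
      have := dist_box hρ (y := v) (z := 0) (hv.trans (by ext i; simp [box]))
      rwa [dist_zero_right] at this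
    refine (h v hv').trans (le_of_eq ?_)
    congr 2
    ext x
    simp only [F', F, Gd, mem_preimage, mem_ofPred_eq, add_sub_cancel_left]
    exact ⟨fun h => ⟨h, hv⟩, fun h => h.1⟩
  let O : Finset (Fin d → ℤ) := Fintype.piFinset fun _ => {0, 1}
  let Fo : (Fin d → ℤ) → Set (R d × R d) := fun o =>
    {p | (p ∈ E ∧ p.2 ∈ Gd) ∧ box ρ p.2 = box ρ (z p.1) + o}
  have e3 : F ⊆ ⋃ o ∈ O, Fo o := by
    intro p hp
    simp only [mem_iUnion]
    refine ⟨box ρ p.2 - box ρ (z p.1), ?_, hp.1, by abel⟩
    simp only [O, Fintype.mem_piFinset, Finset.mem_insert, Finset.mem_singleton, Pi.sub_apply]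
    intro i
    have h0 : ⌊(p.2 i - z p.1 i) / ρ⌋ = 0 := congrFun hp.2 i
    have h1 := Int.le_floor_add (z p.1 i / ρ) ((p.2 i - z p.1 i) / ρ)
    have h2 := Int.le_floor_add_floor (z p.1 i / ρ) ((p.2 i - z p.1 i) / ρ)
    rw [← add_div, add_sub_cancel, h0] at h1 h2
    simp only [box]
    omega
  obtain ⟨o, -, ho⟩ := O.exists_max_image (fun o => ν.prod volume (Fo o))
    ⟨0, by simp [O]⟩
  have e4 : ν.prod volume F ≤ 2 ^ d * ν.prod volume (Fo o) := by
    refine (measure_mono e3).trans ((measure_biUnion_finset_le _ _).trans ?_)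
    refine (Finset.sum_le_card_nsmul _ _ _ ho).trans (le_of_eq ?_)
    simp [O]
  let N : ℕ := ⌈C / ρ⌉₊
  let U0 : Finset (Fin d → ℤ) := Fintype.piFinset fun _ => Finset.Icc (-(N : ℤ)) N
  let U := U0.filter fun u => GoodBox C ρ ν (u + o)
  let A : (Fin d → ℤ) → Set (R d) := fun u => z ⁻¹' (box ρ ⁻¹' {u})
  have mA : ∀ u, MeasurableSet (A u) := fun u => mz (mb (measurableSet_singleton _))
  let B : (Fin d → ℤ) → Set (R d) := fun u => box ρ ⁻¹' {u + o}
  have mB : ∀ u, MeasurableSet (B u) := fun u => mb (measurableSet_singleton _)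
  have disj : ∀ (S : (Fin d → ℤ) → Set (R d)), (∀ u, MeasurableSet (S u)) →
      Pairwise (Function.onFun Disjoint S) → ∑ u ∈ U, ν.restrict (S u) ≤ ν := by
    intro S mS dS
    rw [← Measure.restrict_biUnion_finset (fun u _ u' _ h => dS h) mS |>.trans
      (Measure.sum_coe_finset U fun u => ν.restrict (S u))]
    exact Measure.restrict_le_self
  have lowB : ∀ u ∈ U, volume.restrict (B u) ≤ ENNReal.ofReal C • ν.restrict (B u) := by
    intro u hu
    refine Measure.le_iff.2 fun S hS => ?_
    rw [Measure.smul_apply, Measure.restrict_apply hS, Measure.restrict_apply hS]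
    exact (Finset.mem_filter.1 hu).2 _ (hS.inter (mB u)) inter_subset_right
  have C0 : 0 ≤ C := by linarith
  refine ⟨U, fun u => ν.restrict (A u), fun u => V⁻¹ • volume.restrict (B u), ?_,
    fun u => Measure.restrict_le_self, disj A mA ?_, ?_, ?_, ?_, ?_⟩
  · have : U.card ≤ (2 * N + 1) ^ d := by
      refine (Finset.card_filter_le _ _).trans (le_of_eq ?_)
      simp only [U0, Fintype.card_piFinset, Int.card_Icc, Finset.prod_const, Finset.card_univ,
        Fintype.card_fin]
      congr 1
      omega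
    have h2 : (N : ℝ) ≤ C / ρ + 1 := (Nat.ceil_lt_add_one (by positivity)).le
    calc (U.card : ℝ) ≤ ((2 * N + 1) ^ d : ℕ) := by exact_mod_cast this
      _ ≤ _ := by
        push_cast
        exact pow_le_pow_left₀ (by positivity) (by linarith) _
  · intro u u' h
    exact disjoint_left.2 fun x hx hy => h (hx.symm.trans hy)
  · intro u
    simp only [Measure.smul_apply, Measure.restrict_apply_univ, smul_eq_mul, B]
    rw [vol_box hρ, ENNReal.inv_mul_cancel V0 V1]
  · intro u hu
    refine Measure.le_iff.2 fun S hS => ?_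
    have : volume.restrict (B u) S ≤ ENNReal.ofReal C * ν S := (lowB u hu S).trans (by
      rw [Measure.smul_apply, smul_eq_mul]
      exact mul_le_mul_right (Measure.restrict_le_self S) _)
    simp only [Measure.smul_apply, smul_eq_mul]
    rw [ENNReal.ofReal_div_of_pos (by positivity), ENNReal.ofReal_pow hρ.le, ← hV,
      ENNReal.div_eq_inv_mul, mul_assoc]
    gcongr
  · have dB := disj B mB (by
      intro u u' h
      exact disjoint_left.2 fun x hx hy => h (add_right_cancel (hx.symm.trans hy)))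
    refine Measure.le_iff.2 fun S hS => ?_
    have := dB S
    rw [Measure.finsetSum_apply] at this ⊢
    simp only [Measure.smul_apply, smul_eq_mul, Measure.restrict_apply_univ]
    calc _ ≤ ∑ u ∈ U, ENNReal.ofReal (C ^ 2) * ν.restrict (B u) S := by
          refine Finset.sum_le_sum fun u hu => ?_
          have i1 : ν (A u) ≤ ENNReal.ofReal C * V := by
            simp only [A]
            rw [hz.measure_preimage (mb (measurableSet_singleton _)).nullMeasurableSet, hV,
              ← vol_box hρ u]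
            exact up _ (mb (measurableSet_singleton _))
          have i2 := lowB u hu S
          rw [Measure.smul_apply, smul_eq_mul] at i2
          calc _ ≤ ENNReal.ofReal C * V * (V⁻¹ * (ENNReal.ofReal C * ν.restrict (B u) S)) := by
                gcongr
            _ = _ := by
                rw [ENNReal.ofReal_pow C0, mul_assoc, ← mul_assoc V, ENNReal.mul_inv_cancel V0 V1]
                ring
      _ ≤ _ := by
          rw [← Finset.mul_sum]
          gcongr
  · have e5 : Fo o ⊆ (⋃ u ∈ U, E ∩ A u ×ˢ B u) ∪ (z ⁻¹' (closedBall 0 C)ᶜ) ×ˢ univ := by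
      intro p hp
      by_cases hb : z p.1 ∈ closedBall (0 : R d) C
      · left
        simp only [mem_iUnion]
        refine ⟨box ρ (z p.1), Finset.mem_filter.2 ⟨?_, ?_⟩, hp.1.1, rfl, hp.2⟩
        · simp only [U0, Fintype.mem_piFinset, Finset.mem_Icc]
          intro i
          have h1 : |z p.1 i| ≤ C := (norm_le_pi_norm (z p.1) i).trans (by simpa using hb)
          have h2 : C / ρ ≤ N := Nat.le_ceil _
          have h3 : |z p.1 i / ρ| ≤ N := by
            rw [abs_div, abs_of_pos hρ]
            exact le_trans (by gcongr) h2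
          rw [abs_le] at h3
          constructor
          · exact Int.le_floor.2 (by exact_mod_cast h3.1)
          · have := (Int.floor_le (z p.1 i / ρ)).trans h3.2
            exact_mod_cast this
        · rw [← hp.2]; exact hp.1.2
      · exact Or.inr ⟨hb, trivial⟩
    have e6 : ν.prod volume (Fo o) ≤ V * ∑ u ∈ U,
        (ν.restrict (A u)).prod (V⁻¹ • volume.restrict (B u)) E := by
      refine (measure_mono e5).trans ((measure_union_le _ _).trans ?_)
      rw [Measure.prod_prod, hz.measure_preimage measurableSet_closedBall.compl.nullMeasurableSet,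
        supp, zero_mul, add_zero, Finset.mul_sum]
      refine (measure_biUnion_finset_le _ _).trans (Finset.sum_le_sum fun u _ => le_of_eq ?_)
      rw [Measure.prod_smul_right, Measure.smul_apply, smul_eq_mul, ← mul_assoc,
        ENNReal.mul_inv_cancel V0 V1, one_mul, Measure.prod_restrict, Measure.restrict_apply hE]
    rw [← ENNReal.mul_le_mul_iff_left V0 V1]
    calc a * V ≤ c * (2 ^ d * (V * ∑ u ∈ U,
          (ν.restrict (A u)).prod (V⁻¹ • volume.restrict (B u)) E)) :=
          e2.trans (by gcongr; exact e4.trans (by gcongr))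
      _ = _ := by ring

end Vale.Agent.P109.N
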