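import Mathlib

open MeasureTheory Filter
open scoped ContDiff Manifold

noncomputable section

universe u v

namespace Vale.Agent.P109.N

/-- Shannon entropy of the finite partition given by the fibres of `ξ` -/
def shannon {X : Type} [MeasurableSpace X] (μ : Measure X) {ι : Type} [Fintype ι] (ξ : X → ι) :
    ℝ :=
  ∑ i, Real.negMulLog (μ.real (ξ ⁻¹' {i}))

/-- entropy of `T` with respect to a finite partition -/
def partEntropy {X : Type} [MeasurableSpace X] (μ : Measure X) (T : X → X) {k : ℕ}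
    (ξ : X → Fin k) : EReal :=
  limsup (fun N : ℕ =>
    ((shannon μ (fun x (t : Fin N) => ξ (T^[t] x)) / N : ℝ) : EReal)) atTop

/-- Kolmogorov-Sinai entropy -/
def ksEntropy {X : Type} [MeasurableSpace X] (μ : Measure X) (T : X → X) : EReal :=
  ⨆ (k : ℕ) (ξ : X → Fin k) (_ : Measurable ξ), partEntropy μ T ξ

/-- `ν` has a smooth strictly positive density in local coordinates -/
def SmoothDensity {d : ℕ} {H : Type v} [TopologicalSpace H]
    (I : ModelWithCorners ℝ (EuclideanSpace ℝ (Fin d)) H) {M : Type u} [TopologicalSpace M]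
    [ChartedSpace H M] [MeasurableSpace M] (ν : Measure M) : Prop :=
  ∀ x : M, ∃ f : EuclideanSpace ℝ (Fin d) → ℝ,
    ContDiffOn ℝ ∞ f (extChartAt I x).target ∧ (∀ y ∈ (extChartAt I x).target, 0 < f y) ∧
    ∀ A, MeasurableSet A → A ⊆ (extChartAt I x).target →
      ν ((extChartAt I x).symm '' A) = ∫⁻ y in A, ENNReal.ofReal (f y)

/-- `(X, μ, T)` is a measure-theoretic factor of `(M, ν, S)` -/
def IsFactor {M : Type u} {X : Type} [MeasurableSpace M] [MeasurableSpace X] (ν : Measure M)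
    (S : M → M) (μ : Measure X) (T : X → X) : Prop :=
  ∃ Ψ : M → X, AEMeasurable Ψ ν ∧ ν.map Ψ = μ ∧ ∀ᵐ y ∂ν, Ψ (S y) = T (Ψ y)

/-- `(X, μ, T)` is a factor of a smooth diffeomorphism of a compact manifold (possibly with
boundary) preserving a probability measure with smooth positive density -/
def IsSmoothFactor {X : Type} [MeasurableSpace X] (μ : Measure X) (T : X → X) : Prop :=
  ∃ (d : ℕ) (H : Type v) (_ : TopologicalSpace H)
    (I : ModelWithCorners ℝ (EuclideanSpace ℝ (Fin d)) H) (M : Type u) (_ : TopologicalSpace M)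
    (_ : ChartedSpace H M) (_ : IsManifold I ∞ M) (_ : CompactSpace M) (_ : T2Space M)
    (_ : MeasurableSpace M) (_ : BorelSpace M) (ν : Measure M) (_ : IsProbabilityMeasure ν)
    (S : Diffeomorph I I M M ∞), SmoothDensity I ν ∧ MeasurePreserving S ν ν ∧ IsFactor ν S μ T

/-- `(X, μ, T)` and `(M, ν, S)` are isomorphic: a bijection between invariant conull sets,
measurable with measurable inverse, carrying `μ` to `ν` and intertwining `T` and `S` -/
def IsIso {M : Type u} {X : Type} [MeasurableSpace M] [MeasurableSpace X] (μ : Measure X)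
    (T : X → X) (ν : Measure M) (S : M → M) : Prop :=
  ∃ (X₀ : Set X) (M₀ : Set M) (F : X → M) (G : M → X), (∀ᵐ x ∂μ, x ∈ X₀) ∧ (∀ᵐ y ∂ν, y ∈ M₀) ∧
    Set.MapsTo T X₀ X₀ ∧ Set.MapsTo S M₀ M₀ ∧ Set.BijOn F X₀ M₀ ∧ Set.InvOn G F X₀ M₀ ∧
    AEMeasurable F μ ∧ AEMeasurable G ν ∧ μ.map F = ν ∧ ∀ x ∈ X₀, F (T x) = S (F x)

/-- `(X, μ, T)` has a smooth positive-volume model -/
def HasSmoothModel {X : Type} [MeasurableSpace X] (μ : Measure X) (T : X → X) : Prop :=
  ∃ (d : ℕ) (H : Type v) (_ : TopologicalSpace H)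
    (I : ModelWithCorners ℝ (EuclideanSpace ℝ (Fin d)) H) (M : Type u) (_ : TopologicalSpace M)
    (_ : ChartedSpace H M) (_ : IsManifold I ∞ M) (_ : CompactSpace M) (_ : T2Space M)
    (_ : MeasurableSpace M) (_ : BorelSpace M) (ν : Measure M) (_ : IsProbabilityMeasure ν)
    (S : Diffeomorph I I M M ∞), SmoothDensity I ν ∧ MeasurePreserving S ν ν ∧ IsIso μ T ν S

end Vale.Agent.P109.N
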