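import Mathlib

/-! P109: two-point extensions of the 2-adic odometer.
PLAN.  `X = ℤ_[2] × ZMod 2` with the Borel structure, `T (ω, g) = (ω + 1, g + cc ω)` (inverse
`(ω - 1, g - cc (ω - 1))`), `haar = addHaarMeasure ⊤` on `ℤ_[2]` is a probability measure, `ω ↦ ω + 1` is ergodic
(`ergodic_add_left_of_denseRange_zsmul` / `..._nsmul`, `PadicInt.denseRange_natCast`).  `μ0 = haar.prod (uniformOn univ)`
is invariant (`MeasurePreserving.skew_product`) and invariant under the flip `σ (ω, g) = (ω, g + 1)` commuting with `T`.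
A flip-invariant measurable set is the preimage of a measurable subset of the base, so a set invariant under
`T` and `σ` is null or conull.  If `μ0` is not ergodic, take a strictly invariant `A` with `0 < μ0 A < 1`; then
`A ∩ σ A` is null and `A ∪ σ A` conull, `μ0 A = 1/2`, and `μ = 2 • μ0.restrict A` is invariant, has first
marginal `haar` (for base sets `B`, `μ0 (A ∩ B) = μ0 (σ A ∩ B)`), and is ergodic (for invariant `A' ⊆ A` look at
`A' ∪ σ A'`).  The law of `toZModPow E` under `haar` is uniform by translation invariance (the map is onto). -/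

open MeasureTheory Set

namespace Vale.Agent.P109.N

noncomputable instance : MeasurableSpace ℤ_[2] := borel _
instance : BorelSpace ℤ_[2] := ⟨rfl⟩

theorem measurable_toZModPow (E : ℕ) : Measurable (fun ω : ℤ_[2] => PadicInt.toZModPow E ω) := by
  refine measurable_to_countable' fun y => ?_
  rcases eq_empty_or_nonempty ((fun ω : ℤ_[2] => PadicInt.toZModPow E ω) ⁻¹' {y}) with h | ⟨z, hz⟩
  · rw [h]
    exact MeasurableSet.empty
  · have hz' : PadicInt.toZModPow E z = y := hz
    have : (fun ω : ℤ_[2] => PadicInt.toZModPow E ω) ⁻¹' {y} =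
        Metric.closedBall z (((2 : ℕ) : ℝ) ^ (-E : ℤ)) := by
      ext ω
      rw [Metric.mem_closedBall, dist_eq_norm, PadicInt.norm_le_pow_iff_mem_span_pow,
        ← PadicInt.ker_toZModPow, RingHom.mem_ker, map_sub, sub_eq_zero, hz']
      rfl
    rw [this]
    exact Metric.isClosed_closedBall.measurableSet

theorem evc_iff {X : Type*} [MeasurableSpace X] (μ : Measure X) (s : Set X) :
    Filter.EventuallyConst s (ae μ) ↔ μ s = 0 ∨ μ sᶜ = 0 := by
  rw [Filter.eventuallyConst_set, or_comm]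
  refine or_congr ?_ Iff.rfl
  exact (measure_eq_zero_iff_ae_notMem).symm

/-- An ergodic lift for a two-point extension. -/
theorem exists_ergodic {X : Type*} [MeasurableSpace X] (μ : Measure X) [IsProbabilityMeasure μ]
    {T σ : X → X} (hT : MeasurePreserving T μ μ) (hσ : MeasurePreserving σ μ μ)
    (hinv : ∀ x, σ (σ x) = x) (hc : ∀ x, σ (T x) = T (σ x))
    (H : ∀ B, MeasurableSet B → T ⁻¹' B = B → σ ⁻¹' B = B → μ B = 0 ∨ μ Bᶜ = 0) :
    ∃ ν : Measure X, Ergodic T ν ∧ ∀ B, MeasurableSet B → σ ⁻¹' B = B → ν B = μ B := by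
  by_cases herg : Ergodic T μ
  · exact ⟨μ, herg, fun _ _ _ => rfl⟩
  have hex : ∃ A, MeasurableSet A ∧ T ⁻¹' A = A ∧ μ A ≠ 0 ∧ μ Aᶜ ≠ 0 := by
    by_contra hcon
    refine herg ⟨hT, ⟨fun A hA hTA => (evc_iff μ A).2 ?_⟩⟩
    by_contra h2
    push Not at h2
    exact hcon ⟨A, hA, hTA, h2.1, h2.2⟩
  obtain ⟨A, hA, hTA, h0, h1⟩ := hex
  have hss : ∀ S : Set X, σ ⁻¹' (σ ⁻¹' S) = S := by
    intro S
    ext x
    simp [hinv]
  have hTs : ∀ S : Set X, T ⁻¹' S = S → T ⁻¹' (σ ⁻¹' S) = σ ⁻¹' S := by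
    intro S hS
    ext x
    rw [mem_preimage, mem_preimage, hc, ← mem_preimage (f := T), hS, mem_preimage]
  have hA' : MeasurableSet (σ ⁻¹' A) := hσ.measurable hA
  have hI : μ (A ∩ σ ⁻¹' A) = 0 := by
    rcases H (A ∩ σ ⁻¹' A) (hA.inter hA') (by rw [preimage_inter, hTA, hTs A hTA])
      (by rw [preimage_inter, hss, inter_comm]) with h | h
    · exact h
    · exact absurd (measure_mono_null (compl_subset_compl.2 inter_subset_left) h) h1
  have hU : μ (A ∪ σ ⁻¹' A)ᶜ = 0 := by
    rcases H (A ∪ σ ⁻¹' A) (hA.union hA') (by rw [preimage_union, hTA, hTs A hTA])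
      (by rw [preimage_union, hss, union_comm]) with h | h
    · exact absurd (measure_mono_null subset_union_left h) h0
    · exact h
  refine ⟨(2 : ENNReal) • μ.restrict A, ⟨?_, ⟨fun S hS hTS => (evc_iff _ S).2 ?_⟩⟩, ?_⟩
  · have := hT.restrict_preimage hA
    rw [hTA] at this
    exact this.smul_measure _
  · have hS' : MeasurableSet (S ∩ A) := hS.inter hA
    have hTS' : T ⁻¹' (S ∩ A) = S ∩ A := by rw [preimage_inter, hTS, hTA]
    rcases H (S ∩ A ∪ σ ⁻¹' (S ∩ A)) (hS'.union (hσ.measurable hS'))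
      (by rw [preimage_union, hTS', hTs _ hTS']) (by rw [preimage_union, hss, union_comm])
      with h | h
    · left
      rw [Measure.smul_apply, Measure.restrict_apply hS,
        measure_mono_null subset_union_left h, smul_zero]
    · right
      have hsub : Sᶜ ∩ A ⊆ (S ∩ A ∪ σ ⁻¹' (S ∩ A))ᶜ ∪ (A ∩ σ ⁻¹' A) := by
        rintro x ⟨hx, hxA⟩
        by_cases hb : x ∈ S ∩ A ∪ σ ⁻¹' (S ∩ A)
        · rcases hb with hb | hb
          · exact absurd hb.1 hx
          · exact Or.inr ⟨hxA, hb.2⟩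
        · exact Or.inl hb
      rw [Measure.smul_apply, Measure.restrict_apply hS.compl,
        measure_mono_null hsub (measure_union_null h hI), smul_zero]
  · intro B hB hσB
    have e1 : μ (B \ A) = μ (B ∩ σ ⁻¹' A) := by
      apply le_antisymm
      · calc μ (B \ A) ≤ μ (B ∩ σ ⁻¹' A ∪ (A ∪ σ ⁻¹' A)ᶜ) := by
              refine measure_mono fun x hx => ?_
              by_cases hb : x ∈ σ ⁻¹' A
              · exact Or.inl ⟨hx.1, hb⟩
              · exact Or.inr fun h => h.elim hx.2 hb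
          _ ≤ μ (B ∩ σ ⁻¹' A) + μ (A ∪ σ ⁻¹' A)ᶜ := measure_union_le _ _
          _ = _ := by rw [hU, add_zero]
      · calc μ (B ∩ σ ⁻¹' A) ≤ μ (B \ A ∪ (A ∩ σ ⁻¹' A)) := by
              refine measure_mono fun x hx => ?_
              by_cases hb : x ∈ A
              · exact Or.inr ⟨hb, hx.2⟩
              · exact Or.inl ⟨hx.1, hb⟩
          _ ≤ μ (B \ A) + μ (A ∩ σ ⁻¹' A) := measure_union_le _ _
          _ = _ := by rw [hI, add_zero]
    have e2 : μ (B ∩ σ ⁻¹' A) = μ (B ∩ A) := by
      rw [← hσ.measure_preimage (hB.inter hA).nullMeasurableSet, preimage_inter, hσB]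
    rw [Measure.smul_apply, Measure.restrict_apply hB, ← measure_inter_add_diff B hA, e1, e2,
      smul_eq_mul, two_mul]

/-- The Haar probability measure of the 2-adic integers. -/
noncomputable def haar2 : Measure ℤ_[2] := Measure.addHaarMeasure ⊤

instance : haar2.IsAddHaarMeasure := by
  unfold haar2
  infer_instance

instance : IsProbabilityMeasure haar2 := ⟨by
  have := Measure.addHaarMeasure_self (K₀ := (⊤ : TopologicalSpace.PositiveCompacts ℤ_[2]))
  simpa [haar2] using this⟩

theorem haar2_ergodic : Ergodic (fun ω : ℤ_[2] => 1 + ω) haar2 := by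
  refine ergodic_add_left_of_denseRange_nsmul ?_ haar2
  have : (fun n : ℕ => n • (1 : ℤ_[2])) = Nat.cast := by
    ext n
    simp
  rw [this]
  exact PadicInt.denseRange_natCast

theorem haar2_fibre (E : ℕ) (y : ZMod (2 ^ E)) :
    haar2.real {ω | PadicInt.toZModPow E ω = y} = 1 / 2 ^ E := by
  have : NeZero (2 ^ E) := ⟨by positivity⟩
  have h1 : ∀ y : ZMod (2 ^ E), haar2.real {ω | PadicInt.toZModPow E ω = y} =
      haar2.real {ω | PadicInt.toZModPow E ω = 0} := by
    intro y
    have h2 : {ω : ℤ_[2] | PadicInt.toZModPow E ω = y} =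
        (fun ω => -((y.val : ℕ) : ℤ_[2]) + ω) ⁻¹' {ω | PadicInt.toZModPow E ω = 0} := by
      ext ω
      simp only [mem_setOf_eq, mem_preimage, map_add, map_neg, map_natCast,
        ZMod.natCast_zmod_val, neg_add_eq_zero]
      exact eq_comm
    rw [h2, Measure.real, measure_preimage_add]
    rfl
  have h3 := sum_measureReal_preimage_singleton (μ := haar2) (Finset.univ : Finset (ZMod (2 ^ E)))
    (f := fun ω : ℤ_[2] => PadicInt.toZModPow E ω)
    (fun y _ => measurable_toZModPow E (measurableSet_singleton y))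
  have h4 : ∀ y : ZMod (2 ^ E), haar2.real ((fun ω : ℤ_[2] => PadicInt.toZModPow E ω) ⁻¹' {y}) =
      haar2.real {ω | PadicInt.toZModPow E ω = 0} := h1
  simp only [h4, Finset.sum_const, Finset.card_univ, ZMod.card, nsmul_eq_mul, Finset.coe_univ,
    preimage_univ, probReal_univ] at h3
  rw [h1, eq_div_iff (by positivity), mul_comm]
  exact_mod_cast h3

theorem exists_ext (cc : ℤ_[2] → ZMod 2) (hcc : Measurable cc) :
    ∃ (μ : Measure (ℤ_[2] × ZMod 2)) (T : ℤ_[2] × ZMod 2 ≃ᵐ ℤ_[2] × ZMod 2),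
      IsProbabilityMeasure μ ∧ NullSingletonClass μ ∧ Ergodic T μ ∧ (∀ x, T x = (x.1 + 1, x.2 + cc x.1)) ∧
      ∀ (E : ℕ) (y : ZMod (2 ^ E)), μ.real {x | PadicInt.toZModPow E x.1 = y} = 1 / 2 ^ E := by
  have i1 : Measurable fun x : ℤ_[2] × ZMod 2 => x.2 + cc x.1 :=
    (measurable_of_countable fun p : ZMod 2 × ZMod 2 => p.1 + p.2).comp
      (measurable_snd.prodMk (hcc.comp measurable_fst))
  have i2 : Measurable fun x : ℤ_[2] × ZMod 2 => x.2 - cc (x.1 - 1) :=
    (measurable_of_countable fun p : ZMod 2 × ZMod 2 => p.1 - p.2).comp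
      (measurable_snd.prodMk (hcc.comp (measurable_fst.sub_const 1)))
  set ν : Measure (ZMod 2) := (2 : ENNReal)⁻¹ • Measure.count with hν
  have hνp : IsProbabilityMeasure ν := ⟨by
    rw [hν, Measure.smul_apply, Measure.count_univ, smul_eq_mul]
    simp [ENNReal.inv_mul_cancel]⟩
  have hνi : ∀ c : ZMod 2, ν.map (fun g => g + c) = ν := by
    intro c
    rw [hν, Measure.map_smul, map_add_right_eq_self]
  let T : ℤ_[2] × ZMod 2 ≃ᵐ ℤ_[2] × ZMod 2 :=
    { toFun := fun x => (x.1 + 1, x.2 + cc x.1)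
      invFun := fun x => (x.1 - 1, x.2 - cc (x.1 - 1))
      left_inv := fun x => by simp
      right_inv := fun x => by simp
      measurable_toFun := (measurable_fst.add_const 1).prodMk i1
      measurable_invFun := (measurable_fst.sub_const 1).prodMk i2 }
  have hT : MeasurePreserving T (haar2.prod ν) (haar2.prod ν) :=
    (measurePreserving_add_right haar2 1).skew_product (g := fun ω g => g + cc ω)
      i1 (ae_of_all _ fun ω => hνi _)
  have hσ : MeasurePreserving (fun x : ℤ_[2] × ZMod 2 => (x.1, x.2 + 1)) (haar2.prod ν)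
      (haar2.prod ν) :=
    (MeasurePreserving.id haar2).skew_product (g := fun _ g => g + 1)
      (measurable_snd.add_const 1) (ae_of_all _ fun ω => hνi _)
  have hfst : ∀ B : Set ℤ_[2], MeasurableSet B → (haar2.prod ν) (Prod.fst ⁻¹' B) = haar2 B :=
    fun B hB => measurePreserving_fst.measure_preimage hB.nullMeasurableSet
  obtain ⟨μ, hμ, hμ'⟩ := exists_ergodic (haar2.prod ν) hT hσ
    (fun x => by
      have : x.2 + 1 + 1 = x.2 := by
        generalize x.2 = g
        revert g
        decide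
      simp only [this])
    (fun x => by
      show (x.1 + 1, x.2 + cc x.1 + 1) = (x.1 + 1, x.2 + 1 + cc x.1)
      rw [add_right_comm])
    (fun B hB hTB hσB => by
      set B₀ : Set ℤ_[2] := (fun ω => (ω, (0 : ZMod 2))) ⁻¹' B with hB₀
      have hB₀m : MeasurableSet B₀ := (measurable_id.prodMk measurable_const) hB
      have hBB : B = Prod.fst ⁻¹' B₀ := by
        ext ⟨ω, g⟩
        have hg : ∀ g : ZMod 2, g = 0 ∨ g = 0 + 1 := by decide
        rcases hg g with rfl | rfl
        · rfl
        · show _ ↔ (ω, (0 : ZMod 2)) ∈ B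
          conv_rhs => rw [← hσB]
          rfl
      have hinv : (fun ω : ℤ_[2] => 1 + ω) ⁻¹' B₀ = B₀ := by
        ext ω
        have e : ((ω, (0 : ZMod 2)) ∈ T ⁻¹' B) ↔ (ω, (0 : ZMod 2)) ∈ B := by rw [hTB]
        rw [hBB] at e
        rw [mem_preimage, add_comm]
        exact e
      rw [hBB, ← preimage_compl, hfst _ hB₀m, hfst _ hB₀m.compl]
      exact haar2_ergodic.toPreErgodic.measure_self_or_compl_eq_zero hB₀m hinv)
  have hbase : ∀ B : Set ℤ_[2], MeasurableSet B → μ (Prod.fst ⁻¹' B) = haar2 B :=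
    fun B hB => (hμ' _ (measurable_fst hB) rfl).trans (hfst B hB)
  have hprob : IsProbabilityMeasure μ := ⟨by
    have := hbase univ MeasurableSet.univ
    rwa [preimage_univ, measure_univ (μ := haar2)] at this⟩
  have hlaw : ∀ (E : ℕ) (y : ZMod (2 ^ E)),
      μ.real {x | PadicInt.toZModPow E x.1 = y} = 1 / 2 ^ E := by
    intro E y
    rw [← haar2_fibre E y]
    exact congrArg ENNReal.toReal (hbase _ (measurable_toZModPow E (measurableSet_singleton y)))
  refine ⟨μ, T, hprob, ⟨fun x => ?_⟩, hμ, fun x => rfl, hlaw⟩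
  have hle : ∀ E : ℕ, μ.real {x} ≤ (1 / 2) ^ E := by
    intro E
    rw [one_div_pow, ← hlaw E (PadicInt.toZModPow E x.1)]
    exact measureReal_mono (singleton_subset_iff.2 rfl)
  have h0 : μ.real {x} ≤ 0 :=
    ge_of_tendsto' (tendsto_pow_atTop_nhds_zero_of_lt_one (by norm_num) (by norm_num)) hle
  exact (measureReal_eq_zero_iff (measure_ne_top _ _)).1 (le_antisymm h0 measureReal_nonneg)

end Vale.Agent.P109.N
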