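import Vale.Agent.P109.N.Defs
import Vale.Agent.P109.N.Ext

/-! P109: two-point extensions of the odometer have finite entropy.
PLAN.  Let `ξ : X → Fin k` be measurable, `ε > 0` with `ε * log (2 k) ≤ 1`.  The cylinder functions
`π E x = (toZModPow E x.1, x.2)` generate the Borel structure (fibres of `π E` have diameter `≤ 2^-E`), so there are
`E` and `ξ' = f ∘ π E` with `μ {ξ ≠ ξ'} ≤ ε` (inner regularity: disjoint compact `K i ⊆ ξ ⁻¹' {i}` have positive
mutual distance).  The `ξ'`-name of length `N` is a function of `u x = (toZModPow E x.1, t ↦ (T^[t] x).2)`, which has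
at most `A = 2^E 2^N` values.  Gibbs inequality (`∑ negMulLog (p w) ≤ ∑ p w * (- log (q w))` for `∑ q ≤ 1`, `q > 0`)
with `q w = ∑ u, A⁻¹ ∏ t, (if w t = name u t then 1/2 else 1/(2k))` gives
`shannon ≤ log A + N log 2 + (log k) * E #{t < N | ξ (T^t x) ≠ ξ' (T^t x)} ≤ E log 2 + N (2 log 2 + 1)`.
Hence every `partEntropy ≤ 2 log 2 + 1` and the supremum is finite. -/

open MeasureTheory Set

namespace Vale.Agent.P109.N

lemma ent_gibbs_term {p q : ℝ} (hp : 0 ≤ p) (hq : 0 < q) :
    Real.negMulLog p ≤ p * (-Real.log q) + (q - p) := by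
  rcases hp.eq_or_lt with h | h
  · subst h; simp [hq.le]
  · have h1 : Real.log (q / p) ≤ q / p - 1 := Real.log_le_sub_one_of_pos (div_pos hq h)
    rw [Real.log_div hq.ne' h.ne'] at h1
    have h2 : p * (Real.log q - Real.log p) ≤ p * (q / p - 1) := mul_le_mul_of_nonneg_left h1 hp
    have h3 : p * (q / p - 1) = q - p := by field_simp
    rw [Real.negMulLog]
    nlinarith

lemma ent_gibbs {X : Type} [MeasurableSpace X] (μ : Measure X) [IsProbabilityMeasure μ]
    {W : Type} [Fintype W] [MeasurableSpace W] [MeasurableSingletonClass W] (n : X → W)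
    (hn : Measurable n) (q : W → ℝ) (hq : ∀ w, 0 < q w) (hs : ∑ w, q w ≤ 1) :
    shannon μ n ≤ ∫ x, -Real.log (q (n x)) ∂μ := by
  have hm : ∀ w, (μ.map n).real {w} = μ.real (n ⁻¹' {w}) := fun w =>
    map_measureReal_apply hn (measurableSet_singleton w)
  have : IsProbabilityMeasure (μ.map n) := Measure.isProbabilityMeasure_map hn.aemeasurable
  have h1 : ∫ x, -Real.log (q (n x)) ∂μ = ∑ w, μ.real (n ⁻¹' {w}) * (-Real.log (q w)) := by
    rw [← integral_map (f := fun w => -Real.log (q w)) hn.aemeasurable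
      (measurable_of_finite _).aestronglyMeasurable, integral_fintype .of_finite]
    simp [hm]
  have h2 : ∑ w, μ.real (n ⁻¹' {w}) = 1 := by
    simp_rw [← hm]
    rw [sum_measureReal_singleton]; simp
  rw [h1, shannon]
  calc ∑ w, Real.negMulLog (μ.real (n ⁻¹' {w}))
      ≤ ∑ w, (μ.real (n ⁻¹' {w}) * (-Real.log (q w)) + (q w - μ.real (n ⁻¹' {w}))) :=
        Finset.sum_le_sum fun w _ => ent_gibbs_term measureReal_nonneg (hq w)
    _ ≤ _ := by
        rw [Finset.sum_add_distrib, Finset.sum_sub_distrib, h2]; linarith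

lemma ent_zmod_iff (E : ℕ) (a b : ℤ_[2]) :
    PadicInt.toZModPow E a = PadicInt.toZModPow E b ↔ ‖a - b‖ ≤ ((2 : ℕ) : ℝ) ^ (-(E : ℤ)) := by
  rw [PadicInt.norm_le_pow_iff_mem_span_pow, ← PadicInt.ker_toZModPow, RingHom.mem_ker, map_sub,
    sub_eq_zero]

lemma ent_approx (μ : Measure (ℤ_[2] × ZMod 2)) [IsProbabilityMeasure μ] {k : ℕ}
    (ξ : ℤ_[2] × ZMod 2 → Fin k) (hξ : Measurable ξ) {ε : ℝ} (hε : 0 < ε) :
    ∃ (E : ℕ) (f : ZMod (2 ^ E) × ZMod 2 → Fin k) (B : Set (ℤ_[2] × ZMod 2)), MeasurableSet B ∧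
      μ.real B ≤ ε ∧ ∀ x, x ∉ B → ξ x = f (PadicInt.toZModPow E x.1, x.2) := by
  classical
  have hk : 0 < k := Fin.pos (ξ (0, 0))
  have hK : ∀ i : Fin k, ∃ K, K ⊆ ξ ⁻¹' {i} ∧ IsCompact K ∧
      μ (ξ ⁻¹' {i} \ K) < ENNReal.ofReal (ε / k) := fun i =>
    (hξ (measurableSet_singleton i)).exists_isCompact_sdiff_lt (measure_ne_top _ _)
      (by simp [hε, hk])
  choose K hKs hKc hKm using hK
  let P : Set ((ℤ_[2] × ZMod 2) × (ℤ_[2] × ZMod 2)) :=
    ⋃ i : Fin k, ⋃ j : Fin k, ⋃ (_ : i ≠ j), K i ×ˢ K j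
  have hP : IsCompact P := isCompact_iUnion fun i => isCompact_iUnion fun j =>
    isCompact_iUnion fun _ => (hKc i).prod (hKc j)
  let Z : ℕ → Set ((ℤ_[2] × ZMod 2) × (ℤ_[2] × ZMod 2)) := fun E =>
    {p | ‖p.1.1 - p.2.1‖ ≤ ((2 : ℕ) : ℝ) ^ (-(E : ℤ))} ∩ {p | p.1.2 = p.2.2}
  have hZc : ∀ E, IsClosed (Z E) := fun E =>
    (isClosed_le (by fun_prop) continuous_const).inter (isClosed_eq (by fun_prop) (by fun_prop))
  have hZa : Antitone Z := by
    intro a b hab p hp
    refine ⟨?_, hp.2⟩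
    have h1 : ‖p.1.1 - p.2.1‖ ≤ ((2 : ℕ) : ℝ) ^ (-(b : ℤ)) := hp.1
    exact h1.trans (zpow_le_zpow_right₀ (by norm_num) (by omega))
  have hE : ∃ E, P ∩ Z E = ∅ := by
    refine hP.elim_directed_family_closed Z hZc (by
      rw [Set.eq_empty_iff_forall_notMem]
      rintro p ⟨hp, hz⟩
      simp only [P, mem_iUnion] at hp
      obtain ⟨i, j, hij, h1, h2⟩ := hp
      have e1 : p.1.1 = p.2.1 := by
        refine PadicInt.ext_of_toZModPow.1 fun E => (ent_zmod_iff E _ _).2 ?_
        exact (mem_iInter.1 hz E).1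
      have e2 : p.1.2 = p.2.2 := (mem_iInter.1 hz 0).2
      have e : p.1 = p.2 := Prod.ext e1 e2
      have a1 : ξ p.1 = i := hKs i h1
      have a2 : ξ p.2 = j := hKs j h2
      exact hij (by rw [← a1, ← a2, e])) hZa.directed_ge
  obtain ⟨E, hE⟩ := hE
  refine ⟨E, fun u => if h : ∃ y, y ∈ K (ξ y) ∧ (PadicInt.toZModPow E y.1, y.2) = u then
    ξ h.choose else ξ (0, 0), ⋃ i, ξ ⁻¹' {i} \ K i, ?_, ?_, ?_⟩
  · exact MeasurableSet.iUnion fun i =>
      (hξ (measurableSet_singleton i)).diff (hKc i).isClosed.measurableSet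
  · refine le_trans (measureReal_iUnion_fintype_le _) ?_
    calc ∑ i, μ.real (ξ ⁻¹' {i} \ K i) ≤ ∑ _i : Fin k, ε / k :=
          Finset.sum_le_sum fun i _ =>
            ENNReal.toReal_le_of_le_ofReal (by positivity) (hKm i).le
      _ = ε := by
          have : (k : ℝ) ≠ 0 := by positivity
          simp; field_simp
  · intro x hx
    have hxK : x ∈ K (ξ x) := by
      by_contra h
      exact hx (mem_iUnion.2 ⟨ξ x, rfl, h⟩)
    have h : ∃ y, y ∈ K (ξ y) ∧ (PadicInt.toZModPow E y.1, y.2) =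
        (PadicInt.toZModPow E x.1, x.2) := ⟨x, hxK, rfl⟩
    simp only [dif_pos h]
    obtain ⟨h1, h2⟩ := h.choose_spec
    by_contra hne
    have : (x, h.choose) ∈ P ∩ Z E := by
      refine ⟨?_, (ent_zmod_iff E _ _).1 (congrArg Prod.fst h2).symm, (congrArg Prod.snd h2).symm⟩
      simp only [P, mem_iUnion]
      exact ⟨_, _, hne, hxK, h1⟩
    rw [hE] at this
    exact this

lemma ent_iter_fst (cc : ℤ_[2] → ZMod 2) (T : ℤ_[2] × ZMod 2 → ℤ_[2] × ZMod 2)
    (h : ∀ x, T x = (x.1 + 1, x.2 + cc x.1)) (t : ℕ) (x : ℤ_[2] × ZMod 2) :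
    (T^[t] x).1 = x.1 + t := by
  induction t with
  | zero => simp
  | succ t ih => rw [Function.iterate_succ_apply', h, ih]; push_cast; ring

lemma ent_shannon (cc : ℤ_[2] → ZMod 2) (μ : Measure (ℤ_[2] × ZMod 2)) [IsProbabilityMeasure μ]
    (T : ℤ_[2] × ZMod 2 → ℤ_[2] × ZMod 2) (hT : MeasurePreserving T μ μ)
    (h : ∀ x, T x = (x.1 + 1, x.2 + cc x.1)) {k : ℕ} (ξ : ℤ_[2] × ZMod 2 → Fin k)
    (hξ : Measurable ξ) :
    ∃ E : ℕ, ∀ N : ℕ, shannon μ (fun x (t : Fin N) => ξ (T^[t] x)) ≤ E + 3 * N := by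
  classical
  have hk : 0 < k := Fin.pos (ξ (0, 0))
  have hk1 : (1 : ℝ) ≤ k := by exact_mod_cast hk
  obtain ⟨E, f, B, hB, hBm, hf⟩ := ent_approx μ ξ hξ (ε := 1 / k) (by positivity)
  refine ⟨E, fun N => ?_⟩
  let r : Fin k → Fin k → ℝ := fun a b => if a = b then 1 / 2 else 1 / (2 * k)
  have hr0 : ∀ a b, 0 < r a b := fun a b => by
    simp only [r]; split_ifs <;> positivity
  have hr1 : ∀ b, ∑ a, r a b ≤ 1 := fun b => by
    calc ∑ a, r a b ≤ ∑ a : Fin k, ((if a = b then 1 / 2 else 0) + 1 / (2 * k) : ℝ) :=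
          Finset.sum_le_sum fun a _ => by
            simp only [r]; split_ifs
            · have : (0 : ℝ) ≤ 1 / (2 * k) := by positivity
              linarith
            · simp
      _ = 1 := by
          rw [Finset.sum_add_distrib]; simp; field_simp; norm_num
  let U := ZMod (2 ^ E) × (Fin N → ZMod 2)
  let nm : U → Fin N → Fin k := fun u t => f (u.1 + ((t : ℕ) : ZMod (2 ^ E)), u.2 t)
  have hA : (Fintype.card U : ℝ) = 2 ^ E * 2 ^ N := by
    simp [U, Fintype.card_prod, ZMod.card]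
  let A : ℝ := 2 ^ E * 2 ^ N
  have hA0 : 0 < A := by positivity
  let q : (Fin N → Fin k) → ℝ := fun w => ∑ u : U, A⁻¹ * ∏ t, r (w t) (nm u t)
  have hterm : ∀ (w : Fin N → Fin k) (u : U), 0 < A⁻¹ * ∏ t, r (w t) (nm u t) := fun w u =>
    mul_pos (inv_pos.2 hA0) (Finset.prod_pos fun t _ => hr0 _ _)
  have hq0 : ∀ w, 0 < q w := fun w =>
    Finset.sum_pos (fun u _ => hterm w u) ⟨(0, 0), Finset.mem_univ _⟩
  have hq1 : ∑ w, q w ≤ 1 := by
    simp only [q]
    rw [Finset.sum_comm]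
    calc ∑ u : U, ∑ w : Fin N → Fin k, A⁻¹ * ∏ t, r (w t) (nm u t) ≤ ∑ _u : U, A⁻¹ := by
          refine Finset.sum_le_sum fun u _ => ?_
          rw [← Finset.mul_sum, ← Fintype.piFinset_univ,
            ← Finset.prod_univ_sum (fun _ => Finset.univ) (fun t a => r a (nm u t))]
          refine mul_le_of_le_one_right (inv_pos.2 hA0).le ?_
          exact Finset.prod_le_one (fun t _ => Finset.sum_nonneg fun a _ => (hr0 _ _).le)
            fun t _ => hr1 _
      _ = 1 := by
          rw [Finset.sum_const, Finset.card_univ, nsmul_eq_mul, hA]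
          exact mul_inv_cancel₀ hA0.ne'
  have hmeas : Measurable (fun x (t : Fin N) => ξ (T^[t] x)) :=
    measurable_pi_lambda _ fun t => hξ.comp (hT.measurable.iterate t)
  refine le_trans (ent_gibbs μ _ hmeas q hq0 hq1) ?_
  have hl2 : Real.log 2 ≤ 1 := by have := Real.log_two_lt_d9; linarith
  have hlk : Real.log k ≤ k := (Real.log_le_sub_one_of_pos (by positivity)).trans (by linarith)
  have hpt : ∀ x, -Real.log (q fun t : Fin N => ξ (T^[t] x)) ≤
      (E + 2 * N) + ∑ t : Fin N, (k : ℝ) * (T^[t] ⁻¹' B).indicator 1 x := by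
    intro x
    let u : U := (PadicInt.toZModPow E x.1, fun t => (T^[t] x).2)
    have h1 : A⁻¹ * ∏ t : Fin N, r (ξ (T^[t] x)) (nm u t) ≤ q fun t : Fin N => ξ (T^[t] x) :=
      Finset.single_le_sum (f := fun u : U => A⁻¹ * ∏ t : Fin N, r (ξ (T^[t] x)) (nm u t))
        (fun u _ => (hterm (fun t : Fin N => ξ (T^[t] x)) u).le) (Finset.mem_univ u)
    have h2 := Real.log_le_log (hterm (fun t : Fin N => ξ (T^[t] x)) u) h1
    rw [Real.log_mul (inv_pos.2 hA0).ne' (Finset.prod_pos fun t _ => hr0 _ _).ne',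
      Real.log_prod (fun t _ => (hr0 _ _).ne'), Real.log_inv] at h2
    have h3 : Real.log A ≤ E + N := by
      simp only [A]
      rw [Real.log_mul (by positivity) (by positivity), Real.log_pow, Real.log_pow]
      have : (0 : ℝ) ≤ E := by positivity
      have : (0 : ℝ) ≤ N := by positivity
      nlinarith
    have h4 : ∀ t : Fin N, -Real.log (r (ξ (T^[t] x)) (nm u t)) ≤
        1 + (k : ℝ) * (T^[t] ⁻¹' B).indicator 1 x := by
      intro t
      by_cases hx : x ∈ T^[t] ⁻¹' B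
      · rw [indicator_of_mem hx]
        have : 1 / (2 * k) ≤ r (ξ (T^[t] x)) (nm u t) := by
          simp only [r]; split_ifs
          · exact one_div_le_one_div_of_le (by norm_num) (by linarith)
          · exact le_rfl
        have h5 := Real.log_le_log (by positivity) this
        rw [one_div, Real.log_inv, Real.log_mul (by norm_num) (by positivity)] at h5
        simp only [Pi.one_apply]
        linarith
      · rw [indicator_of_notMem hx]
        have e : ξ (T^[t] x) = nm u t := by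
          rw [hf _ hx, ent_iter_fst cc T h]
          simp [nm, u]
        simp only [r, if_pos e]
        rw [one_div, Real.log_inv]
        linarith
    have h5 := Finset.sum_le_sum fun t (_ : t ∈ Finset.univ) => h4 t
    rw [Finset.sum_neg_distrib, Finset.sum_add_distrib] at h5
    simp only [Finset.sum_const, Finset.card_univ, Fintype.card_fin, nsmul_eq_mul, mul_one] at h5
    linarith
  have hBt : ∀ t : Fin N, MeasurableSet (T^[t] ⁻¹' B) := fun t => hT.measurable.iterate t hB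
  have hint : ∀ t : Fin N, Integrable (fun x => (k : ℝ) * (T^[t] ⁻¹' B).indicator 1 x) μ :=
    fun t => ((integrable_const (1 : ℝ)).indicator (hBt t)).const_mul _
  have hi1 : Integrable (fun x => -Real.log (q fun t : Fin N => ξ (T^[t] x))) μ := by
    exact (Integrable.of_finite (μ := μ.map fun x (t : Fin N) => ξ (T^[t] x))
      (f := fun w => -Real.log (q w))).comp_measurable hmeas
  refine le_trans (integral_mono hi1 ((integrable_const _).add
    (integrable_finsetSum _ fun t _ => hint t)) hpt) ?_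
  simp only [Pi.add_apply]
  rw [integral_add (integrable_const _) (integrable_finsetSum _ fun t _ => hint t),
    integral_finsetSum _ fun t _ => hint t]
  have h6 : ∀ t : Fin N, ∫ x, (k : ℝ) * (T^[t] ⁻¹' B).indicator 1 x ∂μ ≤ 1 := by
    intro t
    rw [integral_const_mul, integral_indicator_one (hBt t),
      (hT.iterate t).measureReal_preimage hB.nullMeasurableSet]
    calc (k : ℝ) * μ.real B ≤ k * (1 / k) := by gcongr
      _ = 1 := by field_simp
  have h7 := Finset.sum_le_sum fun t (_ : t ∈ Finset.univ) => h6 t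
  simp only [Finset.sum_const, Finset.card_univ, Fintype.card_fin, nsmul_eq_mul, mul_one] at h7
  simp only [integral_const, probReal_univ, smul_eq_mul, one_mul]
  linarith

theorem ks_lt_top (cc : ℤ_[2] → ZMod 2) (μ : Measure (ℤ_[2] × ZMod 2)) [IsProbabilityMeasure μ]
    (T : ℤ_[2] × ZMod 2 → ℤ_[2] × ZMod 2) (hT : MeasurePreserving T μ μ)
    (h : ∀ x, T x = (x.1 + 1, x.2 + cc x.1)) : ksEntropy μ T < ⊤ := by
  refine lt_of_le_of_lt (b := ((4 : ℝ) : EReal)) ?_ (EReal.coe_lt_top _)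
  refine iSup_le fun k => iSup_le fun ξ => iSup_le fun hξ => ?_
  obtain ⟨E, hE⟩ := ent_shannon cc μ T hT h ξ hξ
  refine Filter.limsup_le_of_le (h := ?_)
  filter_upwards [Filter.eventually_ge_atTop (E + 1)] with N hN
  have h1 : (E : ℝ) + 1 ≤ N := by exact_mod_cast hN
  have h2 : (0 : ℝ) ≤ E := by positivity
  rw [EReal.coe_le_coe_iff, div_le_iff₀ (by linarith)]
  linarith [hE N]

end Vale.Agent.P109.N
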