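import Mathlib

/-! P109: letters are robustly recognisable.
PLAN.  Suppose `80 * #disagreements < c h`.  Let `A = (Y' + h/2) / h`, `Δ` the shift; the block `a < c` of the first
word (times `a h ≤ τ < (a+1) h`) meets the block `A + a` of the second word in a segment `a h + σ`, `σ ∈ Σ ⊆ [0,h)`,
`Σ = {σ | (Y' + σ) / h = A}` independent of `a`, `2 |Σ| ≥ h`.  On it the disagreement indicator is
`G (c h l + a h + σ) + G (Y' + a h + σ) + (b .. + b .. + e + e')`.  Let `β a` be a majority value over `σ ∈ Σ` of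
`G (c h l + a h + σ) + G (Y' + a h + σ)` (defined as a function of the pattern, hence `N`-periodic in `a`).  If
`b (msg l) a + b (msg l') a' + e + e' ≠ β a` then at least half of the segment, i.e. `≥ h/4` times, are disagreements.
Write `A = c l' + i`, `i < c`.  If `2 i ≤ c` use the code property for `(msg l, msg l', i)` on `a < c - i`; unless
`i = 0` and `msg l = msg l'` there are `≥ (c/20)(h/4)` disagreements.  If `2 i > c` use it for
`(msg (l'+1), msg l, c - i)` on `a' < i`, `a = a' + (c - i)`.  Finally `(Y' + h/2) / (c h) = A / c = l'`. -/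

open Finset

namespace Vale.Agent.P109.N

theorem sep_seg (h Y : ℕ) (hh : 0 < h) :
    h ≤ 2 * ((range h).filter fun σ => (Y + σ) / h = (Y + h / 2) / h).card := by
  obtain ⟨q, r, hr, rfl⟩ : ∃ q r, r < h ∧ Y = r + h * q :=
    ⟨Y / h, Y % h, Nat.mod_lt _ hh, (Nat.mod_add_div Y h).symm⟩
  have e : ∀ σ, (r + h * q + σ) / h = (r + σ) / h + q := by
    intro σ
    rw [add_right_comm, Nat.add_mul_div_left _ _ hh]
  simp only [e, add_left_inj]
  by_cases hc : r + h / 2 < h
  · have h1 : range (h - r) ⊆ (range h).filter fun σ => (r + σ) / h = (r + h / 2) / h := by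
      intro σ hσ
      rw [mem_range] at hσ
      rw [mem_filter, mem_range, Nat.div_eq_of_lt hc, Nat.div_eq_of_lt (by omega)]
      exact ⟨by omega, rfl⟩
    have := card_le_card h1
    rw [card_range] at this
    omega
  · have h1 : Ico (h - r) h ⊆ (range h).filter fun σ => (r + σ) / h = (r + h / 2) / h := by
      intro σ hσ
      rw [mem_Ico] at hσ
      have a1 : (r + σ) / h = 1 := Nat.div_eq_of_lt_le (by omega) (by omega)
      have a2 : (r + h / 2) / h = 1 := Nat.div_eq_of_lt_le (by omega) (by omega)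
      rw [mem_filter, mem_range, a1, a2]
      exact ⟨hσ.2, rfl⟩
    have := card_le_card h1
    rw [Nat.card_Ico] at this
    omega

/-- A majority value. -/
def maj (S : Finset ℕ) (D : ℕ → ZMod 2) : ZMod 2 :=
  if S.card ≤ 2 * (S.filter fun σ => D σ = 1).card then 1 else 0

theorem maj_spec (S : Finset ℕ) (D : ℕ → ZMod 2) :
    S.card ≤ 2 * (S.filter fun σ => D σ = maj S D).card := by
  unfold maj
  split_ifs with h
  · exact h
  · have h1 := card_filter_add_card_filter_not (s := S) (fun σ => D σ = 1)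
    have h2 : (S.filter fun σ => ¬ D σ = 1) = S.filter fun σ => D σ = 0 := by
      refine filter_congr fun σ _ => ?_
      generalize D σ = x
      revert x
      decide
    rw [h2] at h1
    omega

theorem sep_count (h c : ℕ) (Sg : Finset ℕ) (hSg : Sg ⊆ range h) (hcard : h ≤ 2 * Sg.card)
    (D : ℕ → ℕ → ZMod 2) (P : ℕ → Prop) [DecidablePred P] (S : Finset ℕ) (hS : S ⊆ range c)
    (hP : ∀ a ∈ S, ∀ σ ∈ Sg, D a σ = maj Sg (D a) → P (a * h + σ)) :
    h * S.card ≤ 4 * ((range (c * h)).filter P).card := by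
  have h1 : (S.sigma fun a => Sg.filter fun σ => D a σ = maj Sg (D a)).card ≤
      ((range (c * h)).filter P).card := by
    refine card_le_card_of_injOn (fun x => x.1 * h + x.2) ?_ ?_
    · rintro ⟨a, σ⟩ hx
      rw [mem_coe, mem_sigma, mem_filter] at hx
      obtain ⟨ha, hσ, hD⟩ := hx
      have a1 := mem_range.1 (hS ha)
      have a2 := mem_range.1 (hSg hσ)
      rw [mem_coe, mem_filter, mem_range]
      refine ⟨?_, hP a ha σ hσ hD⟩
      have : (a + 1) * h ≤ c * h := Nat.mul_le_mul_right h a1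
      simp only at a2 ⊢
      nlinarith
    · rintro ⟨a, σ⟩ hx ⟨a', σ'⟩ hx' he
      rw [mem_coe, mem_sigma, mem_filter] at hx hx'
      have a2 : σ < h := mem_range.1 (hSg hx.2.1)
      have a3 : σ' < h := mem_range.1 (hSg hx'.2.1)
      have he' : a * h + σ = a' * h + σ' := he
      have b1 : (a * h + σ) % h = σ := by rw [Nat.mul_add_mod_of_lt a2]
      have b2 : (a' * h + σ') % h = σ' := by rw [Nat.mul_add_mod_of_lt a3]
      have b3 : σ = σ' := by rw [← b1, he', b2]
      subst b3
      have b4 : a = a' := Nat.eq_of_mul_eq_mul_right (by omega) (Nat.add_right_cancel he')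
      subst b4
      rfl
  rw [card_sigma] at h1
  have h2 : ∑ _a ∈ S, h ≤ ∑ a ∈ S, 4 * (Sg.filter fun σ => D a σ = maj Sg (D a)).card :=
    sum_le_sum fun a _ => by
      have := maj_spec Sg (D a)
      omega
  rw [sum_const, smul_eq_mul, ← mul_sum, mul_comm] at h2
  omega

theorem sep {Msg : Type} (h c N : ℕ) (hh : 0 < h) (hc : 0 < c) (G : ℕ → ZMod 2)
    (hG : ∀ y, G (y + N * h) = G y) (b : Msg → ℕ → ZMod 2)
    (hb : ∀ (μ μ' : Msg) (i : ℕ) (β : ℕ → ZMod 2), 2 * i ≤ c → (i ≠ 0 ∨ μ ≠ μ') →
      (∀ a, β (a + N) = β a) →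
      c ≤ 20 * ((range (c - i)).filter fun a => b μ a + b μ' (a + i) ≠ β a).card)
    (msg : ℕ → Msg) (l Y' : ℕ) (e : ZMod 2) (e' : ℕ → ZMod 2) (g g' : ℕ → ZMod 2)
    (hg : ∀ τ < c * h, g τ = e + G (c * h * l + τ) + b (msg l) (τ / h))
    (hg' : ∀ τ < c * h, g' τ = e' ((Y' + τ) / (c * h)) + G (Y' + τ) +
      b (msg ((Y' + τ) / (c * h))) ((Y' + τ) / h % c))
    (hd : 80 * ((range (c * h)).filter fun τ => g τ ≠ g' τ).card < c * h) :
    msg ((Y' + h / 2) / (c * h)) = msg l := by
  by_contra hne
  set A := (Y' + h / 2) / h with hA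
  have hl' : (Y' + h / 2) / (c * h) = A / c := by
    rw [hA, Nat.div_div_eq_div_mul, mul_comm h c]
  rw [hl'] at hne
  set Sg := (range h).filter fun σ => (Y' + σ) / h = A with hSg
  have hcard : h ≤ 2 * Sg.card := sep_seg h Y' hh
  set D : ℕ → ℕ → ZMod 2 := fun a σ => G (c * h * l + (a * h + σ)) + G (Y' + (a * h + σ)) with hD
  have hper : ∀ a, D (a + N) = D a := by
    intro a
    ext σ
    have e1 : c * h * l + ((a + N) * h + σ) = c * h * l + (a * h + σ) + N * h := by ring
    have e2 : Y' + ((a + N) * h + σ) = Y' + (a * h + σ) + N * h := by ring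
    simp only [hD, e1, e2, hG]
  have key : ∀ S : Finset ℕ, S ⊆ range c → (∀ a ∈ S, b (msg l) a +
      b (msg ((A + a) / c)) ((A + a) % c) ≠ maj Sg (D a) + e + e' ((A + a) / c)) →
      ¬ c ≤ 20 * S.card := by
    intro S hS hbad hc20
    have h1 := sep_count h c Sg (filter_subset _ _) hcard D (fun τ => g τ ≠ g' τ) S hS (by
      intro a ha σ hσ hDm heq
      obtain ⟨hσ1, hσ2⟩ := mem_filter.1 hσ
      have a1 := mem_range.1 (hS ha)
      have a2 := mem_range.1 hσ1
      have hτ : a * h + σ < c * h := by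
        have : (a + 1) * h ≤ c * h := Nat.mul_le_mul_right h a1
        nlinarith
      have q1 : (a * h + σ) / h = a := by
        rw [add_comm, Nat.add_mul_div_right _ _ hh, Nat.div_eq_of_lt a2, zero_add]
      have q2 : (Y' + (a * h + σ)) / h = A + a := by
        rw [add_comm (a * h), ← add_assoc, Nat.add_mul_div_right _ _ hh, hσ2]
      have q3 : (Y' + (a * h + σ)) / (c * h) = (A + a) / c := by
        rw [← q2, Nat.div_div_eq_div_mul, mul_comm h c]
      rw [hg _ hτ, hg' _ hτ, q1, q2, q3] at heq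
      apply hbad a ha
      rw [← hDm]
      have z2 : ∀ x0 x1 x2 x3 x4 x5 : ZMod 2, x0 + x1 + x3 = x5 + x2 + x4 →
          x3 + x4 = x1 + x2 + x0 + x5 := by decide
      exact z2 _ _ _ _ _ _ heq)
    nlinarith
  obtain ⟨l', i, hi, hAe⟩ : ∃ l' i, i < c ∧ A = i + c * l' :=
    ⟨A / c, A % c, Nat.mod_lt _ hc, (Nat.mod_add_div A c).symm⟩
  have hAc : A / c = l' := by
    rw [hAe, Nat.add_mul_div_left _ _ hc, Nat.div_eq_of_lt hi, zero_add]
  rw [hAc] at hne
  by_cases h2 : 2 * i ≤ c
  · refine key _ ((filter_subset _ _).trans (range_subset_range.2 (Nat.sub_le c i))) ?_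
      (hb (msg l) (msg l') i (fun a => maj Sg (D a) + e + e' l') h2 (Or.inr (Ne.symm hne))
        (fun a => by simp only [hper]))
    intro a ha
    obtain ⟨ha1, ha2⟩ := mem_filter.1 ha
    rw [mem_range] at ha1
    have e1 : A + a = a + i + c * l' := by omega
    have q1 : (A + a) / c = l' := by
      rw [e1, Nat.add_mul_div_left _ _ hc, Nat.div_eq_of_lt (by omega), zero_add]
    have q2 : (A + a) % c = a + i := by
      rw [e1, Nat.add_mul_mod_self_left, Nat.mod_eq_of_lt (by omega)]
    rw [q1, q2]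
    exact ha2
  · have h3 := hb (msg (l' + 1)) (msg l) (c - i)
      (fun a => maj Sg (D (a + (c - i))) + e + e' (l' + 1)) (by omega) (Or.inl (by omega))
      (fun a => by simp only [add_right_comm a N (c - i), hper])
    rw [← card_image_of_injective _ (add_left_injective (c - i))] at h3
    refine key _ ?_ ?_ h3
    · intro a ha
      obtain ⟨a', ha', rfl⟩ := mem_image.1 ha
      have := mem_range.1 (mem_filter.1 ha').1
      rw [mem_range]
      omega
    · intro a ha
      obtain ⟨a', ha', rfl⟩ := mem_image.1 ha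
      obtain ⟨ha1, ha2⟩ := mem_filter.1 ha'
      rw [mem_range] at ha1
      have e1 : A + (a' + (c - i)) = a' + c * (l' + 1) := by
        rw [mul_add, mul_one]
        omega
      have q1 : (A + (a' + (c - i))) / c = l' + 1 := by
        rw [e1, Nat.add_mul_div_left _ _ hc, Nat.div_eq_of_lt (by omega), zero_add]
      have q2 : (A + (a' + (c - i))) % c = a' := by
        rw [e1, Nat.add_mul_mod_self_left, Nat.mod_eq_of_lt (by omega)]
      rw [q1, q2, add_comm (b (msg l) _)]
      exact ha2

end Vale.Agent.P109.N
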