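import Vale.Agent.P109.N.Rig
import Vale.Agent.P109.N.Ext
import Vale.Agent.P109.N.Code
import Vale.Agent.P109.N.Sep

/-! P109: the cocycle over the 2-adic odometer. -/

open MeasureTheory Set Filter Topology

namespace Vale.Agent.P109.N

theorem exists_gamma (N J l : ℕ) : ∃ γ m : ℕ, l ≤ γ ∧ 4 ≤ m ∧ 2 ^ γ ≤ 200 * m ∧
    (Fintype.card ((Fin m → ZMod 2) × (Fin J → ZMod 2)) : ℝ) ^ 2 * ((2 ^ γ : ℕ) + 1) * 2 ^ N *
      (9 / 10) ^ (2 ^ γ) < 1 := by
  have t1 := tendsto_self_mul_const_pow_of_lt_one (r := 19 / 20) (by norm_num) (by norm_num)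
  have t2 := tendsto_pow_atTop_nhds_zero_of_lt_one (r := (19 / 20 : ℝ)) (by norm_num) (by norm_num)
  have t3 := (t1.add t2).eventually (gt_mem_nhds (show (0 : ℝ) + 0 < 1 / 2 ^ N by
    rw [add_zero]; positivity))
  obtain ⟨c0, hc0⟩ := eventually_atTop.1 t3
  obtain ⟨γ, hγ⟩ : ∃ γ, γ = c0 + l + 100 * J + 400 := ⟨_, rfl⟩
  have h1 : γ < 2 ^ γ := Nat.lt_two_pow_self
  set c := 2 ^ γ with hc
  refine ⟨γ, c / 100, by omega, by omega, by omega, ?_⟩
  set m := c / 100 with hm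
  have h2 := hc0 c (by omega)
  rw [lt_div_iff₀ (by positivity)] at h2
  have h3 : (Fintype.card ((Fin m → ZMod 2) × (Fin J → ZMod 2)) : ℝ) ^ 2 ≤ 16 ^ m := by
    simp only [Fintype.card_prod, Fintype.card_pi, ZMod.card, Finset.prod_const, Finset.card_univ,
      Fintype.card_fin]
    push_cast
    calc ((2 : ℝ) ^ m * 2 ^ J) ^ 2 ≤ (2 ^ m * 2 ^ m) ^ 2 := by
          gcongr
          · norm_num
          · omega
      _ = 16 ^ m := by
          rw [← mul_pow, ← pow_mul, mul_comm m, pow_mul]; norm_num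
  have h4 : (18 / 19 : ℝ) ^ c ≤ (1 / 16) ^ m := by
    calc (18 / 19 : ℝ) ^ c ≤ (18 / 19) ^ (100 * m) :=
          pow_le_pow_of_le_one (by norm_num) (by norm_num) (by omega)
      _ ≤ _ := by
          rw [pow_mul]
          gcongr
          norm_num
  have h5 : (9 / 10 : ℝ) ^ c = (18 / 19) ^ c * (19 / 20) ^ c := by
    rw [← mul_pow]; norm_num
  have h6 : (16 : ℝ) ^ m * (1 / 16) ^ m = 1 := by rw [← mul_pow]; norm_num
  rw [h5]
  calc _ ≤ 16 ^ m * ((c : ℝ) + 1) * 2 ^ N * ((1 / 16) ^ m * (19 / 20) ^ c) := by gcongr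
    _ = (16 ^ m * (1 / 16) ^ m) * ((c * (19 / 20) ^ c + (19 / 20) ^ c) * 2 ^ N) := by ring
    _ < 1 := by rw [h6, one_mul]; exact h2

theorem const_on_blocks (ℓ P : ℕ) (g Γ : ℕ → ZMod 2)
    (h : ∀ t, ¬ℓ ∣ P + t + 1 → g (t + 1) - g t = Γ (P + t + 1) - Γ (P + t)) :
    ∃ e : ℕ → ZMod 2, ∀ t, g t = e ((P + t) / ℓ) + Γ (P + t) := by
  let D : ℕ → ZMod 2 := fun t => g t - Γ (P + t)
  have key : ∀ t, D t = D (ℓ * ((P + t) / ℓ) - P) := by
    intro t
    induction t with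
    | zero =>
      have : ℓ * ((P + 0) / ℓ) - P = 0 := Nat.sub_eq_zero_of_le (Nat.mul_div_le _ _)
      rw [this]
    | succ t ih =>
      by_cases hd : ℓ ∣ P + t + 1
      · rw [← add_assoc, Nat.mul_div_cancel' hd]
        congr 1
        omega
      · rw [← add_assoc, Nat.succ_div_of_not_dvd hd, ← ih]
        have := h t hd
        simp only [D, ← add_assoc]
        linear_combination this
  refine ⟨fun l => D (ℓ * l - P), fun t => ?_⟩
  simp only [← key]
  simp [D]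

/-- a level: block length `2 ^ e`, period `2 ^ E`, primitive of the cocycle inside blocks -/
structure Lv where
  e : ℕ
  E : ℕ
  le : e ≤ E
  Γ : ℕ → ZMod 2
  per : Function.Periodic Γ (2 ^ E)

theorem next_level (Ω : Type) [MeasurableSpace Ω] (A : Lv) (J l : ℕ) : ∃ B : Lv, A.e ≤ B.e ∧
    A.E ≤ B.E ∧ (∀ y, ¬2 ^ A.e ∣ y + 1 → B.Γ (y + 1) - B.Γ y = A.Γ (y + 1) - A.Γ y) ∧
    ∃ c m : ℕ, 0 < c ∧ l ≤ c * 2 ^ A.e ∧ 4 ≤ m ∧ c ≤ 200 * m ∧
      ∀ (μ : Measure Ω) (a : Ω → ℕ → ZMod 2) (pos : Ω → ℕ), IsProbabilityMeasure μ →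
        Measurable pos → (∀ x, pos x < 2 ^ B.E) → (∀ y, μ.real {x | pos x = y} ≤ 1 / 2 ^ B.E) →
        (∀ x t, ¬2 ^ B.e ∣ pos x + t + 1 →
          a x (t + 1) - a x t = B.Γ (pos x + t + 1) - B.Γ (pos x + t)) →
        Rigid μ a (2 ^ A.e) (c * 2 ^ A.e) m J := by
  classical
  obtain ⟨γ, m, g1, g2, g3, g4⟩ := exists_gamma (2 ^ (A.E - A.e)) J (l + A.E)
  obtain ⟨b, hb⟩ := exists_code _ (2 ^ (A.E - A.e)) (2 ^ γ) (by positivity) g4
  set h := 2 ^ A.e with hh
  set c := 2 ^ γ with hc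
  set B := 2 ^ J with hB
  set Nn := (2 ^ m) ^ B with hNn
  have h0 : 0 < h := by positivity
  have c0 : 0 < c := by positivity
  have B0 : 0 < B := by positivity
  have N0 : 0 < Nn := by positivity
  have ℓ0 : 0 < c * h := by positivity
  let enc : Fin Nn ≃ (Fin B → Fin m → ZMod 2) := Fintype.equivOfCardEq (by simp [hNn])
  let F : ℕ → Fin B → Fin m → ZMod 2 := fun k => enc ⟨k % Nn, Nat.mod_lt _ N0⟩
  let Xl : ℕ → Fin m → ZMod 2 := fun k => F (k / B) ⟨k % B, Nat.mod_lt _ B0⟩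
  let msg : ℕ → (Fin m → ZMod 2) × (Fin J → ZMod 2) := fun k =>
    (Xl k, fun j => ip (Xl k) (Xl (k + 2 ^ j.val)))
  have pX : ∀ k, Xl (k + B * Nn) = Xl k := by
    intro k
    simp only [Xl, F, Nat.add_mul_div_left _ _ B0, Nat.add_mod_right, Nat.add_mul_mod_self_left]
  have pm : ∀ k, msg (k + B * Nn) = msg k := by
    intro k
    simp only [msg, pX, add_right_comm k (B * Nn)]
  have eE : 2 ^ (A.e + γ + J + m * B) = c * h * (B * Nn) := by
    rw [hNn, ← pow_mul, pow_add, pow_add, pow_add]; ring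
  have ee : 2 ^ (A.e + γ) = c * h := by rw [pow_add]; ring
  have pA : Function.Periodic A.Γ (2 ^ (A.e + γ + J + m * B)) := by
    obtain ⟨k, hk⟩ := pow_dvd_pow 2 (show A.E ≤ A.e + γ + J + m * B by omega)
    rw [hk, mul_comm]
    exact A.per.nat_mul k
  refine ⟨⟨A.e + γ, A.e + γ + J + m * B, by omega,
    fun y => A.Γ y + b (msg (y / (c * h))) (y / h % c), fun y => ?_⟩, by simp, by simp only; omega,
    fun y hy => ?_, c, m, c0, ?_, g2, g3, fun μ a pos _ mp lt un co => ?_⟩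
  · simp only
    rw [pA y, eE, Nat.add_mul_div_left _ _ ℓ0, pm, show c * h * (B * Nn) = h * (c * (B * Nn)) by
      ring, Nat.add_mul_div_left _ _ h0, Nat.add_mul_mod_self_left]
  · have hy' : ¬c * h ∣ y + 1 := fun h' => hy (Dvd.dvd.trans (Dvd.intro_left _ rfl) h')
    simp only [Nat.succ_div_of_not_dvd hy, Nat.succ_div_of_not_dvd hy']
    ring
  · have : γ < 2 ^ γ := Nat.lt_two_pow_self
    nlinarith
  simp only [eE, ee] at lt un co
  refine ⟨pos, Xl, fun x => pos x / (c * h) % B, fun x => F (pos x / (c * h) / B), mp,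
    (measurable_of_countable fun y => y / (c * h) % B).comp mp,
    (measurable_of_countable fun y => F (y / (c * h) / B)).comp mp, fun x => Nat.mod_lt _ B0,
    fun i0 f0 => ?_, fun x k hk => ?_, fun p x τ0 τ1 hd hc => ?_⟩
  · set q := B * (enc.symm f0).val + i0
    have sub : {x | pos x / (c * h) % B = i0 ∧ F (pos x / (c * h) / B) = f0} ⊆
        ⋃ y ∈ Finset.range (c * h), {x | pos x = c * h * q + y} := by
      intro x hx
      simp only [mem_iUnion, Finset.mem_range]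
      refine ⟨pos x % (c * h), Nat.mod_lt _ ℓ0, ?_⟩
      have l1 : pos x / (c * h) / B < Nn := by
        rw [Nat.div_lt_iff_lt_mul B0, Nat.div_lt_iff_lt_mul ℓ0]
        have := lt x
        nlinarith
      have l2 : (enc.symm f0).val = pos x / (c * h) / B := by
        rw [← hx.2]
        simp only [F, Equiv.symm_apply_apply]
        exact Nat.mod_eq_of_lt l1
      have l3 : q = pos x / (c * h) := by
        simp only [q]
        rw [l2, ← hx.1, Nat.div_add_mod]
      rw [mem_ofPred_eq, l3, Nat.div_add_mod]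
    refine (measureReal_mono sub (measure_ne_top _ _)).trans ((measureReal_biUnion_finset_le _ _).trans ?_)
    refine (Finset.sum_le_card_nsmul _ _ _ fun y _ => un _).trans (le_of_eq ?_)
    have := congrArg (Nat.cast : ℕ → ℝ) eE
    push_cast at this
    rw [this, Finset.card_range, nsmul_eq_mul, hNn, hB]
    have : (c : ℝ) ≠ 0 := by positivity
    have : (h : ℝ) ≠ 0 := by positivity
    push_cast
    field_simp
  · set z := pos x / (c * h)
    have e1 : (z + k) / B = z / B := by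
      conv_lhs => rw [← Nat.div_add_mod z B, add_assoc, Nat.mul_add_div B0, Nat.div_eq_of_lt hk,
        add_zero]
    have e2 : (z + k) % B = z % B + k := by
      conv_lhs => rw [← Nat.div_add_mod z B, add_assoc, Nat.mul_add_mod, Nat.mod_eq_of_lt hk]
    simp only [Xl, e1, e2]
    rfl
  · obtain ⟨e, he⟩ := const_on_blocks (c * h) (pos p) (a p)
      (fun y => A.Γ y + b (msg (y / (c * h))) (y / h % c)) (co p)
    obtain ⟨e', he'⟩ := const_on_blocks (c * h) (pos x) (a x)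
      (fun y => A.Γ y + b (msg (y / (c * h))) (y / h % c)) (co x)
    obtain ⟨l0, hl⟩ := hd
    have key := sep h c (2 ^ (A.E - A.e)) h0 c0 A.Γ (by
      intro y
      rw [hh, ← pow_add, Nat.sub_add_cancel A.le]
      exact A.per y) b hb msg l0 (pos x + τ1) (e l0) e' (fun τ => a p (τ0 + τ))
      (fun τ => a x (τ1 + τ)) (by
        intro τ hτ
        have e1 : (c * h * l0 + τ) / (c * h) = l0 := by
          rw [Nat.mul_add_div ℓ0, Nat.div_eq_of_lt hτ, add_zero]
        have e2 : (c * h * l0 + τ) / h % c = τ / h := by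
          rw [show c * h * l0 = h * (c * l0) by ring, Nat.mul_add_div h0, Nat.mul_add_mod,
            Nat.mod_eq_of_lt]
          rwa [Nat.div_lt_iff_lt_mul h0]
        rw [he, ← add_assoc (pos p), hl, e1, e2, add_assoc]) (by
        intro τ _
        rw [he', ← add_assoc (pos x), add_assoc (e' _)]) hc
    rw [hl, Nat.mul_div_cancel_left _ ℓ0]
    exact ⟨congrArg Prod.fst key, fun j hj => congrFun (congrArg Prod.snd key) ⟨j, hj⟩⟩

theorem val_mod (E E' : ℕ) (h : E ≤ E') (ω : ℤ_[2]) :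
    (PadicInt.toZModPow E ω).val = (PadicInt.toZModPow E' ω).val % 2 ^ E := by
  rw [← PadicInt.cast_toZModPow E E' h, ZMod.cast_eq_val, ZMod.val_natCast]

theorem exists_rigid (Jf lf : ℕ → ℕ → ℕ) : ∃ cc : ℤ_[2] → ZMod 2, Measurable cc ∧
    ∀ (μ : Measure (ℤ_[2] × ZMod 2)) (T : ℤ_[2] × ZMod 2 → ℤ_[2] × ZMod 2),
      IsProbabilityMeasure μ → (∀ x, T x = (x.1 + 1, x.2 + cc x.1)) →
      (∀ (E : ℕ) (y : ZMod (2 ^ E)), μ.real {x | PadicInt.toZModPow E x.1 = y} = 1 / 2 ^ E) →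
      ∀ n, ∃ h c m : ℕ, 0 < h ∧ 0 < c ∧ lf n h ≤ c * h ∧ 4 ≤ m ∧ c ≤ 200 * m ∧
        Rigid μ (fun x t => (T^[t] x).2) h (c * h) m (Jf n h) := by
  classical
  choose F F1 F2 F3 F4 using fun (n : ℕ) (A : Lv) =>
    next_level (ℤ_[2] × ZMod 2) A (Jf n (2 ^ A.e)) (lf n (2 ^ A.e))
  let L : ℕ → Lv := fun n => Nat.rec ⟨0, 0, le_rfl, 0, fun _ => rfl⟩ F n
  have Ls : ∀ n, L (n + 1) = F n (L n) := fun n => rfl
  let ps : ℕ → ℤ_[2] → ℕ := fun n ω => (PadicInt.toZModPow (L n).E ω).val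
  have mps : ∀ n, Measurable (ps n) := fun n =>
    (measurable_of_countable ZMod.val).comp (measurable_toZModPow _)
  let Δ : ℕ → ℕ → ZMod 2 := fun n y => (L n).Γ (y + 1) - (L n).Γ y
  have Δm : ∀ n y, Δ n (y % 2 ^ (L n).E) = Δ n y := by
    intro n y
    simp only [Δ]
    rw [(L n).per.map_mod_nat, ← (L n).per.map_mod_nat (_ + 1), Nat.mod_add_mod,
      (L n).per.map_mod_nat]
  have dm : ∀ n y, 2 ^ (L n).e ∣ y % 2 ^ (L n).E + 1 ↔ 2 ^ (L n).e ∣ y + 1 := by
    intro n y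
    have := pow_dvd_pow 2 (L n).le
    rw [← Nat.dvd_mod_iff this, Nat.mod_add_mod, Nat.dvd_mod_iff this]
  have st : ∀ ω n k, n ≤ k → ¬2 ^ (L n).e ∣ ps n ω + 1 →
      ¬2 ^ (L k).e ∣ ps k ω + 1 ∧ Δ k (ps k ω) = Δ n (ps n ω) := by
    intro ω n k hk hn
    induction k, hk using Nat.le_induction with
    | base => exact ⟨hn, rfl⟩
    | succ k _ ih =>
      have e : ps k ω = ps (k + 1) ω % 2 ^ (L k).E := val_mod _ _ (F2 k (L k)) ω
      have h1 := ih.1
      rw [e, dm] at h1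
      refine ⟨fun h => h1 ((pow_dvd_pow 2 (F1 k (L k))).trans h), ?_⟩
      rw [← ih.2, e, Δm]
      exact F3 k (L k) _ h1
  let S : Set ℤ_[2] := ⋃ n, ps n ⁻¹' {y | ¬2 ^ (L n).e ∣ y + 1 ∧ Δ n y = 1}
  have mS : MeasurableSet S := MeasurableSet.iUnion fun n => mps n MeasurableSet.of_discrete
  have hcc : ∀ ω n, ¬2 ^ (L n).e ∣ ps n ω + 1 →
      (if ω ∈ S then (1 : ZMod 2) else 0) = Δ n (ps n ω) := by
    intro ω n hn
    split_ifs with h
    · obtain ⟨k, hk1, hk2⟩ := mem_iUnion.1 h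
      rcases le_total n k with h' | h'
      · rw [← (st ω n k h' hn).2, hk2]
      · rw [(st ω k n h' hk1).2, hk2]
    · have : Δ n (ps n ω) ≠ 1 := fun h' => h (mem_iUnion.2 ⟨n, hn, h'⟩)
      revert this
      generalize Δ n (ps n ω) = z
      revert z
      decide
  refine ⟨fun ω => if ω ∈ S then 1 else 0, Measurable.ite mS measurable_const measurable_const,
    fun μ T hμ hT un n => ?_⟩
  obtain ⟨c, m, c0, h1, h2, h3, h4⟩ := F4 n (L n)
  refine ⟨_, c, m, by positivity, c0, h1, h2, h3, h4 μ _ (fun x => ps (n + 1) x.1) hμ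
    ((mps (n + 1)).comp measurable_fst) (fun x => ZMod.val_lt _) (fun y => ?_) fun x t ht => ?_⟩
  · rw [← un (L (n + 1)).E y]
    refine measureReal_mono fun x hx => ?_
    rw [mem_ofPred_eq, ← hx]
    exact (ZMod.natCast_zmod_val _).symm
  · have it : ∀ t : ℕ, (T^[t] x).1 = x.1 + t := by
      intro t
      induction t with
      | zero => simp
      | succ t ih => rw [Function.iterate_succ_apply', hT, ih]; push_cast; ring
    have e : ps (n + 1) (x.1 + t) = (ps (n + 1) x.1 + t) % 2 ^ (L (n + 1)).E := by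
      simp only [ps, map_add, map_natCast]
      rw [ZMod.val_add, ZMod.val_natCast, Nat.add_mod_mod]
    have := hcc (x.1 + t) (n + 1) (by rw [e, dm (n + 1)]; exact ht)
    rw [e, Δm (n + 1)] at this
    rw [Function.iterate_succ_apply', hT, it]
    simp only [add_sub_cancel_left]
    exact this

end Vale.Agent.P109.N
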