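import Vale.Agent.P109.N.ToFlat2

/-! P109: the flat system attached to a finite atlas. -/

open MeasureTheory Set Metric Filter Topology

namespace Vale.Agent.P109.N

namespace Atl

variable {d N : ℕ} {M : Type*} [TopologicalSpace M] (A : Atl d M N)

lemma nice_of_rob [MeasurableSpace M] (ν : Measure M) {S S' : M → M} (hS' : A.Sm S')
    (hinv : ∀ y, S' (S y) = y) {r L w C : ℝ} (hL : 1 ≤ L) (hLC : L ≤ C) (hid : A.Unif id r L)
    (hS : A.Unif S r L) (hw : 0 < w) (hwr : L * w ≤ r) {T : Fin N → R d} {Φ : M → R d}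
    {ψ : R d → M} (hΦm : Measurable Φ) (hΦ : ∀ i, ∀ y ∈ A.V i, Φ y = A.χ i y + T i)
    (hψ : ∀ i, ∀ z ∈ A.D i, ψ (z + T i) = A.η i z)
    (hlow : ∀ i B, MeasurableSet B → B ⊆ A.D2 i → volume B ≤ ENNReal.ofReal C * ν (A.η i '' B))
    {y : M} (h1 : y ∉ A.NR L w) (h2 : S y ∉ A.NR L (L * w)) :
    Nice C (ν.map Φ) (Φ ∘ S ∘ ψ) (Φ y) w := by
  obtain ⟨i, hi⟩ := A.exists_V y
  obtain ⟨j, hj⟩ := A.exists_V (S y)
  have r1 : A.Rob L i w y := by
    by_contra h; exact h1 ⟨i, hi, h⟩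
  have r2 : A.Rob L j (L * w) (S y) := by
    by_contra h; exact h2 ⟨j, hj, h⟩
  have hL0 : 0 < L := by linarith
  have hwr' : w ≤ r := le_trans (by nlinarith) hwr
  set G := A.χ j ∘ S ∘ A.η i with hG
  set p := A.χ i y with hp
  have hU := hS i j y hi.1 hj.1
  have hGp : G p = A.χ j (S y) := by
    simp only [hG, hp, Function.comp_apply, A.left i y hi.1.1]
  have hRg : ∀ z ∈ ball p w, z ∈ A.Rg := fun z hz => (r1.1 hz).1
  have hnh : ∀ z ∈ ball p w, A.Rg ∈ 𝓝 z := fun z hz =>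
    mem_of_superset (isOpen_ball.mem_nhds hz) hRg
  have hU2 := fun z (hz : z ∈ ball p w) => hU.2 z (hRg z hz) (lt_of_lt_of_le hz hwr')
  have hGb : ∀ z ∈ ball p w, G z ∈ ball (A.χ j (S y)) (L * w) := fun z hz => by
    rw [← hGp]
    exact lt_of_le_of_lt (hU2 z hz).2.2.1 (mul_lt_mul_of_pos_left hz hL0)
  have hηG : ∀ z ∈ ball p w, A.η j (G z) = S (A.η i z) := fun z hz => A.left j _ (hU2 z hz).1
  have hSV : ∀ z ∈ ball p w, S (A.η i z) ∈ A.V j := fun z hz => by
    rw [← hηG z hz]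
    exact A.rob_V hL0.le hid hwr hj r2 (hGb z hz)
  have hball : ∀ z ∈ ball (Φ y) w, z - T i ∈ ball p w := fun z hz => by
    rw [hΦ i y hi, mem_ball, dist_eq_norm] at hz
    rw [mem_ball, dist_eq_norm, sub_sub, add_comm (T i)]
    exact hz
  have hs : ∀ z ∈ ball (Φ y) w, (Φ ∘ S ∘ ψ) z = G (z - T i) + T j := fun z hz => by
    have e : ψ z = A.η i (z - T i) := by
      rw [← hψ i _ (r1.1 (hball z hz)), sub_add_cancel]
    simp only [Function.comp_apply, e]
    rw [hΦ j _ (hSV _ (hball z hz))]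
    rfl
  have hdG : ∀ z ∈ ball p w, HasFDerivAt G (fderivWithin ℝ G A.Rg z) z := fun z hz =>
    (hU2 z hz).2.1.hasFDerivWithinAt.hasFDerivAt (hnh z hz)
  have hds : ∀ z ∈ ball (Φ y) w,
      HasFDerivAt (Φ ∘ S ∘ ψ) (fderivWithin ℝ G A.Rg (z - T i)) z := fun z hz => by
    have a1 : HasFDerivAt (fun z => G (z - T i) + T j) (fderivWithin ℝ G A.Rg (z - T i)) z := by
      have := ((hdG _ (hball z hz)).comp z ((hasFDerivAt_id z).sub_const (T i))).add_const (T j)
      simpa using this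
    refine a1.congr_of_eventuallyEq ?_
    filter_upwards [isOpen_ball.mem_nhds hz] with u hu using hs u hu
  have hc : Φ y ∈ ball (Φ y) w := mem_ball_self hw
  have hpp : Φ y - T i = p := by rw [hΦ i y hi]; exact add_sub_cancel_right _ _
  have hfz : fderiv ℝ (Φ ∘ S ∘ ψ) (Φ y) = fderivWithin ℝ G A.Rg p := by
    rw [(hds _ hc).fderiv, hpp]
  refine ⟨fun z hz => (hds z hz).differentiableAt, ?_, fun z hz => ?_, ?_, fun B hB hBs => ?_⟩
  · rw [hfz]; exact hU.1.trans hLC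
  · rw [hfz, (hds z hz).fderiv]
    refine (hU2 _ (hball z hz)).2.2.2.trans ?_
    exact mul_le_mul hLC (le_of_lt (hball z hz)) dist_nonneg (by linarith)
  · rw [hfz]
    have hq : A.χ j (S y) ∈ A.D2 j := A.D_sub j (A.χ_mem_D hj.1)
    have b1 := (hS'.2 j i _ hq (by rw [A.left j _ hj.1.1, hinv]; exact hi.1.1)).1
    have b2 : A.Rg ∈ 𝓝 (A.χ j (S y)) :=
      mem_of_superset (ball_mem_nhds _ (mul_pos hL0 hw)) fun z hz => (r2.1 hz).1
    have b3 : DifferentiableAt ℝ (A.χ i ∘ S' ∘ A.η j) (G p) := by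
      rw [hGp]; exact (b1.differentiableWithinAt (by norm_num)).differentiableAt b2
    have b4 := b3.hasFDerivAt.comp p (hdG p (mem_ball_self hw))
    have b5 : HasFDerivAt ((A.χ i ∘ S' ∘ A.η j) ∘ G) (ContinuousLinearMap.id ℝ (R d)) p := by
      refine (hasFDerivAt_id p).congr_of_eventuallyEq ?_
      filter_upwards [ball_mem_nhds p hw] with u hu
      simp only [Function.comp_apply, id]
      rw [hηG u hu, hinv, A.right i u (A.D_sub i (r1.1 hu))]
    have b6 := congrArg (fun f : R d →L[ℝ] R d => LinearMap.det (f : R d →ₗ[ℝ] R d)) (b4.unique b5)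
    simp only [ContinuousLinearMap.toLinearMap_comp, LinearMap.det_comp, ContinuousLinearMap.coe_id,
      LinearMap.det_id] at b6
    intro h0
    rw [ContinuousLinearMap.det] at h0
    rw [h0, mul_zero] at b6
    exact zero_ne_one b6
  · have c1 : ∀ z ∈ (fun z => z + T i) ⁻¹' B, z ∈ ball p w := fun z hz => by
      have := hball _ (hBs hz)
      rwa [add_sub_cancel_right] at this
    rw [← measure_preimage_add_right volume (T i) B, Measure.map_apply hΦm hB]
    refine (hlow i _ (measurable_add_const _ hB) fun z hz => A.D_sub i (r1.1 (c1 z hz))).trans ?_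
    gcongr
    rintro _ ⟨z, hz, rfl⟩
    rw [mem_preimage, hΦ i _ (A.rob_V hL0.le hid hwr' hi r1 (c1 z hz)),
      A.right i z (A.D_sub i (r1.1 (c1 z hz)))]
    exact hz

theorem flat [T2Space M] [MeasurableSpace M] [BorelSpace M] (hd : 0 < d) (ν : Measure M)
    [IsProbabilityMeasure ν] {S S' : M → M} (hid : A.Sm id) (hS : A.Sm S) (hS' : A.Sm S')
    (hinv : ∀ y, S' (S y) = y) (hmp : MeasurePreserving S ν ν) {C1 : ℝ} (hC1 : 0 ≤ C1)
    (hup : ∀ i B, B ⊆ A.D2 i → ν (A.η i '' B) ≤ ENNReal.ofReal C1 * volume B)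
    (hlow : ∀ i B, MeasurableSet B → B ⊆ A.D2 i → volume B ≤ ENNReal.ofReal C1 * ν (A.η i '' B)) :
    ∃ (C : ℕ) (ν' : Measure (R d)) (s : R d → R d) (ψ : R d → M), Flat d C ν' s ∧
      MeasurePreserving ψ ν' ν ∧ ∀ᵐ z ∂ν', ψ (s z) = S (ψ z) := by
  obtain ⟨y0⟩ := nonempty_of_isProbabilityMeasure ν
  obtain ⟨T, Φ, ψ, Bd, hΦm, hψm, hΦ, hψ, hBd⟩ := A.exists_glue hd y0
  have hBd0 : 0 ≤ Bd := (norm_nonneg _).trans (hBd y0)
  obtain ⟨r1, hr1, L1, hu1⟩ := A.exists_unif hid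
  obtain ⟨r2, hr2, L2, hu2⟩ := A.exists_unif hS
  set L := max 1 (max L1 L2) with hLdef
  have hL : 1 ≤ L := le_max_left _ _
  have hL0 : 0 < L := by linarith
  have hv1 : A.Unif id (min r1 r2) L :=
    hu1.mono (min_le_left _ _) ((le_max_left _ _).trans (le_max_right _ _))
  have hv2 : A.Unif S (min r1 r2) L :=
    hu2.mono (min_le_right _ _) ((le_max_right _ _).trans (le_max_right _ _))
  obtain ⟨C0, hC0, hNR⟩ := A.meas_NR ν hC1 hL0.le hup
  obtain ⟨w1, hw1, hw1r, hw1ρ⟩ : ∃ w1, 0 < w1 ∧ w1 ≤ min r1 r2 ∧ ∀ k, w1 ≤ A.ρ k := by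
    have a1 : ∀ᶠ x in 𝓝[>] (0 : ℝ), ∀ k, x ≤ A.ρ k :=
      eventually_all.2 fun k => mem_nhdsWithin_of_mem_nhds (Iic_mem_nhds (A.ρ_pos k))
    have a2 : ∀ᶠ x in 𝓝[>] (0 : ℝ), x ≤ min r1 r2 :=
      mem_nhdsWithin_of_mem_nhds (Iic_mem_nhds (lt_min hr1 hr2))
    obtain ⟨x, hx1, hx2, hx3⟩ := (a1.and (a2.and self_mem_nhdsWithin)).exists
    exact ⟨x, hx3, hx2, hx1⟩
  have hψΦ : ∀ y, ψ (Φ y) = y := fun y => by
    obtain ⟨i, hi⟩ := A.exists_V y
    rw [hΦ i y hi, hψ i _ (A.χ_mem_D hi.1), A.left i y hi.1.1]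
  obtain ⟨C, hC⟩ := exists_nat_ge (L + C1 + N * C1 + Bd + C0 * (1 + L) + L * L / w1)
  have p1 : (0 : ℝ) ≤ N * C1 := by positivity
  have p2 : 0 ≤ C0 * (1 + L) := by positivity
  have p3 : 0 ≤ L * L / w1 := by positivity
  have hΦp : MeasurePreserving Φ ν (ν.map Φ) := ⟨hΦm, rfl⟩
  have : IsProbabilityMeasure (ν.map Φ) := Measure.isProbabilityMeasure_map hΦm.aemeasurable
  have hψp : MeasurePreserving ψ (ν.map Φ) ν := ⟨hψm, by
    rw [Measure.map_map hψm hΦm]
    have : ψ ∘ Φ = id := funext hψΦ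
    rw [this, Measure.map_id]⟩
  refine ⟨C, ν.map Φ, Φ ∘ S ∘ ψ, ψ, ⟨by linarith, this, hΦp.comp (hmp.comp hψp), fun B hB => ?_,
    ?_, fun w hw => ?_⟩, hψp, Eventually.of_forall fun z => hψΦ _⟩
  · rw [Measure.map_apply hΦm hB]
    have hsub : Φ ⁻¹' B ⊆ ⋃ i, A.η i '' (A.D2 i ∩ (fun z => z + T i) ⁻¹' B) := by
      intro y hy
      obtain ⟨i, hi⟩ := A.exists_V y
      refine mem_iUnion.2 ⟨i, A.χ i y, ⟨A.D_sub i (A.χ_mem_D hi.1), ?_⟩, A.left i y hi.1.1⟩
      rw [mem_preimage, ← hΦ i y hi]; exact hy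
    refine (measure_mono hsub).trans ((measure_iUnion_fintype_le _ _).trans ?_)
    calc ∑ i, ν (A.η i '' (A.D2 i ∩ (fun z => z + T i) ⁻¹' B))
        ≤ ∑ _i : Fin N, ENNReal.ofReal C1 * volume B := by
          refine Finset.sum_le_sum fun i _ => (hup i _ inter_subset_left).trans ?_
          rw [← measure_preimage_add_right volume (T i) B]
          gcongr
          exact inter_subset_right
      _ = ENNReal.ofReal (N * C1) * volume B := by
          rw [Finset.sum_const, Finset.card_univ, Fintype.card_fin, nsmul_eq_mul,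
            ENNReal.ofReal_mul (by positivity), ENNReal.ofReal_natCast, mul_assoc]
      _ ≤ _ := by gcongr; linarith
  · rw [Measure.map_apply hΦm measurableSet_closedBall.compl]
    have : Φ ⁻¹' (closedBall 0 (C : ℝ))ᶜ = ∅ := by
      refine eq_empty_iff_forall_notMem.2 fun y hy => hy ?_
      rw [mem_closedBall_zero_iff]; linarith [hBd y]
    rw [this, measure_empty]
  · by_cases hw' : w1 < L * (L * w)
    · refine prob_le_one.trans ?_
      rw [← ENNReal.ofReal_one]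
      refine ENNReal.ofReal_le_ofReal ?_
      have : 1 ≤ L * L / w1 * w := by
        rw [div_mul_eq_mul_div, le_div_iff₀ hw1]; nlinarith
      nlinarith
    push Not at hw'
    have hLw : 0 < L * w := mul_pos hL0 hw
    have hw2 : L * w ≤ w1 := le_trans (by nlinarith) hw'
    let Bad := toMeasurable ν (A.NR L w ∪ S ⁻¹' A.NR L (L * w))
    have hBad : MeasurableSet Bad := measurableSet_toMeasurable _ _
    have hsub : {z | ¬Nice C (ν.map Φ) (Φ ∘ S ∘ ψ) z w} ⊆ ψ ⁻¹' Bad ∪ {z | Φ (ψ z) = z}ᶜ := by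
      intro z hz
      by_contra hn
      rw [mem_union, not_or] at hn
      have e : Φ (ψ z) = z := not_not.1 hn.2
      have hb : ψ z ∉ A.NR L w ∪ S ⁻¹' A.NR L (L * w) := fun h => hn.1 (subset_toMeasurable _ _ h)
      rw [mem_union, not_or] at hb
      refine hz ?_
      rw [← e]
      refine A.nice_of_rob ν hS' hinv hL (by linarith) hv1 hv2 hw (hw2.trans hw1r) hΦm hΦ hψ
        (fun i B hB hBs => (hlow i B hB hBs).trans ?_) hb.1 hb.2
      gcongr; linarith
    have hme : MeasurableSet {z | Φ (ψ z) = z} := measurableSet_eq_fun (hΦm.comp hψm) measurable_id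
    have h0 : ν.map Φ {z | Φ (ψ z) = z}ᶜ = 0 := by
      rw [Measure.map_apply hΦm hme.compl]
      have : Φ ⁻¹' {z | Φ (ψ z) = z}ᶜ = ∅ := by
        refine eq_empty_iff_forall_notMem.2 fun y hy => hy ?_
        change Φ (ψ (Φ y)) = Φ y
        rw [hψΦ]
      rw [this, measure_empty]
    refine (measure_mono hsub).trans ((measure_union_le _ _).trans ?_)
    rw [h0, add_zero, hψp.measure_preimage hBad.nullMeasurableSet, measure_toMeasurable]
    refine (measure_union_le _ _).trans ?_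
    have a1 := hNR w hw fun k => hw2.trans (hw1ρ k)
    have a2 : ν (S ⁻¹' A.NR L (L * w)) ≤ ENNReal.ofReal (C0 * (L * w)) := by
      refine (Measure.le_map_apply hmp.measurable.aemeasurable _).trans ?_
      rw [hmp.map_eq]
      exact hNR _ hLw fun k => hw'.trans (hw1ρ k)
    refine (add_le_add a1 a2).trans ?_
    rw [← ENNReal.ofReal_add (by positivity) (by positivity)]
    refine ENNReal.ofReal_le_ofReal ?_
    have : C0 * (1 + L) ≤ C := by linarith
    nlinarith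

end Atl

end Vale.Agent.P109.N
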