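import Vale.Agent.P109.N.Defs
import Vale.Agent.P109.N.ToFlat3

/-! P109: a smooth system on a compact manifold (with boundary or corners) as a flat system.
PLAN.  `E = EuclideanSpace ℝ (Fin d)`, `e : E ≃L R d` (`EuclideanSpace.equiv`, volume preserving:
`PiLp.volume_preserving_ofLp` / `EuclideanSpace.volume_preserving_...`), `χ x = extChartAt I x`.
1. For each `x` pick `ρ x > 0` with `closedBall (χ x x) (3 ρ x) ∩ range I ⊆ (χ x).target`
   (`extChartAt_target_mem_nhdsWithin`); `U x = source ∩ χ x ⁻¹' ball (χ x x) (ρ x)` is an open cover, take a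
   finite subcover `x i`, `i : Fin N` (or `i < N`).  `c y` = least `i` with `y ∈ U (x i)` (measurable).
   `Φ y = e (χ (x (c y)) y) + fun _ => (c y) * T` with `T` larger than twice the bound of all
   `‖e (χ (x i) y)‖`, `y ∈ U (x i)`, plus a margin: `Φ` is measurable and injective (here `0 < d` is used), so
   a measurable embedding (M is Polish: `Manifold.metrizableSpace`, compact; `Measurable.measurableEmbedding`),
   `ψ` = measurable left inverse (`MeasurableEmbedding.exists_measurable_extend`), `ν' = map Φ ν`,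
   `s = Φ ∘ S ∘ ψ`.
2. Uniform regularity.  For a smooth `g : M → M` (`g = S` and `g = id`) and `i j`, the set
   `K = {y | y ∈ closed core i of radius 2ρ, g y ∈ closed core j of radius 2ρ}` is compact and
   `G = χ j ∘ g ∘ (χ i).symm` is `ContDiffWithinAt ∞` on `range I` at the points of `χ i '' K`; both `G` and
   `fderivWithin ℝ G (range I)` are Lipschitz on a neighbourhood within the convex set `range I`
   (`ContDiffWithinAt.exists_lipschitzOnWith`, `I.convex_range`, `I.uniqueDiffOn`); Lebesgue number lemma gives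
   uniform `r0, L`.  At interior points of `range I`, `fderivWithin = fderiv`.  Invertibility of the derivative
   from the chain rule with `S.symm` (both `χ i y` and `χ j (S y)` are interior points for robust `y`).
3. Robust points of width `w`: `ball (χ i y) w ⊆ interior (range I) ∩ ball (centre i) (ρ i)` for `i = c y`, and
   `y` is not in the shell `ρ k ≤ dist ≤ ρ k + L w` of any chart `k`.  Then `c` is constant on the chart ball.
   Non-robust points have measure `≤ C w`: `ν ≤ C vol` in each closed core (density continuous on a compact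
   set); shells by `Measure.addHaar_closedBall` scaling; the boundary layer of the convex set
   `D = range I ∩ closedBall (centre) (ρ)`: if `ball a σ ⊆ D` then the homothetic copy `a + (1 - t) (D - a)`
   consists of points whose ball of radius `t σ` lies in `interior D`, and it has volume `(1 - t)^d vol D`
   (`Measure.addHaar_image_homothety`), `1 - (1 - t)^d ≤ d t`; this treats the sphere and the boundary at once.
   `z = Φ y` is `Nice` of width `w` if `y` is robust of width `~w` and `S y` robust of width `~L w`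
   (use invariance of `ν`); for `w ≥ 1 / C` nothing is to prove.  Lower bound: density bounded below on cores. -/

open MeasureTheory Set Metric
open scoped ContDiff Manifold

namespace Vale.Agent.P109.N

open Filter Topology in
lemma exists_atl {d : ℕ} {H : Type*} [TopologicalSpace H]
    (I : ModelWithCorners ℝ (EuclideanSpace ℝ (Fin d)) H) (M : Type*) [TopologicalSpace M]
    [ChartedSpace H M] [CompactSpace M] :
    ∃ (N : ℕ) (A : Atl d M N) (x : Fin N → M),
      A.Rg = (EuclideanSpace.equiv (Fin d) ℝ).symm ⁻¹' range I ∧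
      (∀ i, A.χ i = EuclideanSpace.equiv (Fin d) ℝ ∘ extChartAt I (x i)) ∧
      (∀ i, A.η i = (extChartAt I (x i)).symm ∘ (EuclideanSpace.equiv (Fin d) ℝ).symm) ∧
      (∀ i, A.src i = (extChartAt I (x i)).source) ∧
      ∀ i, ∀ z ∈ A.D2 i, (EuclideanSpace.equiv (Fin d) ℝ).symm z ∈ (extChartAt I (x i)).target := by
  set e := EuclideanSpace.equiv (Fin d) ℝ with he
  have h1 : ∀ x : M, ∃ ρ, 0 < ρ ∧ ∀ z ∈ e.symm ⁻¹' range I ∩ closedBall (e (extChartAt I x x)) (2 * ρ),
      e.symm z ∈ (extChartAt I x).target := by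
    intro x
    obtain ⟨u, hu, hxu, hsub⟩ := mem_nhdsWithin.1 (extChartAt_target_mem_nhdsWithin (I := I) x)
    obtain ⟨ε, hε, hb⟩ := Metric.isOpen_iff.1 (hu.preimage e.symm.continuous)
      (e (extChartAt I x x)) (by simpa using hxu)
    exact ⟨ε / 4, by positivity, fun z hz =>
      hsub ⟨hb (closedBall_subset_ball (by linarith) hz.2), hz.1⟩⟩
  choose ρ hρ h1 using h1
  have hc : ∀ x : M, ContinuousOn (e ∘ extChartAt I x) (extChartAt I x).source := fun x =>
    e.continuous.comp_continuousOn (continuousOn_extChartAt x)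
  obtain ⟨t, -, ht⟩ := isCompact_univ.elim_nhds_subcover
    (fun x : M => (extChartAt I x).source ∩ (e ∘ extChartAt I x) ⁻¹' ball (e (extChartAt I x x)) (ρ x))
    fun x _ => ((hc x).isOpen_inter_preimage (isOpen_extChartAt_source x) isOpen_ball).mem_nhds
      ⟨mem_extChartAt_source x, mem_ball_self (hρ x)⟩
  let x : Fin t.card → M := fun i => (t.equivFin.symm i : M)
  refine ⟨t.card,
    { Rg := e.symm ⁻¹' range I
      χ := fun i => e ∘ extChartAt I (x i)
      η := fun i => (extChartAt I (x i)).symm ∘ e.symm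
      src := fun i => (extChartAt I (x i)).source
      ctr := fun i => e (extChartAt I (x i) (x i))
      ρ := fun i => ρ (x i)
      convex := I.convex_range.linear_preimage (e.symm : R d →L[ℝ] _).toLinearMap
      closed := I.isClosed_range.preimage e.symm.continuous
      int := ?_
      ρ_pos := fun i => hρ _
      ctr_mem := fun i => ?_
      src_open := fun i => isOpen_extChartAt_source _
      χ_cont := fun i => hc _
      η_cont := fun i => (continuousOn_extChartAt_symm _).comp e.symm.continuous.continuousOn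
        (h1 _)
      left := fun i y hy => ?_
      mem := fun i y hy => ?_
      right_mem := fun i z hz => (extChartAt I (x i)).map_target (h1 _ z hz)
      right := fun i z hz => ?_
      cover := fun y => ?_ }, x, rfl, fun _ => rfl, fun _ => rfl, fun _ => rfl,
    fun i z hz => h1 _ z hz⟩
  · obtain ⟨a, ha⟩ := I.nonempty_interior
    exact ⟨e a, preimage_interior_subset_interior_preimage e.symm.continuous (by simpa using ha)⟩
  · rw [mem_preimage, e.symm_apply_apply]
    exact extChartAt_target_subset_range _ (mem_extChartAt_target _)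
  · rw [Function.comp_apply, Function.comp_apply, e.symm_apply_apply, (extChartAt I (x i)).left_inv hy]
  · rw [mem_preimage, Function.comp_apply, e.symm_apply_apply]
    exact extChartAt_target_subset_range _ ((extChartAt I (x i)).map_source hy)
  · rw [Function.comp_apply, Function.comp_apply, (extChartAt I (x i)).right_inv (h1 _ z hz),
      e.apply_symm_apply]
  · obtain ⟨a, ha, hy⟩ := mem_iUnion₂.1 (ht (mem_univ y))
    refine ⟨t.equivFin ⟨a, ha⟩, ?_⟩
    simp only [x, Equiv.symm_apply_apply]
    exact hy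

open Filter Topology in
lemma atl_sm {d : ℕ} {H : Type*} [TopologicalSpace H]
    (I : ModelWithCorners ℝ (EuclideanSpace ℝ (Fin d)) H) {M : Type*} [TopologicalSpace M]
    [ChartedSpace H M] [IsManifold I ∞ M] {N : ℕ} (A : Atl d M N) (x : Fin N → M)
    (h1 : A.Rg = (EuclideanSpace.equiv (Fin d) ℝ).symm ⁻¹' range I)
    (h2 : ∀ i, A.χ i = EuclideanSpace.equiv (Fin d) ℝ ∘ extChartAt I (x i))
    (h3 : ∀ i, A.η i = (extChartAt I (x i)).symm ∘ (EuclideanSpace.equiv (Fin d) ℝ).symm)
    (h4 : ∀ i, A.src i = (extChartAt I (x i)).source)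
    (h5 : ∀ i, ∀ z ∈ A.D2 i, (EuclideanSpace.equiv (Fin d) ℝ).symm z ∈ (extChartAt I (x i)).target)
    {g : M → M} (hg : ContMDiff I I ∞ g) : A.Sm g := by
  set e := EuclideanSpace.equiv (Fin d) ℝ with he
  refine ⟨hg.continuous, fun i j z hz hgz => ?_⟩
  have ht := h5 i z hz
  rw [h3, h4] at hgz
  have hn : (extChartAt I (x i)).symm ⁻¹' (g ⁻¹' (extChartAt I (x j)).source) ∈ 𝓝 (e.symm z) :=
    (continuousAt_extChartAt_symm'' ht).preimage_mem_nhds
      (((isOpen_extChartAt_source _).preimage hg.continuous).mem_nhds hgz)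
  constructor
  · have a1 := ((contMDiff_iff.1 hg).2 (x i) (x j) (e.symm z) ⟨ht, hgz⟩).mono_of_mem_nhdsWithin
      (inter_mem (extChartAt_target_mem_nhdsWithin_of_mem ht) (mem_nhdsWithin_of_mem_nhds hn))
    have a2 := a1.comp z (s := e.symm ⁻¹' range I) e.symm.contDiff.contDiffWithinAt
      (fun _ h => h)
    have a3 := e.contDiff.contDiffAt.comp_contDiffWithinAt z a2
    rw [h1, h2, h3]
    exact a3.of_le (WithTop.coe_le_coe.2 (le_top : (2 : ℕ∞) ≤ ⊤))
  · rw [h3, h4]
    exact mem_nhdsWithin_of_mem_nhds (e.symm.continuous.continuousAt.preimage_mem_nhds hn)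

lemma atl_meas {d : ℕ} {H : Type*} [TopologicalSpace H]
    (I : ModelWithCorners ℝ (EuclideanSpace ℝ (Fin d)) H) {M : Type*} [TopologicalSpace M]
    [ChartedSpace H M] [MeasurableSpace M] {N : ℕ} (A : Atl d M N) (x : Fin N → M)
    (h3 : ∀ i, A.η i = (extChartAt I (x i)).symm ∘ (EuclideanSpace.equiv (Fin d) ℝ).symm)
    (h5 : ∀ i, ∀ z ∈ A.D2 i, (EuclideanSpace.equiv (Fin d) ℝ).symm z ∈ (extChartAt I (x i)).target)
    (ν : Measure M) (hν : SmoothDensity I ν) :
    ∃ C1, 0 ≤ C1 ∧ (∀ i B, B ⊆ A.D2 i → ν (A.η i '' B) ≤ ENNReal.ofReal C1 * volume B) ∧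
      ∀ i B, MeasurableSet B → B ⊆ A.D2 i → volume B ≤ ENNReal.ofReal C1 * ν (A.η i '' B) := by
  set e := EuclideanSpace.equiv (Fin d) ℝ with he
  have hvp : MeasurePreserving e volume volume := PiLp.volume_preserving_ofLp (Fin d)
  have h : ∀ i, ∃ C, 0 ≤ C ∧ ∀ B, MeasurableSet B → B ⊆ A.D2 i →
      ν (A.η i '' B) ≤ ENNReal.ofReal C * volume B ∧
        volume B ≤ ENNReal.ofReal C * ν (A.η i '' B) := by
    intro i
    obtain ⟨f, hf, hpos, hfν⟩ := hν (x i)
    have hc : ContinuousOn (f ∘ e.symm) (A.D2 i) :=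
      hf.continuousOn.comp e.symm.continuous.continuousOn (h5 i)
    have hne : (A.D2 i).Nonempty :=
      ⟨A.ctr i, A.ctr_mem i, mem_closedBall_self (by linarith [A.ρ_pos i])⟩
    obtain ⟨a, ha, hmin⟩ := (A.D2_compact i).exists_isMinOn hne hc
    obtain ⟨b, hb, hmax⟩ := (A.D2_compact i).exists_isMaxOn hne hc
    have ha0 : 0 < f (e.symm a) := hpos _ (h5 i a ha)
    have hb0 : 0 < f (e.symm b) := hpos _ (h5 i b hb)
    refine ⟨f (e.symm b) + (f (e.symm a))⁻¹, by positivity, fun B hB hBs => ?_⟩
    have hm : MeasurableSet (e ⁻¹' B) := e.continuous.measurable hB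
    have hs : e ⁻¹' B ⊆ (extChartAt I (x i)).target := fun y hy => by
      simpa using h5 i _ (hBs hy)
    have e1 : A.η i '' B = (extChartAt I (x i)).symm '' (e ⁻¹' B) := by
      rw [h3, image_comp, e.image_symm_eq_preimage]
    have e2 : volume (e ⁻¹' B) = volume B := hvp.measure_preimage hB.nullMeasurableSet
    rw [e1, hfν _ hm hs, ← e2]
    constructor
    · rw [← setLIntegral_const]
      refine setLIntegral_mono' hm fun y hy => ENNReal.ofReal_le_ofReal ?_
      have : f (e.symm (e y)) ≤ f (e.symm b) := hmax (hBs hy)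
      rw [e.symm_apply_apply] at this
      linarith [inv_pos.2 ha0]
    · have a1 : ENNReal.ofReal (f (e.symm a)) * volume (e ⁻¹' B) ≤
          ∫⁻ y in e ⁻¹' B, ENNReal.ofReal (f y) := by
        rw [← setLIntegral_const]
        refine setLIntegral_mono' hm fun y hy => ENNReal.ofReal_le_ofReal ?_
        have : f (e.symm a) ≤ f (e.symm (e y)) := hmin (hBs hy)
        rwa [e.symm_apply_apply] at this
      calc volume (e ⁻¹' B) = ENNReal.ofReal (f (e.symm a))⁻¹ *
            (ENNReal.ofReal (f (e.symm a)) * volume (e ⁻¹' B)) := by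
            rw [← mul_assoc, ← ENNReal.ofReal_mul (inv_pos.2 ha0).le, inv_mul_cancel₀ ha0.ne',
              ENNReal.ofReal_one, one_mul]
        _ ≤ _ := by gcongr; linarith
  choose C hC h using h
  obtain ⟨b, hb⟩ := (finite_range C).bddAbove
  have hb' : ∀ i, C i ≤ max b 0 := fun i => (hb (mem_range_self i)).trans (le_max_left _ _)
  refine ⟨max b 0, le_max_right _ _, fun i B hB => ?_, fun i B hB hBs => ?_⟩
  · have hm : MeasurableSet (toMeasurable volume B ∩ A.D2 i) :=
      (measurableSet_toMeasurable _ _).inter (A.D2_compact i).isClosed.measurableSet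
    refine (measure_mono (image_mono (subset_inter (subset_toMeasurable volume B) hB))).trans
      ((h i _ hm inter_subset_right).1.trans ?_)
    rw [← measure_toMeasurable B]
    gcongr
    · exact hb' i
    · exact inter_subset_left
  · refine (h i B hB hBs).2.trans ?_
    gcongr
    exact hb' i

theorem toFlat {d : ℕ} (hd : 0 < d) {H : Type*} [TopologicalSpace H]
    (I : ModelWithCorners ℝ (EuclideanSpace ℝ (Fin d)) H) {M : Type*} [TopologicalSpace M]
    [ChartedSpace H M] [IsManifold I ∞ M] [CompactSpace M] [T2Space M] [MeasurableSpace M]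
    [BorelSpace M] (ν : Measure M) [IsProbabilityMeasure ν] (S : M ≃ₘ^∞⟮I, I⟯ M)
    (hν : SmoothDensity I ν) (hS : MeasurePreserving S ν ν) :
    ∃ (C : ℕ) (ν' : Measure (R d)) (s : R d → R d) (ψ : R d → M), Flat d C ν' s ∧
      MeasurePreserving ψ ν' ν ∧ ∀ᵐ z ∂ν', ψ (s z) = S (ψ z) := by
  obtain ⟨N, A, x, h1, h2, h3, h4, h5⟩ := exists_atl I M
  obtain ⟨C1, hC1, hup, hlow⟩ := atl_meas I A x h3 h5 ν hν
  exact A.flat hd ν (atl_sm I A x h1 h2 h3 h4 h5 contMDiff_id)
    (atl_sm I A x h1 h2 h3 h4 h5 S.contMDiff) (atl_sm I A x h1 h2 h3 h4 h5 S.symm.contMDiff)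
    S.symm_apply_apply hS hC1 hup hlow

/-- a compact manifold of dimension zero is finite -/
theorem finite_of_dim_zero {H : Type*} [TopologicalSpace H]
    (I : ModelWithCorners ℝ (EuclideanSpace ℝ (Fin 0)) H) {M : Type*} [TopologicalSpace M]
    [ChartedSpace H M] [CompactSpace M] : Finite M := by
  have : DiscreteTopology M := by
    refine discreteTopology_iff_isOpen_singleton.2 fun x => ?_
    have : (extChartAt I x).source = {x} := by
      refine eq_singleton_iff_unique_mem.2 ⟨mem_extChartAt_source x, fun y hy => ?_⟩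
      exact (extChartAt I x).injOn hy (mem_extChartAt_source x) (Subsingleton.elim _ _)
    rw [← this]
    exact isOpen_extChartAt_source x
  exact finite_of_compact_of_discrete

end Vale.Agent.P109.N
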