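import Vale.Agent.P109.N.Final1
import Vale.Agent.P109.N.Couple
import Vale.Agent.P109.N.Lev
import Vale.Agent.P109.N.ToFlat
import Vale.Agent.P109.N.Ent

/-! P109: an ergodic finite-entropy system which is not a factor of any smooth system. -/

open MeasureTheory Set Metric Filter Topology
open scoped NNReal ENNReal ContDiff Manifold

noncomputable section

universe u v

namespace Vale.Agent.P109.N

theorem exists_demand : ∃ Jf lf : ℕ → ℕ → ℕ, ∀ (d C : ℕ) (ν : Measure (R d)) (s : R d → R d),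
    Flat d C ν s → ∀ (g : R d → ZMod 2) (a : R d → ℕ → ZMod 2), Measurable g →
    (∀ᵐ x ∂ν, ∀ t, a x t = g (s^[t] x)) →
    ¬∀ n, ∃ h c m : ℕ, 0 < h ∧ 0 < c ∧ lf n h ≤ c * h ∧ 4 ≤ m ∧ c ≤ 200 * m ∧
      Rigid ν a h (c * h) m (Jf n h) := by
  choose κ hκ H using fun (d C : ℕ) => couple d C
  choose! J0 l0 H using H
  let S : ℕ → Finset (ℕ × ℕ × ℕ) := fun n =>
    Finset.range (n + 1) ×ˢ Finset.range (n + 1) ×ˢ Finset.range (n + 1)
  let Jd : ℕ → ℕ → ℕ := fun n h => (S n).sup fun q =>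
    J0 q.1 q.2.1 (1 / (q.2.2 + 1 : ℕ)) (1 / (16000 * h))
  let ld : ℕ → ℕ → ℕ := fun n h => (S n).sup fun q =>
    l0 q.1 q.2.1 (1 / (q.2.2 + 1 : ℕ)) (1 / (16000 * h))
  refine ⟨fun n h => n + Jd n h + n + 1, fun n h => ld n h + n,
    fun d C ν s hF g a mg ha hR => ?_⟩
  have := hF.prob
  obtain ⟨k, hk⟩ := exists_nat_gt (7 * κ d C ^ 2 + 9600)
  set ε : ℝ := 1 / (k + 1 : ℕ) with hε
  have ε0 : 0 < ε := by positivity
  have k1 : (0 : ℝ) < (k + 1 : ℕ) := by positivity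
  have κ0 : 0 ≤ 7 * κ d C ^ 2 := by positivity
  obtain ⟨K, r, mK, r0, hK, rob⟩ := robust_set ν g mg (ε ^ 2) (by positivity)
  have t1 := (tendsto_pow_atTop_nhds_zero_of_lt_one (r := (91 / 100 : ℝ)) (by norm_num)
    (by norm_num)).eventually (gt_mem_nhds (show (0 : ℝ) < ε / 18 by positivity))
  obtain ⟨n0, hn0⟩ := eventually_atTop.1 t1
  obtain ⟨n1, hn1⟩ := exists_nat_gt (1 / r)
  obtain ⟨n, hn⟩ : ∃ n, n = n0 + n1 + d + C + k + 1 := ⟨_, rfl⟩
  obtain ⟨h, c, m, h0, c0, h1, h2, h3, h4⟩ := hR n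
  beta_reduce at h1 h4
  have mem : (d, C, k) ∈ S n := by
    simp only [S, Finset.mem_product, Finset.mem_range]
    omega
  have hJ : J0 d C ε (1 / (16000 * h)) ≤ Jd n h := Finset.le_sup (f := fun q : ℕ × ℕ × ℕ =>
    J0 q.1 q.2.1 (1 / (q.2.2 + 1 : ℕ)) (1 / (16000 * h))) mem
  have hl : l0 d C ε (1 / (16000 * h)) ≤ ld n h := Finset.le_sup (f := fun q : ℕ × ℕ × ℕ =>
    l0 q.1 q.2.1 (1 / (q.2.2 + 1 : ℕ)) (1 / (16000 * h))) mem
  obtain ⟨j, j1, j2, hc⟩ := H d C ε (1 / (16000 * h)) ε0 (by positivity) ν s hF (c * h)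
    (by omega) n
  have p1 : (91 / 100 : ℝ) ^ n < ε / 18 := hn0 n (by omega)
  refine contra_core hF.mp g a ha h4 h0 c0 h2 h3 (by omega) (κ d C) ε (hκ d C) K mK hK
    (fun z hz z' hz' hd => rob z hz z' hz' (hd.trans ?_)) ε0 ?_ ?_ ?_ ?_ hc
  · have : (n1 : ℝ) ≤ (c * h : ℕ) := by exact_mod_cast (by omega : n1 ≤ c * h)
    rw [div_lt_iff₀ r0] at hn1
    rw [div_le_iff₀ (by positivity)]
    nlinarith
  · refine one_div_le_one_div_of_le (by norm_num) ?_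
    push_cast
    linarith
  · rw [div_le_iff₀ (by positivity)]
    have e1 : (2 : ℝ) ^ (j + 1) * 2 ^ n ≤ 2 ^ (n + Jd n h + n + 1) := by
      rw [← pow_add]
      exact pow_le_pow_right₀ (by norm_num) (by omega)
    have e2 : ((k + 1 : ℕ) : ℝ) ≤ 2 ^ n := by
      have : n < 2 ^ n := Nat.lt_two_pow_self
      exact_mod_cast (by omega : k + 1 ≤ 2 ^ n)
    rw [hε, one_div, inv_mul_eq_div, le_div_iff₀ k1]
    exact le_trans (by gcongr) e1
  · have : j < 2 ^ j := Nat.lt_two_pow_self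
    have := hn0 (2 ^ j) (by omega)
    linarith
  · rw [hε, mul_one_div, div_lt_one k1]
    push_cast
    linarith

theorem exists_not_factor : ∃ (X : Type) (_ : MeasurableSpace X) (_ : StandardBorelSpace X)
    (μ : Measure X) (_ : IsProbabilityMeasure μ) (_ : NullSingletonClass μ) (T : X ≃ᵐ X),
    Ergodic T μ ∧ ksEntropy μ T < ⊤ ∧ ¬IsSmoothFactor.{u, v} μ T := by
  obtain ⟨Jf, lf, dem⟩ := exists_demand
  obtain ⟨cc, mcc, rig⟩ := exists_rigid Jf lf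
  obtain ⟨μ, T, hμ, na, erg, hT, un⟩ := exists_ext cc mcc
  refine ⟨ℤ_[2] × ZMod 2, inferInstance, inferInstance, μ, hμ, na, T, erg,
    ks_lt_top cc μ T erg.toMeasurePreserving hT, ?_⟩
  rintro ⟨d, H, _, I, M, _, _, _, _, _, _, _, ν, _, S, hν, hS, Ψ, mΨ, hΨ, eq⟩
  rcases Nat.eq_zero_or_pos d with rfl | hd
  · have := finite_of_dim_zero I (M := M)
    have h1 : μ (range Ψ)ᶜ = 0 := by
      rw [← hΨ, Measure.map_apply_of_aemeasurable mΨ (finite_range Ψ).measurableSet.compl]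
      simp
    have h2 : μ (range Ψ) = 0 := (finite_range Ψ).measure_zero μ
    have := measure_union_null h2 h1
    simp at this
  obtain ⟨C, ν', s, ψ, hF, mψ, eψ⟩ := toFlat hd I ν S hν hS
  have e1 := mΨ.ae_eq_mk
  have p1 : MeasurePreserving (mΨ.mk Ψ) ν μ :=
    ⟨mΨ.measurable_mk, by rw [← hΨ, Measure.map_congr e1]⟩
  have e2 : ∀ᵐ y ∂ν, mΨ.mk Ψ (S y) = T (mΨ.mk Ψ y) := by
    filter_upwards [e1, hS.quasiMeasurePreserving.ae e1, eq] with y h1 h2 h3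
    rw [← h1, ← h2, h3]
  let Φ := mΨ.mk Ψ ∘ ψ
  have p2 : MeasurePreserving Φ ν' μ := p1.comp mψ
  have e3 : ∀ᵐ z ∂ν', Φ (s z) = T (Φ z) := by
    filter_upwards [eψ, mψ.quasiMeasurePreserving.ae e2] with z h1 h2
    simp only [Φ, Function.comp, h1, h2]
  have e4 : ∀ t, ∀ᵐ z ∂ν', T^[t] (Φ z) = Φ (s^[t] z) := by
    intro t
    induction t with
    | zero => simp
    | succ t ih =>
      filter_upwards [ih, (hF.mp.iterate t).quasiMeasurePreserving.ae e3] with z h1 h2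
      rw [Function.iterate_succ_apply', Function.iterate_succ_apply', h1, h2]
  refine dem d C ν' s hF (fun z => (Φ z).2) (fun z t => (T^[t] (Φ z)).2)
    (measurable_snd.comp p2.measurable) ?_ fun n => ?_
  · filter_upwards [ae_all_iff.2 e4] with z hz t
    rw [hz]
  · obtain ⟨h, c, m, h0, c0, h1, h2, h3, h4⟩ := rig μ T hμ hT un n
    exact ⟨h, c, m, h0, c0, h1, h2, h3, h4.comp p2⟩

theorem IsIso.isFactor {M : Type u} {X : Type} [MeasurableSpace M] [MeasurableSpace X]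
    {μ : Measure X} {T : X → X} {ν : Measure M} {S : M → M} (h : IsIso μ T ν S) :
    IsFactor ν S μ T := by
  obtain ⟨X₀, M₀, F, G, h1, h2, h3, -, h5, h6, h7, h8, h9, h10⟩ := h
  refine ⟨G, h8, ?_, ?_⟩
  · subst h9
    rw [AEMeasurable.map_map_of_aemeasurable h8 h7]
    have : G ∘ F =ᵐ[μ] id := by
      filter_upwards [h1] with x hx
      exact h6.1 hx
    rw [Measure.map_congr this, Measure.map_id]
  · filter_upwards [h2] with y hy
    obtain ⟨x, hx, rfl⟩ := h5.surjOn hy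
    rw [← h10 x hx, h6.1 hx, h6.1 (h3 hx)]

theorem main : ∃ (X : Type) (_ : MeasurableSpace X) (_ : StandardBorelSpace X)
    (μ : Measure X) (_ : IsProbabilityMeasure μ) (_ : NullSingletonClass μ) (T : X ≃ᵐ X),
    Ergodic T μ ∧ ksEntropy μ T < ⊤ ∧ ¬HasSmoothModel.{u, v} μ T ∧
      ¬IsSmoothFactor.{u, v} μ T := by
  obtain ⟨X, i1, i2, μ, i3, i4, T, h1, h2, h3⟩ := exists_not_factor.{u, v}
  refine ⟨X, i1, i2, μ, i3, i4, T, h1, h2, ?_, h3⟩
  rintro ⟨d, H, _, I, M, _, _, _, _, _, _, _, ν, _, S, hν, hS, h⟩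
  exact h3 ⟨d, H, _, I, M, _, _, ‹_›, ‹_›, ‹_›, _, ‹_›, ν, ‹_›, S, hν, hS, h.isFactor⟩

end Vale.Agent.P109.N
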