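import Vale.Agent.P109.N.Flat

/-! P109: mixtures of few product measures cannot predict inner products (Lindsey lemma).
PLAN.  `V = Fin m → ZMod 2`, `sg : ZMod 2 → ℝ` the sign, `err k = Z k + ip (X k) (Y k)`.
`∏ k, (3/4 + sg (err k) / 4) = (1/2)^(number of errors) ≥ (1/2)^δ` on the event and `≥ 0` everywhere; expand the
product over subsets `I` (`Finset.prod_add`): `∑ I, (1/4)^|I| (3/4)^(n-|I|) ∏ k ∈ I, sg (err k)`.
For fixed `u, I` put `bias = ∫ ∏ k ∈ I, sg (err k) d(α u × β u) = ∑ ξ ζ, a ξ * b ζ * ∏ k ∈ I, sg (ip (ξ k) (ζ k))`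
with `a ξ = ∫_{X = ξ} ∏ k ∈ I, sg (Z k) dα`, `|a ξ| ≤ |V|^-n`, `b ζ = β {Y = ζ} ≤ D |V|^-n`.
Cauchy-Schwarz in `ξ` and orthogonality `∑ x : V, sg (ip x y) * sg (ip x y') = if y = y' then |V| else 0`
(coordinatewise, `Finset.prod_univ_sum`) give `bias^2 ≤ D^2 |V|^-|I|`.  Trivially `∑ u, |bias u| ≤ 1`, so
`∑ u, |bias u| ≤ min 1 (|U| D 2^(-m |I| / 2)) ≤ (|U| D)^(4/m) 4^-|I|` (as `4 / m ≤ 1`), and
`∑ I, (1/16)^|I| (3/4)^(n-|I|) = (13/16)^n`. -/

open MeasureTheory Set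

namespace Vale.Agent.P109.N

/-- The sign. -/
noncomputable def rectSg (y : ZMod 2) : ℝ := if y = 0 then 1 else -1

theorem rect_cases (y : ZMod 2) : y = 0 ∨ y = 1 := by revert y; decide

theorem rect_sg0 : rectSg 0 = 1 := if_pos rfl

theorem rect_sg1 : rectSg 1 = -1 := if_neg (by decide)

theorem rect_add (a b : ZMod 2) : rectSg (a + b) = rectSg a * rectSg b := by
  have e : (1 + 1 : ZMod 2) = 0 := by decide
  rcases rect_cases a with rfl | rfl <;> rcases rect_cases b with rfl | rfl <;>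
    simp [rect_sg0, rect_sg1, e]

theorem rect_abs (a : ZMod 2) : |rectSg a| = 1 := by
  rcases rect_cases a with rfl | rfl <;> simp [rect_sg0, rect_sg1]

theorem rect_sum {I : Type} (s : Finset I) (f : I → ZMod 2) :
    rectSg (∑ i ∈ s, f i) = ∏ i ∈ s, rectSg (f i) := by
  classical
  induction s using Finset.induction_on with
  | empty => simp [rect_sg0]
  | insert a s ha ih => rw [Finset.sum_insert ha, Finset.prod_insert ha, rect_add, ih]

theorem rect_orth {m : ℕ} (y y' : Fin m → ZMod 2) :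
    ∑ x : Fin m → ZMod 2, rectSg (ip x y) * rectSg (ip x y') = if y = y' then 2 ^ m else 0 := by
  have e1 : ∀ a b : ZMod 2, ∑ t : ZMod 2, rectSg (t * a) * rectSg (t * b) =
      if a = b then 2 else 0 := fun a b => by
    have e : (Finset.univ : Finset (ZMod 2)) = {0, 1} := by decide
    rw [e, Finset.sum_pair (by decide)]
    rcases rect_cases a with rfl | rfl <;> rcases rect_cases b with rfl | rfl <;>
      simp [rect_sg0, rect_sg1] <;> norm_num
  simp only [ip, rect_sum, ← Finset.prod_mul_distrib]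
  rw [← Fintype.prod_sum fun i (t : ZMod 2) => rectSg (t * y i) * rectSg (t * y' i)]
  simp only [e1]
  split_ifs with h
  · simp [h]
  · obtain ⟨i, hi⟩ := Function.ne_iff.1 h
    exact Finset.prod_eq_zero (Finset.mem_univ i) (if_neg hi)

theorem rect_lind {m n : ℕ} (I : Finset (Fin n)) (A b : (Fin n → Fin m → ZMod 2) → ℝ) {D : ℝ}
    (hA : ∀ ξ, |A ξ| ≤ (1 / 2 ^ m) ^ n) (hb0 : ∀ ζ, 0 ≤ b ζ)
    (hb : ∀ ζ, b ζ ≤ D * (1 / 2 ^ m) ^ n) :
    (∑ ξ, A ξ * ∑ ζ, b ζ * ∏ k ∈ I, rectSg (ip (ξ k) (ζ k))) ^ 2 ≤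
      D ^ 2 * (1 / 2 ^ m) ^ I.card := by
  have hc : (Fintype.card (Fin n → Fin m → ZMod 2) : ℝ) = (2 ^ m) ^ n := by simp
  have hv : (Fintype.card (Fin m → ZMod 2) : ℝ) = 2 ^ m := by simp
  set c : Fin n → (Fin m → ZMod 2) → (Fin m → ZMod 2) → ℝ := fun k y y' =>
    if k ∈ I then (if y = y' then 2 ^ m else 0) else 2 ^ m with hcdef
  have e1 : ∑ ξ, A ξ ^ 2 ≤ (2 ^ m) ^ n * ((1 / 2 ^ m) ^ n) ^ 2 := by
    rw [← hc, ← nsmul_eq_mul, ← Finset.card_univ, ← Finset.sum_const]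
    exact Finset.sum_le_sum fun ξ _ => by
      rw [← sq_abs]
      exact pow_le_pow_left₀ (abs_nonneg _) (hA ξ) 2
  have e2 : ∀ ζ ζ' : Fin n → Fin m → ZMod 2, ∑ ξ : Fin n → Fin m → ZMod 2,
      (∏ k ∈ I, rectSg (ip (ξ k) (ζ k))) * ∏ k ∈ I, rectSg (ip (ξ k) (ζ' k)) =
      ∏ k, c k (ζ k) (ζ' k) := fun ζ ζ' => by
    have a1 := Fintype.prod_sum fun k (x : Fin m → ZMod 2) =>
      if k ∈ I then rectSg (ip x (ζ k)) * rectSg (ip x (ζ' k)) else 1
    simp only [Finset.prod_ite_mem, Finset.univ_inter] at a1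
    simp only [← Finset.prod_mul_distrib]
    rw [← a1]
    refine Finset.prod_congr rfl fun k _ => ?_
    by_cases hk : k ∈ I
    · simp only [hcdef, if_pos hk, rect_orth]
    · simp only [hcdef, if_neg hk, Finset.sum_const, Finset.card_univ, nsmul_eq_mul, hv, mul_one]
  have e3 : ∀ ζ : Fin n → Fin m → ZMod 2, ∑ ζ' : Fin n → Fin m → ZMod 2, ∏ k, c k (ζ k) (ζ' k) =
      ((2 ^ m) ^ n) ^ 2 * (1 / 2 ^ m) ^ I.card := fun ζ => by
    rw [← Fintype.prod_sum fun k y' => c k (ζ k) y']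
    have a1 : ∀ k, ∑ y', c k (ζ k) y' = (2 ^ m) ^ 2 * if k ∈ I then 1 / 2 ^ m else 1 := fun k => by
      by_cases hk : k ∈ I
      · simp only [hcdef, if_pos hk, Finset.sum_ite_eq, Finset.mem_univ, if_true]
        field_simp
      · simp only [hcdef, if_neg hk, Finset.sum_const, Finset.card_univ, nsmul_eq_mul, hv]
        ring
    simp only [a1, Finset.prod_mul_distrib, Finset.prod_ite_mem, Finset.univ_inter,
      Finset.prod_const, Finset.card_univ, Fintype.card_fin]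
    ring
  have e4 : ∑ ξ : Fin n → Fin m → ZMod 2, (∑ ζ, b ζ * ∏ k ∈ I, rectSg (ip (ξ k) (ζ k))) ^ 2 ≤
      (2 ^ m) ^ n * ((D * (1 / 2 ^ m) ^ n) ^ 2 * (((2 ^ m) ^ n) ^ 2 * (1 / 2 ^ m) ^ I.card)) := by
    simp only [sq (∑ _, _), Finset.sum_mul_sum]
    rw [Finset.sum_comm, ← hc, ← nsmul_eq_mul, ← Finset.card_univ, ← Finset.sum_const]
    refine Finset.sum_le_sum fun ζ _ => ?_
    rw [Finset.sum_comm, Finset.card_univ, hc, ← e3 ζ, Finset.mul_sum]
    refine Finset.sum_le_sum fun ζ' _ => ?_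
    simp only [mul_mul_mul_comm (b ζ) _ (b ζ')]
    rw [← Finset.mul_sum, e2, sq]
    refine mul_le_mul_of_nonneg_right (mul_le_mul (hb ζ) (hb ζ') (hb0 ζ') ((hb0 ζ).trans (hb ζ)))
      (Finset.prod_nonneg fun k _ => ?_)
    simp only [hcdef]
    split_ifs <;> positivity
  refine (Finset.sum_mul_sq_le_sq_mul_sq _ _ _).trans ((mul_le_mul e1 e4
    (Finset.sum_nonneg fun _ _ => sq_nonneg _) (by positivity)).trans (le_of_eq ?_))
  rw [one_div_pow _ n]
  field_simp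

theorem rect_root {m : ℕ} (hm : 4 ≤ m) (j : ℕ) :
    ∃ s : ℝ, 0 ≤ s ∧ s ^ 2 = (1 / 2 ^ m) ^ j ∧ s ^ (4 / m : ℝ) = (1 / 4) ^ j := by
  have hm0 : (m : ℝ) ≠ 0 := by positivity
  refine ⟨(1 / 2 : ℝ) ^ ((m * j : ℝ) / 2), by positivity, ?_, ?_⟩
  · rw [← Real.rpow_natCast, ← Real.rpow_mul (by norm_num), ← one_div_pow, ← pow_mul,
      ← Real.rpow_natCast]
    push_cast
    ring_nf
  · rw [← Real.rpow_mul (by norm_num), show (1 / 4 : ℝ) = (1 / 2) ^ 2 by norm_num, ← pow_mul,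
      ← Real.rpow_natCast]
    refine congrArg _ ?_
    push_cast
    field_simp
    ring

theorem rect_fin {ι : Type} (U : Finset ι) {m n : ℕ} (hm : 4 ≤ m)
    (a : ι → (Fin n → Fin m → ZMod 2) → (Fin n → ZMod 2) → ℝ)
    (b : ι → (Fin n → Fin m → ZMod 2) → ℝ) {D : ℝ} (hD : 0 ≤ D) (ha0 : ∀ u ξ z, 0 ≤ a u ξ z)
    (hb0 : ∀ u ζ, 0 ≤ b u ζ) (ha : ∀ u ∈ U, ∀ ξ, ∑ z, a u ξ z ≤ (1 / 2 ^ m) ^ n)
    (hb : ∀ u ∈ U, ∀ ζ, b u ζ ≤ D * (1 / 2 ^ m) ^ n)
    (hmass : ∑ u ∈ U, (∑ ξ, ∑ z, a u ξ z) * ∑ ζ, b u ζ ≤ 1) :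
    ∑ u ∈ U, ∑ ξ, ∑ z, ∑ ζ, a u ξ z * b u ζ *
        ∏ k, (rectSg (z k + ip (ξ k) (ζ k)) / 4 + 3 / 4) ≤
      (U.card * D) ^ (4 / m : ℝ) * (13 / 16) ^ n := by
  have hm0 : (4 : ℝ) ≤ m := by exact_mod_cast hm
  have hA : ∀ u ξ (I : Finset (Fin n)), |∑ z, a u ξ z * ∏ k ∈ I, rectSg (z k)| ≤ ∑ z, a u ξ z :=
    fun u ξ I => (Finset.abs_sum_le_sum_abs _ _).trans (le_of_eq (by
      simp only [abs_mul, Finset.abs_prod, rect_abs, Finset.prod_const_one, mul_one,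
        abs_of_nonneg (ha0 _ _ _)]))
  have hB : ∀ u (ξ : Fin n → Fin m → ZMod 2) (I : Finset (Fin n)),
      |∑ ζ, b u ζ * ∏ k ∈ I, rectSg (ip (ξ k) (ζ k))| ≤ ∑ ζ, b u ζ :=
    fun u ξ I => (Finset.abs_sum_le_sum_abs _ _).trans (le_of_eq (by
      simp only [abs_mul, Finset.abs_prod, rect_abs, Finset.prod_const_one, mul_one,
        abs_of_nonneg (hb0 _ _)]))
  have key : ∀ I : Finset (Fin n), ∑ u ∈ U, ∑ ξ, (∑ z, a u ξ z * ∏ k ∈ I, rectSg (z k)) *
      ∑ ζ, b u ζ * ∏ k ∈ I, rectSg (ip (ξ k) (ζ k)) ≤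
      (U.card * D) ^ (4 / m : ℝ) * (1 / 4) ^ I.card := fun I => by
    obtain ⟨s, s0, s1, s2⟩ := rect_root hm I.card
    rw [← s2, ← Real.mul_rpow (by positivity) s0]
    rcases le_total (U.card * D * s) 1 with h | h
    · refine le_trans ?_ (Real.self_le_rpow_of_le_one (by positivity) h
        ((div_le_one (by linarith)).2 hm0))
      rw [mul_assoc, ← nsmul_eq_mul, ← Finset.sum_const]
      refine Finset.sum_le_sum fun u hu => le_of_sq_le_sq ?_ (by positivity)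
      rw [mul_pow, s1]
      exact rect_lind I _ _ (fun ξ => (hA u ξ I).trans (ha u hu ξ)) (hb0 u) (hb u hu)
    · refine le_trans (le_trans (Finset.sum_le_sum fun u _ => ?_) hmass)
        (Real.one_le_rpow h (by positivity))
      rw [Finset.sum_mul]
      refine Finset.sum_le_sum fun ξ _ => (le_abs_self _).trans ?_
      rw [abs_mul]
      exact mul_le_mul (hA u ξ I) (hB u ξ I) (abs_nonneg _) ((abs_nonneg _).trans (hA u ξ I))
  have e1 : ((13 : ℝ) / 16) ^ n = ∑ I ∈ (Finset.univ : Finset (Fin n)).powerset,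
      (1 / 4) ^ I.card * ((1 / 4) ^ I.card * (3 / 4) ^ (Finset.univ \ I).card) := by
    have := Finset.prod_add (fun _ : Fin n => (1 / 4 : ℝ) * (1 / 4)) (fun _ => 3 / 4) Finset.univ
    simp only [Finset.prod_const, Finset.card_univ, Fintype.card_fin, mul_pow, mul_assoc] at this
    rw [← this]
    norm_num
  have e2 : ∀ u, ∑ ξ, ∑ z, ∑ ζ, a u ξ z * b u ζ *
      ∏ k, (rectSg (z k + ip (ξ k) (ζ k)) / 4 + 3 / 4) =
      ∑ I ∈ (Finset.univ : Finset (Fin n)).powerset,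
        (∑ ξ, (∑ z, a u ξ z * ∏ k ∈ I, rectSg (z k)) *
          ∑ ζ, b u ζ * ∏ k ∈ I, rectSg (ip (ξ k) (ζ k))) *
        ((1 / 4) ^ I.card * (3 / 4) ^ (Finset.univ \ I).card) := fun u => by
    simp only [Finset.prod_add, Finset.mul_sum, Finset.sum_mul]
    rw [Finset.sum_comm (s := (Finset.univ : Finset (Fin n)).powerset)]
    refine Finset.sum_congr rfl fun ξ _ => ?_
    rw [Finset.sum_comm, Finset.sum_comm (s := (Finset.univ : Finset (Fin n)).powerset)]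
    refine Finset.sum_congr rfl fun ζ _ => ?_
    rw [Finset.sum_comm (s := (Finset.univ : Finset (Fin n)).powerset)]
    refine Finset.sum_congr rfl fun z _ => Finset.sum_congr rfl fun I _ => ?_
    simp only [rect_add, div_eq_mul_one_div (_ * _) (4 : ℝ), Finset.prod_mul_distrib,
      Finset.prod_const]
    ring
  simp only [e2]
  rw [Finset.sum_comm, e1, Finset.mul_sum]
  refine Finset.sum_le_sum fun I _ => ?_
  rw [← Finset.sum_mul, ← mul_assoc (_ ^ (4 / m : ℝ))]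
  exact mul_le_mul_of_nonneg_right (key I) (by positivity)

theorem rect_w {n δ : ℕ} (z w : Fin n → ZMod 2) :
    (if (Finset.univ.filter fun k => z k ≠ w k).card ≤ δ then (1 : ℝ) else 0) ≤
      2 ^ δ * ∏ k, (rectSg (z k + w k) / 4 + 3 / 4) := by
  have e : ∀ a b : ZMod 2, rectSg (a + b) / 4 + 3 / 4 = if a ≠ b then 1 / 2 else 1 := fun a b => by
    rw [rect_add]
    rcases rect_cases a with rfl | rfl <;> rcases rect_cases b with rfl | rfl <;>
      simp [rect_sg0, rect_sg1] <;> norm_num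
  simp only [e]
  rw [Finset.prod_ite, Finset.prod_const, Finset.prod_const, one_pow, mul_one]
  split_ifs with h
  · have := pow_le_pow_of_le_one (by norm_num : (0 : ℝ) ≤ 1 / 2) (by norm_num) h
    refine le_trans (le_of_eq ?_) (mul_le_mul_of_nonneg_left this (by positivity))
    rw [← mul_pow]
    norm_num
  · positivity

theorem rect {Ω Ω' ι : Type} [MeasurableSpace Ω] [MeasurableSpace Ω'] (U : Finset ι)
    (α : ι → Measure Ω) (β : ι → Measure Ω') [∀ u, IsFiniteMeasure (α u)]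
    [∀ u, IsFiniteMeasure (β u)] {m n : ℕ} (hm : 4 ≤ m)
    (X : Ω → Fin n → Fin m → ZMod 2) (Z : Ω → Fin n → ZMod 2) (Y : Ω' → Fin n → Fin m → ZMod 2)
    (hX : Measurable X) (hZ : Measurable Z) (hY : Measurable Y) (D : ℝ) (hD : 0 ≤ D)
    (hα : ∀ u ∈ U, ∀ ξ, (α u).real {x | X x = ξ} ≤ (1 / 2 ^ m) ^ n)
    (hβ : ∀ u ∈ U, ∀ ζ, (β u).real {y | Y y = ζ} ≤ D * (1 / 2 ^ m) ^ n)
    (hmass : ∑ u ∈ U, (α u).real univ * (β u).real univ ≤ 1) (δ : ℕ) :
    ∑ u ∈ U, ((α u).prod (β u)).real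
        {p | (Finset.univ.filter fun k => Z p.1 k ≠ ip (X p.1 k) (Y p.2 k)).card ≤ δ} ≤
      2 ^ δ * (U.card * D) ^ (4 / m : ℝ) * (13 / 16) ^ n := by
  have hXZ : Measurable fun x => (X x, Z x) := hX.prodMk hZ
  have ha : ∀ u ξ, ∑ z, (α u).real ((fun x => (X x, Z x)) ⁻¹' {(ξ, z)}) =
      (α u).real (X ⁻¹' {ξ}) := fun u ξ => by
    have e := sum_measureReal_preimage_singleton (μ := α u) (f := fun x => (X x, Z x))
      ({ξ} ×ˢ Finset.univ) fun y _ => hXZ (measurableSet_singleton y)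
    rw [Finset.sum_product, Finset.sum_singleton] at e
    rw [e]
    refine congrArg _ (Set.ext fun x => ?_)
    simp [eq_comm]
  have hXu : ∀ u, ∑ ξ, (α u).real (X ⁻¹' {ξ}) = (α u).real univ := fun u => by
    simpa using sum_measureReal_preimage_singleton (μ := α u) (f := X) Finset.univ
      fun y _ => hX (measurableSet_singleton y)
  have hYu : ∀ u, ∑ ζ, (β u).real (Y ⁻¹' {ζ}) = (β u).real univ := fun u => by
    simpa using sum_measureReal_preimage_singleton (μ := β u) (f := Y) Finset.univ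
      fun y _ => hY (measurableSet_singleton y)
  have key := rect_fin U hm (fun u ξ z => (α u).real ((fun x => (X x, Z x)) ⁻¹' {(ξ, z)}))
    (fun u ζ => (β u).real (Y ⁻¹' {ζ})) hD (fun _ _ _ => measureReal_nonneg)
    (fun _ _ => measureReal_nonneg) (fun u hu ξ => (ha u ξ).le.trans (hα u hu ξ)) hβ
    (by simpa only [ha, hXu, hYu] using hmass)
  rw [mul_assoc]
  refine le_trans ?_ (mul_le_mul_of_nonneg_left key (by positivity))
  rw [Finset.mul_sum]
  refine Finset.sum_le_sum fun u _ => ?_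
  set S : Finset ((Fin n → Fin m → ZMod 2) × (Fin n → ZMod 2) × (Fin n → Fin m → ZMod 2)) :=
    Finset.univ.filter fun t =>
      (Finset.univ.filter fun k => t.2.1 k ≠ ip (t.1 k) (t.2.2 k)).card ≤ δ with hS
  refine le_trans (measureReal_mono (s₂ := ⋃ t ∈ S,
    ((fun x => (X x, Z x)) ⁻¹' {(t.1, t.2.1)}) ×ˢ (Y ⁻¹' {t.2.2})) (fun p hp => ?_)
    (measure_ne_top _ _)) ((measureReal_biUnion_finset_le _ _).trans ?_)
  · exact mem_iUnion₂.2 ⟨(X p.1, Z p.1, Y p.2), Finset.mem_filter.2 ⟨Finset.mem_univ _, hp⟩, rfl, rfl⟩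
  · simp only [measureReal_prod_prod, hS, Finset.sum_filter, Fintype.sum_prod_type, Finset.mul_sum]
    refine Finset.sum_le_sum fun ξ _ => Finset.sum_le_sum fun z _ => Finset.sum_le_sum fun ζ _ => ?_
    have e := mul_le_mul_of_nonneg_left (rect_w (δ := δ) z fun k => ip (ξ k) (ζ k))
      (mul_nonneg (measureReal_nonneg (μ := α u) (s := (fun x => (X x, Z x)) ⁻¹' {(ξ, z)}))
        (measureReal_nonneg (μ := β u) (s := Y ⁻¹' {ζ})))
    rw [mul_ite, mul_one, mul_zero, mul_left_comm] at e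
    exact e

end Vale.Agent.P109.N
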