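import Vale.Agent.P109.N.Rig
import Vale.Agent.P109.N.Rect

/-! P109: a rigid process has no approximate product structure. -/

open MeasureTheory Set Metric
open scoped NNReal ENNReal

noncomputable section

namespace Vale.Agent.P109.N

theorem robust_set {d : ℕ} (ν : Measure (R d)) [IsFiniteMeasure ν] (g : R d → ZMod 2)
    (hg : Measurable g) (η : ℝ) (hη : 0 < η) : ∃ (K : Set (R d)) (r : ℝ), MeasurableSet K ∧ 0 < r ∧
      ν.real Kᶜ ≤ η ∧ ∀ z ∈ K, ∀ z' ∈ K, dist z z' ≤ r → g z = g z' := by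
  have mA : MeasurableSet (g ⁻¹' {0}) := hg (measurableSet_singleton 0)
  have e0 : ENNReal.ofReal (η / 2) ≠ 0 := by simpa using hη
  obtain ⟨K0, a1, a2, a3⟩ := mA.exists_isCompact_sdiff_lt (measure_ne_top ν _) e0
  obtain ⟨K1, b1, b2, b3⟩ := mA.compl.exists_isCompact_sdiff_lt (measure_ne_top ν _) e0
  obtain ⟨r, r0, hr⟩ := exists_pos_forall_lt_edist a2 b2.isClosed
    (disjoint_compl_right.mono a1 b1)
  have far : ∀ x ∈ K0, ∀ y ∈ K1, ¬dist x y ≤ r := by
    intro x hx y hy h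
    have := hr x hx y hy
    rw [edist_dist, ← ENNReal.ofReal_coe_nnreal, ENNReal.ofReal_lt_ofReal_iff'] at this
    linarith [this.1]
  refine ⟨K0 ∪ K1, r, a2.measurableSet.union b2.measurableSet, r0, ?_, ?_⟩
  · have sub : (K0 ∪ K1)ᶜ ⊆ (g ⁻¹' {0} \ K0) ∪ ((g ⁻¹' {0})ᶜ \ K1) := by
      intro x hx
      simp only [mem_compl_iff, mem_union, not_or] at hx
      by_cases h : x ∈ g ⁻¹' {0}
      exacts [Or.inl ⟨h, hx.1⟩, Or.inr ⟨h, hx.2⟩]
    have c1 := ENNReal.toReal_le_of_le_ofReal (by positivity) a3.le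
    have c2 := ENNReal.toReal_le_of_le_ofReal (by positivity) b3.le
    refine (measureReal_mono sub).trans ((measureReal_union_le _ _).trans ?_)
    simp only [Measure.real]
    linarith
  · rintro z (hz | hz) z' (hz' | hz') h
    · exact (a1 hz).trans (a1 hz').symm
    · exact absurd h (far _ hz _ hz')
    · exact absurd (by rwa [dist_comm]) (far _ hz' _ hz)
    · have h1 : g z ≠ 0 := b1 hz
      have h2 : g z' ≠ 0 := b1 hz'
      revert h1 h2
      generalize g z = u
      generalize g z' = u'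
      revert u u'
      decide

open Classical in
theorem markov_visits {Ω : Type} [MeasurableSpace Ω] (ν : Measure Ω) [IsProbabilityMeasure ν]
    (s : Ω → Ω) (hs : MeasurePreserving s ν ν) (A : Set Ω) (mA : MeasurableSet A) (ε : ℝ)
    (hε : 0 < ε) (hA : ν.real A ≤ ε ^ 2) (N : ℕ) (hN : 0 < N) : ∃ B, MeasurableSet B ∧
      ν.real B ≤ ε ∧ ∀ p ∉ B, (((Finset.range N).filter fun t => s^[t] p ∈ A).card : ℝ) ≤ ε * N := by
  let f : Ω → ℝ := fun p => ∑ t ∈ Finset.range N, (s^[t] ⁻¹' A).indicator 1 p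
  have mt : ∀ t, MeasurableSet (s^[t] ⁻¹' A) := fun t => hs.measurable.iterate t mA
  have mf : Measurable f := Finset.measurable_sum _ fun t _ => measurable_one.indicator (mt t)
  have it : ∀ t, Integrable ((s^[t] ⁻¹' A).indicator (1 : Ω → ℝ)) ν := fun t =>
    (integrable_const 1).indicator (mt t)
  have N0 : (0 : ℝ) < N := by exact_mod_cast hN
  refine ⟨{p | ε * N ≤ f p}, measurableSet_le measurable_const mf, ?_, fun p hp => ?_⟩
  · have h1 := mul_meas_ge_le_integral_of_nonneg (μ := ν) (f := f)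
      (Filter.Eventually.of_forall fun p => Finset.sum_nonneg fun t _ =>
        indicator_nonneg (fun _ _ => zero_le_one) _)
      (integrable_finsetSum _ fun t _ => it t) (ε * N)
    have h2 : ∫ p, f p ∂ν = N * ν.real A := by
      rw [integral_finsetSum _ fun t _ => it t]
      simp only [integral_indicator_one (mt _),
        (hs.iterate _).measureReal_preimage mA.nullMeasurableSet]
      simp
    rw [h2] at h1
    have : ε * N * ν.real {p | ε * N ≤ f p} ≤ ε * N * ε := by nlinarith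
    exact le_of_mul_le_mul_left this (by positivity)
  · rw [Finset.card_filter]
    push_cast
    refine le_trans (le_of_eq ?_) (not_le.1 hp).le
    refine Finset.sum_congr rfl fun t _ => ?_
    simp [indicator]

theorem rect_num (h c m n : ℕ) (x : ℝ) (hh : 0 < h) (hm : 4 ≤ m) (hc : c ≤ 200 * m) (hn : 0 < n)
    (x0 : 0 ≤ x) (hx : x ≤ Real.exp (1 / (16000 * h) * (c * h * n : ℕ))) :
    2 ^ (n / 20) * x ^ (4 / m : ℝ) * (13 / 16) ^ (n - 1) ≤ 2 * (91 / 100) ^ n := by
  have m0 : (0 : ℝ) < m := by exact_mod_cast (by omega : 0 < m)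
  have h0 : (0 : ℝ) < h := by exact_mod_cast hh
  have hc' : (c : ℝ) ≤ 200 * m := by exact_mod_cast hc
  have h1 : (2 : ℝ) ^ (n / 20) ≤ Real.exp (n / 20) := by
    calc (2 : ℝ) ^ (n / 20) ≤ Real.exp 1 ^ (n / 20) := by
          gcongr
          linarith [Real.add_one_le_exp 1]
      _ = Real.exp ((n / 20 : ℕ)) := by rw [← Real.exp_nat_mul, mul_one]
      _ ≤ _ := by
          gcongr
          exact_mod_cast Nat.cast_div_le (α := ℝ) (m := n) (n := 20)
  have h2 : x ^ (4 / m : ℝ) ≤ Real.exp (n / 20) := by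
    refine (Real.rpow_le_rpow x0 hx (by positivity)).trans ?_
    rw [← Real.exp_mul]
    gcongr
    push_cast
    rw [show 1 / (16000 * (h : ℝ)) * (c * h * n) * (4 / m) = n / 20 * (c / (200 * m)) by
      field_simp; ring]
    refine mul_le_of_le_one_right (by positivity) ?_
    rwa [div_le_one (by positivity)]
  have h3 : (13 / 16 : ℝ) ^ (n - 1) ≤ 2 * (13 / 16) ^ n := by
    obtain ⟨k, rfl⟩ : ∃ k, n = k + 1 := ⟨n - 1, by omega⟩
    rw [Nat.add_sub_cancel, pow_succ]
    have : (0 : ℝ) < (13 / 16) ^ k := by positivity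
    linarith
  have h4 : Real.exp (1 / 10) ≤ 10 / 9 := by
    have := Real.exp_bound_div_one_sub_of_interval (x := 1 / 10) (by norm_num) (by norm_num)
    linarith
  calc _ ≤ Real.exp (n / 20) * Real.exp (n / 20) * (2 * (13 / 16) ^ n) := by gcongr
    _ = 2 * (Real.exp (1 / 10) * (13 / 16)) ^ n := by
        rw [← Real.exp_add, mul_pow, ← Real.exp_nat_mul]
        ring_nf
    _ ≤ _ := by
        gcongr
        linarith

theorem contra_core {d : ℕ} {ν : Measure (R d)} [IsProbabilityMeasure ν] {s : R d → R d}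
    (hs : MeasurePreserving s ν ν) (g : R d → ZMod 2) (a : R d → ℕ → ZMod 2)
    (ha : ∀ᵐ x ∂ν, ∀ t, a x t = g (s^[t] x)) {h c m J j : ℕ} (H : Rigid ν a h (c * h) m J)
    (hh : 0 < h) (c0 : 0 < c) (hm : 4 ≤ m) (hc : c ≤ 200 * m) (hj : j < J) (κ ε : ℝ) (hκ : 1 ≤ κ)
    (K : Set (R d)) (mK : MeasurableSet K) (hK : ν.real Kᶜ ≤ ε ^ 2)
    (rob : ∀ z ∈ K, ∀ z' ∈ K, dist z z' ≤ 1 / (c * h : ℕ) → g z = g z') (ε0 : 0 < ε)
    (ε1 : ε ≤ 1 / 9600) (hw : (2 : ℝ) ^ (j + 1) / 2 ^ J ≤ ε) (hn : 18 * (91 / 100) ^ 2 ^ j ≤ ε)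
    (ε2 : 7 * κ ^ 2 * ε < 1)
    (hcp : ∀ (G : Set (R d)) (E : Set (R d × R d)), MeasurableSet G → MeasurableSet E →
      (∀ p ∈ G, ∀ x y, (∀ t < c * h * 2 ^ j, dist (s^[t] x) (s^[t] p) ≤ 1 / (c * h : ℕ) ∧
        dist (s^[t] y) (s^[c * h * 2 ^ j + t] p) ≤ 1 / (c * h : ℕ)) → (x, y) ∈ E) →
      ∃ (U : Finset (Fin d → ℤ)) (α β : (Fin d → ℤ) → Measure (R d)) (D : ℝ), 1 ≤ D ∧
        U.card * D ≤ Real.exp (1 / (16000 * h) * (c * h * 2 ^ j : ℕ)) ∧ (∀ u, α u ≤ ν) ∧
        ∑ u ∈ U, α u ≤ ν ∧ (∀ u, β u univ ≤ 1) ∧ (∀ u ∈ U, β u ≤ ENNReal.ofReal D • ν) ∧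
        ∑ u ∈ U, α u univ • β u ≤ ENNReal.ofReal κ • ν ∧
        ν.real G - ε ≤ κ * ∑ u ∈ U, ((α u).prod (β u)).real E) : False := by
  classical
  have ℓ0 : 0 < c * h := by positivity
  obtain ⟨Xu, Z, Wr, mX, mZ, mW, hW, hX, use⟩ := rigid_use H ℓ0 (Nat.le_mul_of_pos_left _ c0) j hj
  set L := c * h * 2 ^ j with hL
  have L0 : 0 < L := by positivity
  obtain ⟨B1, mB1, hB1, b1⟩ := markov_visits ν s hs Kᶜ mK.compl ε ε0 hK L L0
  obtain ⟨B2, mB2, hB2, b2⟩ := markov_visits ν s hs Kᶜ mK.compl ε ε0 hK (2 * L) (by omega)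
  let N0 := toMeasurable ν {x | ¬∀ t, a x t = g (s^[t] x)}
  have mN : MeasurableSet N0 := measurableSet_toMeasurable _ _
  have hN : ν.real N0 = 0 := by
    simp only [N0, Measure.real, measure_toMeasurable]
    rw [ae_iff.1 ha]; rfl
  have n0 : ∀ x ∉ N0, ∀ t, a x t = g (s^[t] x) := fun x hx =>
    by_contra fun h => hx (subset_toMeasurable _ _ h)
  let Bd := N0 ∪ B1 ∪ Wr
  have mBd : MeasurableSet Bd := (mN.union mB1).union mW
  have hBd : ν.real Bd ≤ 2 * ε := by
    have := measureReal_union_le (μ := ν) (N0 ∪ B1) Wr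
    have := measureReal_union_le (μ := ν) N0 B1
    linarith
  let Eo : Fin 3 × Fin 3 → Set (R d × R d) := fun o => {q | (Finset.univ.filter fun k =>
    Z o.1 q.1 k ≠ ip (Xu o.1 q.1 k) (Xu o.2 q.2 k)).card ≤ 2 ^ j / 20}
  have mEo : ∀ o, MeasurableSet (Eo o) := by
    intro o
    have : Measurable fun q : R d × R d => (Z o.1 q.1, Xu o.1 q.1, Xu o.2 q.2) :=
      ((mZ _).comp measurable_fst).prodMk
        (((mX _).comp measurable_fst).prodMk ((mX _).comp measurable_snd))
    exact this (MeasurableSet.of_discrete (s := {w | (Finset.univ.filter fun k =>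
      w.1 k ≠ ip (w.2.1 k) (w.2.2 k)).card ≤ 2 ^ j / 20}))
  obtain ⟨U, α, β, D, D1, u1, u2, u3, u4, u5, u6, u7⟩ := hcp (N0 ∪ B2)ᶜ
    (Bd ×ˢ univ ∪ univ ×ˢ Bd ∪ ⋃ o, Eo o) (mN.union mB2).compl
    (((mBd.prod MeasurableSet.univ).union (MeasurableSet.univ.prod mBd)).union
      (MeasurableSet.iUnion mEo)) (by
    intro p hp x y hxy
    by_cases hx : x ∈ Bd
    · exact Or.inl (Or.inl ⟨hx, trivial⟩)
    by_cases hy : y ∈ Bd
    · exact Or.inl (Or.inr ⟨trivial, hy⟩)
    simp only [Bd, mem_union, not_or, mem_compl_iff] at hx hy hp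
    have cnt : ∀ (z : R d) (t0 : ℕ), t0 ≤ L → z ∉ N0 → z ∉ B1 →
        (∀ t < L, dist (s^[t] z) (s^[t0 + t] p) ≤ 1 / (c * h : ℕ)) →
        ((Finset.range L).filter fun t => a p (t0 + t) ≠ a z t).card ≤ ⌊3 * ε * L⌋₊ := by
      intro z t0 ht0 z1 z2 hz
      refine Nat.le_floor ?_
      have e1 : (((Finset.range L).filter fun t => s^[t] z ∈ Kᶜ).card : ℝ) ≤ ε * L := by
        convert b1 z z2
      have e2 : (((Finset.range (2 * L)).filter fun t => s^[t] p ∈ Kᶜ).card : ℝ) ≤
          ε * (2 * L : ℕ) := by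
        convert b2 p hp.2
      have sub : ((Finset.range L).filter fun t => a p (t0 + t) ≠ a z t) ⊆
          ((Finset.range L).filter fun t => s^[t] z ∈ Kᶜ) ∪
            ((Finset.range L).filter fun t => s^[t0 + t] p ∈ Kᶜ) := by
        intro t ht
        simp only [Finset.mem_filter, Finset.mem_range, Finset.mem_union, mem_compl_iff] at ht ⊢
        by_contra hc
        simp only [ht.1, true_and, not_or, not_not] at hc
        refine ht.2 ?_
        rw [n0 p hp.1, n0 z z1]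
        exact (rob _ hc.1 _ hc.2 (hz t ht.1)).symm
      have e3 : ((Finset.range L).filter fun t => s^[t0 + t] p ∈ Kᶜ).card ≤
          ((Finset.range (2 * L)).filter fun t => s^[t] p ∈ Kᶜ).card := by
        refine Finset.card_le_card_of_injOn (fun t => t0 + t) (fun t ht => ?_)
          fun _ _ _ _ h => add_left_cancel h
        simp only [Finset.coe_filter, Finset.mem_range, mem_ofPred_eq] at ht ⊢
        exact ⟨by omega, ht.2⟩
      have e4 := (Finset.card_le_card sub).trans (Finset.card_union_le _ _)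
      have e5 := (Nat.cast_le (α := ℝ)).2 (e4.trans (Nat.add_le_add_left e3 _))
      push_cast at e5 e2
      linarith
    obtain ⟨o, o', ho⟩ := use p x y ⌊3 * ε * L⌋₊ hx.2 hy.2 (by
      have h1 := Nat.floor_le (show 0 ≤ 3 * ε * L by positivity)
      have h2 : (0 : ℝ) ≤ L := by positivity
      have : (3200 * ⌊3 * ε * L⌋₊ : ℝ) ≤ L := by nlinarith
      exact_mod_cast this)
      (by simpa using cnt x 0 (by omega) hx.1.1 hx.1.2 fun t ht => by simpa using (hxy t ht).1)
      (cnt y L le_rfl hy.1.1 hy.1.2 fun t ht => (hxy t ht).2)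
    exact Or.inr (mem_iUnion.2 ⟨(o, o'), ho⟩))
  have fα : ∀ u, IsFiniteMeasure (α u) := fun u => isFiniteMeasure_of_le ν (u2 u)
  have fβ : ∀ u, IsFiniteMeasure (β u) := fun u => ⟨(u4 u).trans_lt ENNReal.one_lt_top⟩
  have β1 : ∀ u, (β u).real univ ≤ 1 := fun u =>
    ENNReal.toReal_le_of_le_ofReal zero_le_one (by simpa using u4 u)
  have sα : ∀ S, ∑ u ∈ U, (α u).real S ≤ ν.real S := by
    intro S
    have := ENNReal.toReal_mono (measure_ne_top _ _) (u3 S)
    rwa [Measure.finsetSum_apply, ENNReal.toReal_sum fun u _ => measure_ne_top _ _] at this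
  have sβ : ∑ u ∈ U, (α u).real univ * (β u).real Bd ≤ κ * ν.real Bd := by
    have := ENNReal.toReal_mono (by simp [ENNReal.mul_eq_top]) (u6 Bd)
    rw [Measure.finsetSum_apply, ENNReal.toReal_sum fun u _ => by
      simp [ENNReal.mul_eq_top]] at this
    simpa [Measure.real, ENNReal.toReal_ofReal (show 0 ≤ κ by linarith)] using this
  have sE : ∀ o, ∑ u ∈ U, ((α u).prod (β u)).real (Eo o) ≤ 2 * (91 / 100) ^ 2 ^ j := by
    intro o
    refine (rect U α β hm (Xu o.1) (Z o.1) (Xu o.2) (mX _) (mZ _) (mX _) D (by linarith)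
      (fun u _ ξ => (ENNReal.toReal_mono (measure_ne_top _ _) (u2 u _)).trans (hX _ _))
      (fun u hu ζ => ?_) ?_ (2 ^ j / 20)).trans
      (rect_num h c m (2 ^ j) _ hh hm hc (by positivity) (by positivity) u1)
    · have := ENNReal.toReal_mono (by simp [ENNReal.mul_eq_top]) (u5 u hu {y | Xu o.2 y = ζ})
      simp only [Measure.smul_apply, smul_eq_mul, ENNReal.toReal_mul,
        ENNReal.toReal_ofReal (show 0 ≤ D by linarith)] at this
      exact this.trans (by gcongr; exact hX _ _)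
    · calc _ ≤ ∑ u ∈ U, (α u).real univ := Finset.sum_le_sum fun u _ =>
            mul_le_of_le_one_right measureReal_nonneg (β1 u)
        _ ≤ _ := (sα _).trans measureReal_le_one
  have tot : ∑ u ∈ U, ((α u).prod (β u)).real (Bd ×ˢ univ ∪ univ ×ˢ Bd ∪ ⋃ o, Eo o) ≤
      ν.real Bd + κ * ν.real Bd + ε := by
    calc _ ≤ ∑ u ∈ U, ((α u).real Bd + (α u).real univ * (β u).real Bd +
          ∑ o, ((α u).prod (β u)).real (Eo o)) := by
          refine Finset.sum_le_sum fun u _ => (measureReal_union_le _ _).trans ?_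
          refine add_le_add ((measureReal_union_le _ _).trans ?_)
            (measureReal_iUnion_fintype_le _)
          rw [measureReal_prod_prod, measureReal_prod_prod]
          have := mul_le_of_le_one_right (measureReal_nonneg (μ := α u) (s := Bd)) (β1 u)
          linarith
      _ ≤ _ := by
          rw [Finset.sum_add_distrib, Finset.sum_add_distrib, Finset.sum_comm]
          refine add_le_add (add_le_add (sα _) sβ) ?_
          refine (Finset.sum_le_sum fun o _ => sE o).trans ?_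
          simp only [Finset.sum_const, Finset.card_univ, Fintype.card_prod, Fintype.card_fin,
            nsmul_eq_mul]
          push_cast
          linarith
  have hG : 1 - ε ≤ ν.real (N0 ∪ B2)ᶜ := by
    rw [probReal_compl_eq_one_sub (mN.union mB2)]
    have := measureReal_union_le (μ := ν) N0 B2
    linarith
  have h1 : κ * ν.real Bd ≤ κ * (2 * ε) := by gcongr
  have h2 : 1 - 2 * ε ≤ κ * (3 * ε + κ * (2 * ε)) := by
    refine le_trans (by linarith) (u7.trans ?_)
    gcongr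
    linarith
  have h3 : ε ≤ κ * ε := le_mul_of_one_le_left ε0.le hκ
  have h4 : κ * ε ≤ κ * (κ * ε) := by gcongr
  nlinarith

end Vale.Agent.P109.N
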