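import Mathlib

/-! P109, negative answer: flat systems (a smooth system read in finitely many disjoint charts). -/

open MeasureTheory Set Metric

noncomputable section

namespace Vale.Agent.P109.N

abbrev R (d : ℕ) := Fin d → ℝ

/-- `s` is uniformly `C^{1,1}` and `ν` dominates Lebesgue measure on the ball `ball z w` -/
structure Nice {d : ℕ} (C : ℝ) (ν : Measure (R d)) (s : R d → R d) (z : R d) (w : ℝ) : Prop where
  diff : ∀ y ∈ ball z w, DifferentiableAt ℝ s y
  bd : ‖fderiv ℝ s z‖ ≤ C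
  lip : ∀ y ∈ ball z w, ‖fderiv ℝ s y - fderiv ℝ s z‖ ≤ C * w
  det : (fderiv ℝ s z).det ≠ 0
  low : ∀ B, MeasurableSet B → B ⊆ ball z w → volume B ≤ ENNReal.ofReal C * ν B

structure Flat (d : ℕ) (C : ℝ) (ν : Measure (R d)) (s : R d → R d) : Prop where
  one_le : 1 ≤ C
  prob : IsProbabilityMeasure ν
  mp : MeasurePreserving s ν ν
  up : ∀ B, MeasurableSet B → ν B ≤ ENNReal.ofReal C * volume B
  supp : ν (closedBall 0 C)ᶜ = 0
  nice : ∀ w, 0 < w → ν {z | ¬Nice C ν s z w} ≤ ENNReal.ofReal (C * w)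

/-- pseudo-orbit with a jump `v` at time `L` -/
def porb {d : ℕ} (s : R d → R d) (L : ℕ) (v x : R d) : ℕ → R d
  | 0 => x
  | t + 1 => s (porb s L v x t) + if t + 1 = L then v else 0

/-- inner product modulo two -/
def ip {m : ℕ} (x y : Fin m → ZMod 2) : ZMod 2 := ∑ i, x i * y i

end Vale.Agent.P109.N
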