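import Vale.Agent.P109.N.Flat

/-! P109: a subadditive potential of a matrix cocycle controlling Green functions.
PLAN.  `P t = prodA A t` (invertible), `qf A (s + n) = qf A s + (P s)ᵀ * qf A' n * P s` with `A' t = A (s + t)`.
Put `a = (P s)⁻¹ᵀ * qf A s * (P s)⁻¹`, `b = qf A' n`, `m = a⁻¹ + b⁻¹`; then `a + b = a * m * b`, so
`det (qf A (s+n)) = det (qf A s) * det m * det (qf A' n)` for `s, n ≥ 1`.
Quadratic forms (`dotProduct`, `mulVec`): `y ⬝ b y = ∑ t, |P' t y|² ≥ |y|²` and `y ⬝ a y ≥ |A (s-1)⁻¹ y|² ≥ |y|² / (dC)²`;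
this gives invertibility and `|b⁻¹ y|₂ ≤ |y|₂`, `|a⁻¹ y|₂ ≤ (dC)² |y|₂`, so all entries of `m` are bounded by
`β = 1 + (dC)²`, `|det m| ≤ d! β^d` (`Matrix.det_le`), entries of `adjugate m` are `≤ d! β^d` (it is a determinant of
a matrix with entries `≤ β`), `m⁻¹ = (det m)⁻¹ • adjugate m`.  Also `|det (qf A n)|⁻¹ = |det (qf A n)⁻¹| ≤ d!` and
`|det (qf A n)| ≤ d! (n d (dC+1)^(2n))^d ≤ exp (K n)`.  `m` is invertible since `det m ≠ 0`.
Green function: `u = m⁻¹ v`, `vp = b⁻¹ u`, `vm = a⁻¹ u`, `vp + vm = v`, `δ t = P' (t - s) vp` for `s ≤ t`,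
`δ t = - P t (P s)⁻¹ vm` for `t < s`; `|δ t|² ≤ vp ⬝ b vp = u ⬝ b⁻¹ u ≤ |u|²`, resp. `≤ u ⬝ a⁻¹ u ≤ (dC)² |u|²`.
With `psi = phi + K`: the hypothesis gives `log |det m| ≥ K - κ ≥ - κ`.  Choose `K` larger than all constants. -/

open Finset Matrix

noncomputable section

namespace Vale.Agent.P109.N

abbrev Mat (d : ℕ) := Matrix (Fin d) (Fin d) ℝ

def prodA {d : ℕ} (A : ℕ → Mat d) : ℕ → Mat d
  | 0 => 1
  | t + 1 => A t * prodA A t

def qf {d : ℕ} (A : ℕ → Mat d) (n : ℕ) : Mat d := ∑ t ∈ range n, (prodA A t)ᵀ * prodA A t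

def psi {d : ℕ} (K : ℝ) (A : ℕ → Mat d) (n : ℕ) : ℝ :=
  if n = 0 then 0 else Real.log |(qf A n).det| + K

theorem form_prod_add {d : ℕ} (A : ℕ → Mat d) (s t : ℕ) :
    prodA A (s + t) = prodA (fun t => A (s + t)) t * prodA A s := by
  induction t with
  | zero => simp [prodA]
  | succ t ih => rw [← add_assoc, prodA, ih, prodA, Matrix.mul_assoc]

theorem form_prod_det {d : ℕ} {A : ℕ → Mat d} (h : ∀ t, (A t).det ≠ 0) (t : ℕ) :
    (prodA A t).det ≠ 0 := by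
  induction t with
  | zero => simp [prodA]
  | succ t ih => rw [prodA, det_mul]; exact mul_ne_zero (h t) ih

theorem form_qf_add {d : ℕ} (A : ℕ → Mat d) (s n : ℕ) :
    qf A (s + n) = qf A s + (prodA A s)ᵀ * qf (fun t => A (s + t)) n * prodA A s := by
  simp only [qf, sum_range_add, form_prod_add, transpose_mul, Matrix.mul_sum, Matrix.sum_mul,
    Matrix.mul_assoc]

theorem form_quad_conj {d : ℕ} (P M : Mat d) (y : R d) :
    y ⬝ᵥ ((Pᵀ * M * P) *ᵥ y) = (P *ᵥ y) ⬝ᵥ (M *ᵥ (P *ᵥ y)) := by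
  rw [← mulVec_mulVec, ← mulVec_mulVec, dotProduct_mulVec y, vecMul_transpose]

theorem form_quad {d : ℕ} (A : ℕ → Mat d) (n : ℕ) (y : R d) :
    y ⬝ᵥ (qf A n *ᵥ y) = ∑ t ∈ range n, (prodA A t *ᵥ y) ⬝ᵥ (prodA A t *ᵥ y) := by
  rw [qf, sum_mulVec, dotProduct_sum]
  refine sum_congr rfl fun t _ => ?_
  rw [← mulVec_mulVec, dotProduct_mulVec y, vecMul_transpose]

theorem form_sq_nonneg {d : ℕ} (y : R d) : 0 ≤ y ⬝ᵥ y :=
  sum_nonneg fun i _ => mul_self_nonneg (y i)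

theorem form_term_le {d : ℕ} (A : ℕ → Mat d) {n t : ℕ} (ht : t < n) (y : R d) :
    (prodA A t *ᵥ y) ⬝ᵥ (prodA A t *ᵥ y) ≤ y ⬝ᵥ (qf A n *ᵥ y) := by
  rw [form_quad]
  exact single_le_sum (f := fun t => (prodA A t *ᵥ y) ⬝ᵥ (prodA A t *ᵥ y))
    (fun t _ => form_sq_nonneg _) (mem_range.2 ht)

theorem form_coord {d : ℕ} {y : R d} {r : ℝ} (hr : 0 ≤ r) (h : y ⬝ᵥ y ≤ r ^ 2) (i : Fin d) :
    |y i| ≤ r := by
  have h1 : y i * y i ≤ y ⬝ᵥ y :=
    single_le_sum (f := fun i => y i * y i) (fun i _ => mul_self_nonneg (y i)) (mem_univ i)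
  exact abs_le_of_sq_le_sq' (by nlinarith) hr |> fun h => abs_le.2 h

theorem form_coer {d : ℕ} {M : Mat d} {c : ℝ} (hc : 0 < c)
    (h : ∀ y : R d, y ⬝ᵥ y ≤ c * (y ⬝ᵥ (M *ᵥ y))) :
    M.det ≠ 0 ∧ (∀ u : R d, (M⁻¹ *ᵥ u) ⬝ᵥ (M *ᵥ (M⁻¹ *ᵥ u)) ≤ c * (u ⬝ᵥ u)) ∧
      ∀ i j, |M⁻¹ i j| ≤ c := by
  have h0 : M.det ≠ 0 := by
    intro h0
    obtain ⟨v, hv, hv0⟩ := Matrix.exists_mulVec_eq_zero_iff.2 h0
    have h1 := h v
    rw [hv0, dotProduct_zero, mul_zero] at h1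
    exact hv (dotProduct_self_eq_zero.1 (le_antisymm h1 (form_sq_nonneg v)))
  have key : ∀ u : R d, (M⁻¹ *ᵥ u) ⬝ᵥ (M *ᵥ (M⁻¹ *ᵥ u)) ≤ c * (u ⬝ᵥ u) ∧
      (M⁻¹ *ᵥ u) ⬝ᵥ (M⁻¹ *ᵥ u) ≤ c ^ 2 * (u ⬝ᵥ u) := by
    intro u
    have h1 : M *ᵥ (M⁻¹ *ᵥ u) = u := by
      rw [mulVec_mulVec, mul_nonsing_inv _ (Ne.isUnit h0), one_mulVec]
    have h2 := h (M⁻¹ *ᵥ u)
    rw [h1] at h2 ⊢
    generalize M⁻¹ *ᵥ u = y at h2 ⊢
    have h3 := form_sq_nonneg (y - c • u)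
    simp only [sub_dotProduct, dotProduct_sub, smul_dotProduct, dotProduct_smul, smul_eq_mul,
      dotProduct_comm u y] at h3
    constructor
    · refine le_of_mul_le_mul_left ?_ hc
      nlinarith
    · nlinarith
  refine ⟨h0, fun u => (key u).1, fun i j => ?_⟩
  have h1 := (key (Pi.single j 1)).2
  have h2 : (Pi.single j 1 : R d) ⬝ᵥ (Pi.single j 1 : R d) = 1 := by simp
  rw [h2, mul_one] at h1
  have h3 := form_coord hc.le h1 i
  simpa [mulVec_single_one] using h3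

theorem form_mulVec_sq {d : ℕ} {M : Mat d} {C : ℝ} (h : ∀ i j, |M i j| ≤ C) (z : R d) :
    (M *ᵥ z) ⬝ᵥ (M *ᵥ z) ≤ (d * C) ^ 2 * (z ⬝ᵥ z) := by
  have h1 : ∀ i, (M *ᵥ z) i * (M *ᵥ z) i ≤ d * C ^ 2 * (z ⬝ᵥ z) := by
    intro i
    have h2 := sum_mul_sq_le_sq_mul_sq univ (fun j => M i j) z
    have h3 : ∑ j, M i j ^ 2 ≤ d * C ^ 2 := by
      have := sum_le_card_nsmul univ (fun j => M i j ^ 2) (C ^ 2) fun j _ =>
        sq_le_sq' (abs_le.1 (h i j)).1 (abs_le.1 (h i j)).2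
      simpa using this
    have h4 : ∑ j, z j ^ 2 = z ⬝ᵥ z := sum_congr rfl fun j _ => sq _
    rw [h4] at h2
    have h5 := mul_le_mul_of_nonneg_right h3 (form_sq_nonneg z)
    have h6 : (M *ᵥ z) i = ∑ j, M i j * z j := rfl
    rw [h6, ← sq]
    exact h2.trans h5
  have h2 := sum_le_card_nsmul univ (fun i => (M *ᵥ z) i * (M *ᵥ z) i) _ fun i _ => h1 i
  simp only [card_univ, Fintype.card_fin, nsmul_eq_mul] at h2
  calc (M *ᵥ z) ⬝ᵥ (M *ᵥ z) ≤ d * (d * C ^ 2 * (z ⬝ᵥ z)) := h2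
    _ = _ := by ring

theorem form_det_le {d : ℕ} {M : Mat d} {x : ℝ} (h : ∀ i j, |M i j| ≤ x) :
    |M.det| ≤ d.factorial * x ^ d := by
  have := Matrix.det_le (A := M) (abv := AbsoluteValue.abs) (x := x) h
  simpa using this

theorem form_mul_entry {d : ℕ} {M N : Mat d} {x y : ℝ} (hM : ∀ i j, |M i j| ≤ x)
    (hN : ∀ i j, |N i j| ≤ y) (i j : Fin d) : |(M * N) i j| ≤ d * (x * y) := by
  rw [Matrix.mul_apply]
  refine (abs_sum_le_sum_abs _ _).trans ?_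
  have := sum_le_card_nsmul univ (fun k => |M i k * N k j|) (x * y) fun k _ => by
    rw [abs_mul]
    exact mul_le_mul (hM i k) (hN k j) (abs_nonneg _) ((abs_nonneg _).trans (hM i k))
  simpa using this

theorem form_prod_entry {d : ℕ} {A : ℕ → Mat d} {C : ℝ} (hC : 1 ≤ C) (h : ∀ t i j, |A t i j| ≤ C)
    (t : ℕ) : ∀ i j, |prodA A t i j| ≤ (d * C + 1) ^ t := by
  induction t with
  | zero =>
    intro i j
    by_cases hij : i = j
    · subst hij; simp [prodA]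
    · simp [prodA, hij]
  | succ t ih =>
    intro i j
    refine (form_mul_entry (h t) ih i j).trans ?_
    have h1 : (0 : ℝ) ≤ (d * C + 1) ^ t := by positivity
    rw [pow_succ]
    nlinarith

theorem form_upper {d : ℕ} {A : ℕ → Mat d} {C : ℝ} (hC : 1 ≤ C) (h : ∀ t i j, |A t i j| ≤ C)
    {n : ℕ} (hn : 1 ≤ n) :
    Real.log |(qf A n).det| ≤ (d.factorial + d * (1 + d + 2 * (d * C + 1))) * n := by
  have hn' : (1 : ℝ) ≤ n := by exact_mod_cast hn
  have hg : (1 : ℝ) ≤ d * C + 1 := by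
    have : (0 : ℝ) ≤ d * C := by positivity
    linarith
  have hexp : ∀ x : ℝ, x ≤ Real.exp x := fun x => by linarith [Real.add_one_le_exp x]
  have h1 : ∀ i j, |qf A n i j| ≤ Real.exp ((1 + d + 2 * (d * C + 1)) * n) := by
    intro i j
    rw [qf, Matrix.sum_apply]
    refine (abs_sum_le_sum_abs _ _).trans ?_
    have h2 := sum_le_card_nsmul (range n) (fun t => |((prodA A t)ᵀ * prodA A t) i j|)
      (d * ((d * C + 1) ^ n * (d * C + 1) ^ n)) fun t ht => by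
        have h3 : ∀ i j, |prodA A t i j| ≤ (d * C + 1) ^ n := fun i j =>
          (form_prod_entry hC h t i j).trans (pow_le_pow_right₀ hg (mem_range.1 ht).le)
        exact form_mul_entry (fun i j => h3 j i) h3 i j
    simp only [card_range, nsmul_eq_mul] at h2
    refine h2.trans ?_
    have h3 : (d * C + 1) ^ n ≤ Real.exp ((d * C + 1) * n) := by
      rw [mul_comm _ (n : ℝ), Real.exp_nat_mul]
      exact pow_le_pow_left₀ (by positivity) (hexp _) n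
    have h4 : (d : ℝ) ≤ Real.exp (d * n) :=
      (hexp d).trans (Real.exp_le_exp.2 (by nlinarith [Nat.cast_nonneg (α := ℝ) d]))
    have h5 : (1 + d + 2 * (d * C + 1)) * n =
        n + (d * n + ((d * C + 1) * n + (d * C + 1) * n)) := by ring
    rw [h5, Real.exp_add, Real.exp_add, Real.exp_add]
    gcongr
    exact hexp _
  have h2 := form_det_le h1
  have h3 : (d.factorial : ℝ) ≤ Real.exp (d.factorial * n) :=
    (hexp _).trans (Real.exp_le_exp.2 (by nlinarith [Nat.cast_nonneg (α := ℝ) d.factorial]))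
  have h4 : |(qf A n).det| ≤ Real.exp ((d.factorial + d * (1 + d + 2 * (d * C + 1))) * n) := by
    refine h2.trans ?_
    rw [← Real.exp_nat_mul, add_mul (d.factorial : ℝ), Real.exp_add, mul_assoc (d : ℝ)]
    gcongr
  rcases (abs_nonneg (qf A n).det).eq_or_lt with h5 | h5
  · rw [← h5, Real.log_zero]; positivity
  · exact (Real.log_le_iff_le_exp h5).2 h4

theorem form_b {d : ℕ} (A : ℕ → Mat d) {n : ℕ} (hn : 1 ≤ n) (y : R d) :
    y ⬝ᵥ y ≤ 1 * (y ⬝ᵥ (qf A n *ᵥ y)) := by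
  have := form_term_le A (t := 0) hn y
  simpa [prodA] using this

theorem form_lower {d : ℕ} (A : ℕ → Mat d) {n : ℕ} (hn : 1 ≤ n) :
    -(d.factorial : ℝ) ≤ Real.log |(qf A n).det| := by
  obtain ⟨h0, -, h1⟩ := form_coer one_pos (form_b A hn)
  have h2 := form_det_le h1
  rw [det_nonsing_inv, Ring.inverse_eq_inv', abs_inv, one_pow, mul_one] at h2
  have h3 : 0 < |(qf A n).det| := abs_pos.2 h0
  have h4 := Real.log_le_log (inv_pos.2 h3) h2
  rw [Real.log_inv] at h4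
  have h5 := Real.log_le_self (Nat.cast_nonneg (α := ℝ) d.factorial)
  linarith

theorem form_a {d : ℕ} {A : ℕ → Mat d} {C : ℝ} (hC : 1 ≤ C) (h0 : ∀ t, (A t).det ≠ 0)
    (h : ∀ t i j, |A t i j| ≤ C) {s : ℕ} (hs : 1 ≤ s) (y : R d) :
    y ⬝ᵥ y ≤ (d * C + 1) ^ 2 *
      (y ⬝ᵥ ((((prodA A s)⁻¹)ᵀ * qf A s * (prodA A s)⁻¹) *ᵥ y)) := by
  obtain ⟨r, rfl⟩ : ∃ r, s = r + 1 := ⟨s - 1, by omega⟩
  rw [form_quad_conj]
  have h1 := form_term_le A (Nat.lt_succ_self r) ((prodA A (r + 1))⁻¹ *ᵥ y)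
  have h2 := form_mulVec_sq (h r) (prodA A r *ᵥ ((prodA A (r + 1))⁻¹ *ᵥ y))
  have h3 : A r *ᵥ (prodA A r *ᵥ ((prodA A (r + 1))⁻¹ *ᵥ y)) = y := by
    rw [mulVec_mulVec, mulVec_mulVec]
    have : A r * prodA A r = prodA A (r + 1) := rfl
    rw [this, mul_nonsing_inv _ (Ne.isUnit (form_prod_det h0 _)), one_mulVec]
  rw [h3] at h2
  have h4 := form_sq_nonneg (prodA A r *ᵥ ((prodA A (r + 1))⁻¹ *ᵥ y))
  have h5 : (0 : ℝ) ≤ d * C := by positivity
  refine h2.trans ?_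
  exact mul_le_mul (by nlinarith) h1 h4 (by positivity)

theorem form_det_split {d : ℕ} {P q b : Mat d} (hP : P.det ≠ 0)
    (ha : ((P⁻¹)ᵀ * q * P⁻¹).det ≠ 0) (hb : b.det ≠ 0) :
    (q + Pᵀ * b * P).det = q.det * (((P⁻¹)ᵀ * q * P⁻¹)⁻¹ + b⁻¹).det * b.det := by
  have h1 : q = Pᵀ * ((P⁻¹)ᵀ * q * P⁻¹) * P := by
    rw [Matrix.mul_assoc, Matrix.mul_assoc, nonsing_inv_mul _ (Ne.isUnit hP), Matrix.mul_one,
      ← Matrix.mul_assoc, ← transpose_mul, nonsing_inv_mul _ (Ne.isUnit hP), transpose_one,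
      Matrix.one_mul]
  generalize (P⁻¹)ᵀ * q * P⁻¹ = a at ha h1
  have h2 : a + b = a * (a⁻¹ + b⁻¹) * b := by
    rw [Matrix.mul_add, mul_nonsing_inv _ (Ne.isUnit ha), Matrix.add_mul, Matrix.one_mul,
      Matrix.mul_assoc, nonsing_inv_mul _ (Ne.isUnit hb), Matrix.mul_one, add_comm]
  have h3 : q + Pᵀ * b * P = Pᵀ * (a * (a⁻¹ + b⁻¹) * b) * P := by
    rw [← h2, Matrix.mul_add, Matrix.add_mul, ← h1]
  rw [h3, h1]
  simp only [det_mul]
  ring

theorem form_inv_vec {d : ℕ} {m : Mat d} {β κ : ℝ} (hβ : 1 ≤ β) (h : ∀ i j, |m i j| ≤ β)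
    (hκ : |m.det|⁻¹ ≤ Real.exp κ) (v : R d) :
    (m⁻¹ *ᵥ v) ⬝ᵥ (m⁻¹ *ᵥ v) ≤
      (d * (Real.exp κ * (d.factorial * β ^ d))) ^ 2 * (((d + 1) * ‖v‖) ^ 2) := by
  have h1 : ∀ i j, |m⁻¹ i j| ≤ Real.exp κ * (d.factorial * β ^ d) := by
    intro i j
    rw [Matrix.inv_def, Ring.inverse_eq_inv', Matrix.smul_apply, smul_eq_mul, abs_mul, abs_inv,
      adjugate_apply]
    refine mul_le_mul hκ (form_det_le fun k l => ?_) (abs_nonneg _) (Real.exp_pos κ).le
    by_cases hk : k = j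
    · subst hk
      by_cases hl : l = i
      · subst hl; simpa using hβ
      · simp [hl]; linarith
    · simpa [updateRow_ne hk] using h k l
  refine (form_mulVec_sq h1 v).trans (mul_le_mul_of_nonneg_left ?_ (sq_nonneg _))
  have h2 := sum_le_card_nsmul univ (fun i => v i * v i) (‖v‖ ^ 2) fun i _ => by
    have h3 : |v i| ≤ ‖v‖ := norm_le_pi_norm v i
    rw [← sq]
    exact sq_le_sq' (abs_le.1 h3).1 (abs_le.1 h3).2
  simp only [card_univ, Fintype.card_fin, nsmul_eq_mul] at h2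
  refine h2.trans ?_
  have h3 : (0 : ℝ) ≤ d := Nat.cast_nonneg d
  rw [mul_pow]
  exact mul_le_mul_of_nonneg_right (by nlinarith) (sq_nonneg _)

theorem form_main (d : ℕ) (C : ℝ) (hC : 1 ≤ C) : ∃ K K' : ℝ, 1 ≤ K' ∧ ∀ A : ℕ → Mat d,
    (∀ t, (A t).det ≠ 0) → (∀ t i j, |A t i j| ≤ C) →
    (∀ n, 0 ≤ psi K A n ∧ psi K A n ≤ K' * n) ∧
    (∀ s n, psi K A (s + n) ≤ psi K A s + psi K (fun t => A (s + t)) n) ∧
    ∀ (s n : ℕ) (κ : ℝ), 1 ≤ s → 1 ≤ n →
      psi K A s + psi K (fun t => A (s + t)) n ≤ psi K A (s + n) + κ → ∀ v : R d,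
      ∃ δ : ℕ → R d, (∀ t, t + 1 < s + n → δ (t + 1) = A t *ᵥ δ t + if t + 1 = s then v else 0) ∧
        ∀ t < s + n, ‖δ t‖ ≤ K' * Real.exp κ * ‖v‖ := by
  obtain ⟨γ, hγ⟩ : ∃ γ : ℝ, γ = d * C + 1 := ⟨_, rfl⟩
  have hγ1 : 1 ≤ γ := by
    have : (0 : ℝ) ≤ d * C := by positivity
    linarith
  obtain ⟨D, hD⟩ : ∃ D : ℝ, D = d.factorial * (γ ^ 2 + 1) ^ d := ⟨_, rfl⟩
  have hβ : 1 ≤ γ ^ 2 + 1 := by nlinarith
  have hD1 : (d.factorial : ℝ) ≤ D := by
    rw [hD]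
    exact le_mul_of_one_le_right (Nat.cast_nonneg _) (one_le_pow₀ hβ)
  have hD0 : 0 ≤ D := (Nat.cast_nonneg _).trans hD1
  obtain ⟨E, hE⟩ : ∃ E : ℝ, E = d.factorial + d * (1 + d + 2 * γ) := ⟨_, rfl⟩
  have hE0 : 0 ≤ E := by rw [hE]; positivity
  obtain ⟨F, hF⟩ : ∃ F : ℝ, F = γ * (d * D * (d + 1)) := ⟨_, rfl⟩
  have hF0 : 0 ≤ F := by rw [hF]; positivity
  refine ⟨D, 1 + D + E + F, by linarith, fun A h0 h => ?_⟩
  have main : ∀ s n : ℕ, 1 ≤ s → 1 ≤ n → ∃ a m : Mat d,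
      a = ((prodA A s)⁻¹)ᵀ * qf A s * (prodA A s)⁻¹ ∧ m = a⁻¹ + (qf (fun t => A (s + t)) n)⁻¹ ∧
      m.det ≠ 0 ∧ (∀ i j, |m i j| ≤ γ ^ 2 + 1) ∧
      psi D A (s + n) + D = psi D A s + psi D (fun t => A (s + t)) n + Real.log |m.det| := by
    intro s n hs hn
    refine ⟨_, _, rfl, rfl, ?_⟩
    obtain ⟨ha0, -, ha⟩ := form_coer (by positivity) (form_a hC h0 h hs)
    obtain ⟨hb0, -, hb⟩ := form_coer one_pos (form_b (fun t => A (s + t)) hn)
    obtain ⟨hq0, -, -⟩ := form_coer one_pos (form_b A hs)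
    obtain ⟨hc0, -, -⟩ := form_coer one_pos (form_b A (n := s + n) (by omega))
    have h1 := form_det_split (form_prod_det h0 s) ha0 hb0
    rw [← form_qf_add] at h1
    have hm0 := right_ne_zero_of_mul (left_ne_zero_of_mul (h1 ▸ hc0))
    refine ⟨hm0, fun i j => ?_, ?_⟩
    · rw [Matrix.add_apply, hγ]
      exact (abs_add_le _ _).trans (add_le_add (ha i j) (hb i j))
    · rw [psi, psi, psi, if_neg (by omega), if_neg (by omega), if_neg (by omega), h1, abs_mul,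
        abs_mul, Real.log_mul (mul_ne_zero (abs_ne_zero.2 hq0) (abs_ne_zero.2 hm0))
          (abs_ne_zero.2 hb0), Real.log_mul (abs_ne_zero.2 hq0) (abs_ne_zero.2 hm0)]
      ring
  refine ⟨fun n => ?_, fun s n => ?_, fun s n κ hs hn hκ v => ?_⟩
  · rcases Nat.eq_zero_or_pos n with rfl | hn
    · simp [psi]
    · have h1 := form_lower A hn
      have h2 := form_upper hC h hn
      have hn' : (1 : ℝ) ≤ n := by exact_mod_cast hn
      rw [← hγ, ← hE] at h2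
      rw [psi, if_neg (by omega)]
      constructor
      · linarith
      · nlinarith
  · rcases Nat.eq_zero_or_pos s with rfl | hs
    · simp [psi]
    rcases Nat.eq_zero_or_pos n with rfl | hn
    · simp [psi]
    obtain ⟨a, m, -, -, hm0, hm, h1⟩ := main s n hs hn
    have h2 := form_det_le hm
    have h3 := Real.log_le_self (abs_nonneg m.det)
    rw [← hD] at h2
    linarith
  · obtain ⟨a, m, ha, hm, hm0, hm1, h1⟩ := main s n hs hn
    have h2 : |m.det|⁻¹ ≤ Real.exp κ := by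
      rw [← Real.log_le_iff_le_exp (inv_pos.2 (abs_pos.2 hm0)), Real.log_inv]
      linarith
    have h3 := form_inv_vec hβ hm1 h2 v
    rw [← hD] at h3
    obtain ⟨-, ha1, -⟩ := form_coer (by positivity) (form_a hC h0 h hs)
    obtain ⟨-, hb1, -⟩ := form_coer one_pos (form_b (fun t => A (s + t)) hn)
    rw [← ha, ← hγ] at ha1
    have h4 : a⁻¹ *ᵥ (m⁻¹ *ᵥ v) + (qf (fun t => A (s + t)) n)⁻¹ *ᵥ (m⁻¹ *ᵥ v) = v := by
      rw [← add_mulVec, ← hm, mulVec_mulVec, mul_nonsing_inv _ (Ne.isUnit hm0), one_mulVec]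
    have ha2 := ha1 (m⁻¹ *ᵥ v)
    have hb2 := hb1 (m⁻¹ *ᵥ v)
    have hu0 := form_sq_nonneg (m⁻¹ *ᵥ v)
    generalize m⁻¹ *ᵥ v = u at h3 h4 ha2 hb2 hu0
    generalize a⁻¹ *ᵥ u = vm at h4 ha2
    generalize (qf (fun t => A (s + t)) n)⁻¹ *ᵥ u = vp at h4 hb2
    rw [ha, form_quad_conj] at ha2
    refine ⟨fun t => if s ≤ t then prodA (fun t => A (s + t)) (t - s) *ᵥ vp
      else -(prodA A t *ᵥ ((prodA A s)⁻¹ *ᵥ vm)), fun t _ => ?_, fun t ht => ?_⟩
    · dsimp only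
      rcases lt_trichotomy (t + 1) s with h5 | h5 | h5
      · rw [if_neg (by omega), if_neg (by omega), if_neg (by omega), add_zero, prodA, mulVec_neg,
          mulVec_mulVec _ (A t)]
      · subst h5
        have h6 : A t * prodA A t = prodA A (t + 1) := rfl
        rw [if_pos le_rfl, if_neg (by omega), if_pos rfl, Nat.sub_self, prodA, one_mulVec,
          mulVec_neg, mulVec_mulVec _ (A t), h6, mulVec_mulVec,
          mul_nonsing_inv _ (Ne.isUnit (form_prod_det h0 _)), one_mulVec, ← h4]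
        abel
      · obtain ⟨r, rfl⟩ : ∃ r, t = s + r := ⟨t - s, by omega⟩
        have h6 : s + r + 1 - s = r + 1 := by omega
        rw [if_pos (by omega), if_pos (by omega), if_neg (by omega), add_zero, h6,
          Nat.add_sub_cancel_left, prodA, mulVec_mulVec]
    · have h5 : ∀ y : R d, y ⬝ᵥ y ≤ γ ^ 2 * (u ⬝ᵥ u) → ‖y‖ ≤ (1 + D + E + F) * Real.exp κ * ‖v‖ := by
        intro y hy
        have h6 : y ⬝ᵥ y ≤ (F * Real.exp κ * ‖v‖) ^ 2 := by
          refine hy.trans ((mul_le_mul_of_nonneg_left h3 (sq_nonneg γ)).trans (le_of_eq ?_))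
          rw [hF]; ring
        have h7 : 0 ≤ F * Real.exp κ * ‖v‖ := by positivity
        refine ((pi_norm_le_iff_of_nonneg h7).2 fun i => form_coord h7 h6 i).trans ?_
        gcongr
        linarith
      dsimp only
      refine h5 _ ?_
      split_ifs with h6
      · refine (form_term_le _ (n := n) (by omega) vp).trans (hb2.trans ?_)
        exact mul_le_mul_of_nonneg_right (by nlinarith) hu0
      · rw [neg_dotProduct_neg]
        exact (form_term_le _ (n := s) (by omega) _).trans ha2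

theorem measurable_psi {d : ℕ} {Ω : Type} [MeasurableSpace Ω] (K : ℝ) (A : Ω → ℕ → Mat d)
    (hA : ∀ t i j, Measurable fun x => A x t i j) (n : ℕ) : Measurable fun x => psi K (A x) n := by
  have h1 : ∀ t i j, Measurable fun x => prodA (A x) t i j := by
    intro t
    induction t with
    | zero => exact fun i j => measurable_const
    | succ t ih =>
      intro i j
      simp only [prodA, Matrix.mul_apply]
      exact Finset.measurable_sum _ fun k _ => (hA t i k).mul (ih k j)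
  have h2 : ∀ i j, Measurable fun x => qf (A x) n i j := by
    intro i j
    simp only [qf, Matrix.sum_apply, Matrix.mul_apply, transpose_apply]
    exact Finset.measurable_sum _ fun t _ => Finset.measurable_sum _ fun k _ =>
      (h1 t k i).mul (h1 t k j)
  have h3 : Measurable fun x => (qf (A x) n).det := by
    simp only [det_apply']
    exact Finset.measurable_sum _ fun σ _ => measurable_const.mul
      (Finset.measurable_prod _ fun i _ => h2 _ i)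
  unfold psi
  split_ifs
  · exact measurable_const
  · exact (Real.measurable_log.comp (continuous_abs.measurable.comp h3)).add_const K

end Vale.Agent.P109.N
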