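import Vale.Agent.P109.N.Flat

/-! P109: processes whose names are made of robustly recognisable letters carrying inner products.
PLAN for `rigid_use`.  `n = 2^j - 1`, `B = 2^J`, `n + 2 ≤ 2^(j+1) ≤ B`.  `Xu o x k = f x ((i x + o + k) % B)`,
`Z o x k = ip (Xl a) (Xl (a + 2^j))` with `a = pos x / ℓ + o + k`, `Wr = {x | B < i x + 2 + n}`.
`Wr` is covered by `≤ (n + 1) * |V|^B` atoms `{i = i0, f = f0}`; `{Xu o = ξ}` by `B * |V|^(B - n)` atoms (for fixed `i0`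
the map `k ↦ (i0 + o + k) % B` is injective on `Fin n`).
Combinatorics: `t0 = ℓ - pos p % ℓ ≤ ℓ`, so `ℓ ∣ pos p + t0 + k ℓ` and the windows `[t0 + k ℓ, t0 + (k+1) ℓ)`, `k < n`, are
disjoint subsets of `[0, L)`.  A window is bad for `x` if `ℓ ≤ 80 * #disagreements`; `#bad * ℓ ≤ 80 D`, same for `y` (times
`τ0 = L + t0 + k ℓ` for `p`, `τ1 = t0 + k ℓ` for `y`).  `o = (pos x % ℓ + t0 + h/2) / ℓ < 3` and
`(pos x + (t0 + k ℓ) + h/2) / ℓ = pos x / ℓ + o + k`.  For a window good for both, with `b = (pos p + t0) / ℓ + k`: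
`Z o x k = ip (Xl b) (Xl (b + 2^j))`, `Xu o x k = Xl b`, `Xu o' y k = Xl (b + 2^j)`.  So the number of errors `e`
satisfies `e ℓ ≤ 160 D ≤ L / 20`, i.e. `20 e ≤ 2^j`. -/

open MeasureTheory Set

namespace Vale.Agent.P109.N

def Rigid {Ω : Type} [MeasurableSpace Ω] (μ : Measure Ω) (a : Ω → ℕ → ZMod 2) (h ℓ m J : ℕ) :
    Prop :=
  ∃ (pos : Ω → ℕ) (Xl : ℕ → Fin m → ZMod 2) (i : Ω → ℕ) (f : Ω → Fin (2 ^ J) → Fin m → ZMod 2),
    Measurable pos ∧ Measurable i ∧ Measurable f ∧ (∀ x, i x < 2 ^ J) ∧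
    (∀ i0 f0, μ.real {x | i x = i0 ∧ f x = f0} ≤ 1 / (2 ^ J * (2 ^ m) ^ (2 ^ J))) ∧
    (∀ x k (hk : i x + k < 2 ^ J), Xl (pos x / ℓ + k) = f x ⟨i x + k, hk⟩) ∧
    ∀ p x τ0 τ1, ℓ ∣ pos p + τ0 →
      80 * ((Finset.range ℓ).filter fun τ => a p (τ0 + τ) ≠ a x (τ1 + τ)).card < ℓ →
      Xl ((pos x + τ1 + h / 2) / ℓ) = Xl ((pos p + τ0) / ℓ) ∧ ∀ j < J,
        ip (Xl ((pos x + τ1 + h / 2) / ℓ)) (Xl ((pos x + τ1 + h / 2) / ℓ + 2 ^ j)) =
          ip (Xl ((pos p + τ0) / ℓ)) (Xl ((pos p + τ0) / ℓ + 2 ^ j))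

theorem Rigid.comp {Ω Ω' : Type} [MeasurableSpace Ω] [MeasurableSpace Ω'] {μ : Measure Ω}
    {ν : Measure Ω'} {a : Ω → ℕ → ZMod 2} {h ℓ m J : ℕ} (H : Rigid μ a h ℓ m J) {Ψ : Ω' → Ω}
    (hΨ : MeasurePreserving Ψ ν μ) : Rigid ν (fun x => a (Ψ x)) h ℓ m J := by
  obtain ⟨pos, Xl, i, f, h1, h2, h3, h4, h5, h6, h7⟩ := H
  refine ⟨pos ∘ Ψ, Xl, i ∘ Ψ, f ∘ Ψ, h1.comp hΨ.measurable, h2.comp hΨ.measurable,
    h3.comp hΨ.measurable, fun x => h4 _, fun i0 f0 => ?_, fun x => h6 _, fun p x => h7 _ _⟩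
  have := hΨ.measureReal_preimage (s := {x | i x = i0 ∧ f x = f0})
    ((h2 (measurableSet_singleton i0)).inter (h3 (measurableSet_singleton f0))).nullMeasurableSet
  exact this.le.trans (h5 i0 f0)

theorem rig_atoms {Ω κ : Type} [MeasurableSpace Ω] {μ : Measure Ω} [IsProbabilityMeasure μ]
    (g : Ω → κ) {c : ℝ} (h : ∀ k, μ.real {x | g x = k} ≤ c) (S : Finset κ) {A : Set Ω}
    (hA : ∀ x ∈ A, g x ∈ S) : μ.real A ≤ S.card * c := by
  calc μ.real A ≤ μ.real (⋃ k ∈ S, {x | g x = k}) :=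
        measureReal_mono (fun x hx => mem_iUnion₂.2 ⟨g x, hA x hx, rfl⟩) (measure_ne_top _ _)
    _ ≤ ∑ k ∈ S, μ.real {x | g x = k} := measureReal_biUnion_finset_le _ _
    _ ≤ _ := by
        rw [← nsmul_eq_mul]
        exact Finset.sum_le_card_nsmul _ _ _ fun k _ => h k

theorem rig_card {V : Type} [Fintype V] [DecidableEq V] {n B : ℕ} {σ : Fin n → Fin B}
    (hσ : Function.Injective σ) (ξ : Fin n → V) :
    (Finset.univ.filter fun f : Fin B → V => ∀ k, f (σ k) = ξ k).card ≤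
      Fintype.card V ^ (B - n) := by
  classical
  have h1 : (Finset.univ.filter fun f : Fin B → V => ∀ k, f (σ k) = ξ k) ⊆
      Fintype.piFinset fun b => Finset.univ.filter fun v => ∀ k, σ k = b → v = ξ k :=
    fun f hf => Fintype.mem_piFinset.2 fun b => Finset.mem_filter.2
      ⟨Finset.mem_univ _, fun k e => e ▸ (Finset.mem_filter.1 hf).2 k⟩
  refine (Finset.card_le_card h1).trans ?_
  rw [Fintype.card_piFinset]
  calc _ ≤ ∏ b : Fin B, if b ∈ (Finset.univ.image σ)ᶜ then Fintype.card V else 1 := by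
        refine Finset.prod_le_prod' fun b _ => ?_
        split_ifs with hb
        · exact Finset.card_le_univ _
        · obtain ⟨k, -, rfl⟩ := Finset.mem_image.1 (Finset.notMem_compl.1 hb)
          exact Finset.card_le_one.2 fun v hv w hw =>
            ((Finset.mem_filter.1 hv).2 k rfl).trans ((Finset.mem_filter.1 hw).2 k rfl).symm
    _ = _ := by
        rw [Finset.prod_ite_mem, Finset.univ_inter, Finset.prod_const, Finset.card_compl,
          Finset.card_image_of_injective _ hσ, Finset.card_univ, Fintype.card_fin,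
          Fintype.card_fin]

theorem rig_bad (P : ℕ → Prop) [DecidablePred P] {ℓ n t0 : ℕ} (ht : t0 ≤ ℓ) :
    (Finset.univ.filter fun k : Fin n =>
      ℓ ≤ 80 * ((Finset.range ℓ).filter fun τ => P (t0 + k * ℓ + τ)).card).card * ℓ ≤
        80 * ((Finset.range (ℓ * (n + 1))).filter P).card := by
  have h1 : ∑ k : Fin n, ((Finset.range ℓ).filter fun τ => P (t0 + k * ℓ + τ)).card ≤
      ((Finset.range (ℓ * (n + 1))).filter P).card := by
    rw [← Finset.card_sigma]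
    refine Finset.card_le_card_of_injOn (fun q => t0 + q.1 * ℓ + q.2) (fun q hq => ?_)
      fun q hq r hr e => ?_
    · obtain ⟨h2, h3⟩ := Finset.mem_filter.1 (Finset.mem_sigma.1 hq).2
      refine Finset.mem_filter.2 ⟨Finset.mem_range.2 ?_, h3⟩
      have h4 := Nat.mul_le_mul_right ℓ (Nat.succ_le_of_lt q.1.2)
      have h5 := Finset.mem_range.1 h2
      simp only [Nat.succ_mul] at h4
      simp only
      nlinarith
    · have h2 := Finset.mem_range.1 (Finset.mem_filter.1 (Finset.mem_sigma.1 hq).2).1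
      have h3 := Finset.mem_range.1 (Finset.mem_filter.1 (Finset.mem_sigma.1 hr).2).1
      have h4 : q.2 + ℓ * q.1 = r.2 + ℓ * r.1 := by
        simp only at e
        rw [mul_comm ℓ, mul_comm ℓ]
        omega
      have h5 := congrArg (· / ℓ) h4
      have h6 := congrArg (· % ℓ) h4
      simp only [Nat.add_mul_div_left _ _ (Nat.zero_lt_of_lt h2), Nat.div_eq_of_lt h2,
        Nat.div_eq_of_lt h3, zero_add] at h5
      simp only [Nat.add_mul_mod_self_left, Nat.mod_eq_of_lt h2, Nat.mod_eq_of_lt h3] at h6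
      exact Sigma.ext (Fin.ext h5) (heq_of_eq h6)
  refine le_trans ?_ (Nat.mul_le_mul_left 80 h1)
  rw [Finset.mul_sum, ← smul_eq_mul]
  exact (Finset.card_nsmul_le_sum _ _ _ fun k hk => (Finset.mem_filter.1 hk).2).trans
    (Finset.sum_le_sum_of_subset (Finset.filter_subset _ _))

theorem rigid_use {Ω : Type} [MeasurableSpace Ω] {μ : Measure Ω} [IsProbabilityMeasure μ]
    {a : Ω → ℕ → ZMod 2} {h ℓ m J : ℕ} (H : Rigid μ a h ℓ m J) (hℓ : 0 < ℓ) (hh : h ≤ ℓ) (j : ℕ)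
    (hj : j < J) :
    ∃ (Xu : Fin 3 → Ω → Fin (2 ^ j - 1) → Fin m → ZMod 2)
      (Z : Fin 3 → Ω → Fin (2 ^ j - 1) → ZMod 2) (Wr : Set Ω),
      (∀ o, Measurable (Xu o)) ∧ (∀ o, Measurable (Z o)) ∧ MeasurableSet Wr ∧
      μ.real Wr ≤ 2 ^ (j + 1) / 2 ^ J ∧
      (∀ o ξ, μ.real {x | Xu o x = ξ} ≤ (1 / 2 ^ m) ^ (2 ^ j - 1)) ∧
      ∀ p x y (D : ℕ), x ∉ Wr → y ∉ Wr → 3200 * D ≤ ℓ * 2 ^ j →
        ((Finset.range (ℓ * 2 ^ j)).filter fun t => a p t ≠ a x t).card ≤ D →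
        ((Finset.range (ℓ * 2 ^ j)).filter fun t => a p (ℓ * 2 ^ j + t) ≠ a y t).card ≤ D →
        ∃ o o', (Finset.univ.filter fun k => Z o x k ≠ ip (Xu o x k) (Xu o' y k)).card ≤
          2 ^ j / 20 := by
  classical
  obtain ⟨pos, Xl, i, f, h1, h2, h3, h4, h5, h6, h7⟩ := H
  have hB : 0 < 2 ^ J := Nat.two_pow_pos J
  have hn : 2 ^ j - 1 + 1 = 2 ^ j := Nat.sub_add_cancel (Nat.two_pow_pos j)
  have hnB : 2 * 2 ^ j ≤ 2 ^ J := by
    rw [← pow_succ']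
    exact Nat.pow_le_pow_right two_pos hj
  have hat : ∀ k : ℕ × (Fin (2 ^ J) → Fin m → ZMod 2),
      μ.real {x | (i x, f x) = k} ≤ 1 / (2 ^ J * (2 ^ m) ^ (2 ^ J)) := fun k => by
    simpa only [Prod.ext_iff] using h5 k.1 k.2
  have hV : Fintype.card (Fin m → ZMod 2) = 2 ^ m := by simp
  refine ⟨fun o x k => f x ⟨(i x + (o + k)) % 2 ^ J, Nat.mod_lt _ hB⟩,
    fun o x k => ip (Xl (pos x / ℓ + (o + k))) (Xl (pos x / ℓ + (o + k) + 2 ^ j)),
    {x | 2 ^ J < i x + 2 + (2 ^ j - 1)}, fun o => ?_, fun o => ?_,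
    measurableSet_lt measurable_const ((h2.add_const _).add_const _), ?_, fun o ξ => ?_,
    fun p x y D hx hy hD h8 h9 => ?_⟩
  · exact (measurable_of_countable fun (q : ℕ × (Fin (2 ^ J) → Fin m → ZMod 2))
      (k : Fin (2 ^ j - 1)) => q.2 ⟨(q.1 + (o + k)) % 2 ^ J, Nat.mod_lt _ hB⟩).comp (h2.prodMk h3)
  · exact (measurable_of_countable fun (q : ℕ) (k : Fin (2 ^ j - 1)) =>
      ip (Xl (q / ℓ + (o + k))) (Xl (q / ℓ + (o + k) + 2 ^ j))).comp h1
  · refine (rig_atoms _ hat (Finset.Ico (2 ^ J - 2 ^ j) (2 ^ J) ×ˢ Finset.univ) fun x hx =>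
      Finset.mem_product.2 ⟨Finset.mem_Ico.2 ⟨?_, h4 x⟩, Finset.mem_univ _⟩).trans ?_
    · have : 2 ^ J < i x + 2 + (2 ^ j - 1) := hx
      simp only
      omega
    · rw [Finset.card_product, Nat.card_Ico, Finset.card_univ, Fintype.card_fun, hV,
        Fintype.card_fin, show 2 ^ J - (2 ^ J - 2 ^ j) = 2 ^ j by omega]
      push_cast
      rw [mul_one_div, mul_div_mul_right _ _ (by positivity), pow_succ]
      exact div_le_div_of_nonneg_right (by linarith [pow_pos (two_pos (α := ℝ)) j])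
        (by positivity)
  · refine (rig_atoms _ hat ((Finset.range (2 ^ J)).biUnion fun i0 => (Finset.univ.filter
      fun f0 : Fin (2 ^ J) → Fin m → ZMod 2 => ∀ k : Fin (2 ^ j - 1),
        f0 ⟨(i0 + (o + k)) % 2 ^ J, Nat.mod_lt _ hB⟩ = ξ k).image fun f0 => (i0, f0)) fun x hx =>
      Finset.mem_biUnion.2 ⟨i x, Finset.mem_range.2 (h4 x), Finset.mem_image.2
        ⟨f x, Finset.mem_filter.2 ⟨Finset.mem_univ _, congrFun hx⟩, rfl⟩⟩).trans ?_
    refine (mul_le_mul_of_nonneg_right (Nat.cast_le.2 (Finset.card_biUnion_le_card_mul _ _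
      ((2 ^ m) ^ (2 ^ J - (2 ^ j - 1))) fun i0 _ => Finset.card_image_le.trans ?_))
      (by positivity)).trans (le_of_eq ?_)
    · rw [← hV]
      refine rig_card (fun k k' e => Fin.ext ?_) ξ
      have e1 : (k : ℕ) ≡ k' [MOD 2 ^ J] :=
        Nat.ModEq.add_left_cancel' o (Nat.ModEq.add_left_cancel' i0 (congrArg Fin.val e))
      exact e1.eq_of_lt_of_lt (by omega) (by omega)
    · obtain ⟨r, hr⟩ : ∃ r, 2 ^ J = r + (2 ^ j - 1) := ⟨2 ^ J - (2 ^ j - 1), by omega⟩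
      rw [Finset.card_range, show 2 ^ J - (2 ^ j - 1) = r by omega,
        show ((2 : ℝ) ^ m) ^ 2 ^ J = (2 ^ m) ^ r * (2 ^ m) ^ (2 ^ j - 1) by rw [← pow_add, ← hr],
        one_div_pow]
      push_cast
      field_simp
  · obtain ⟨t0, c, ht, hc⟩ : ∃ t0 c, t0 ≤ ℓ ∧ pos p + t0 = c * ℓ :=
      ⟨ℓ - pos p % ℓ, pos p / ℓ + 1, Nat.sub_le _ _, by
        have := Nat.div_add_mod' (pos p) ℓ
        have := Nat.mod_lt (pos p) hℓ
        rw [add_mul]
        omega⟩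
    have ho : ∀ z : Ω, (pos z % ℓ + t0 + h / 2) / ℓ < 3 := fun z => by
      rw [Nat.div_lt_iff_lt_mul hℓ]
      have := Nat.mod_lt (pos z) hℓ
      omega
    have hq : ∀ (z : Ω) (k : ℕ), (pos z + (t0 + k * ℓ) + h / 2) / ℓ =
        pos z / ℓ + ((pos z % ℓ + t0 + h / 2) / ℓ + k) := fun z k => by
      have := Nat.div_add_mod' (pos z) ℓ
      rw [show pos z + (t0 + k * ℓ) + h / 2 = pos z % ℓ + t0 + h / 2 + (pos z / ℓ + k) * ℓ by
        rw [add_mul]; omega, Nat.add_mul_div_right _ _ hℓ]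
      omega
    have hf : ∀ z : Ω, z ∉ {x | 2 ^ J < i x + 2 + (2 ^ j - 1)} → ∀ (o : ℕ) (k : Fin (2 ^ j - 1)),
        o < 3 → f z ⟨(i z + (o + k)) % 2 ^ J, Nat.mod_lt _ hB⟩ = Xl (pos z / ℓ + (o + k)) := by
      intro z hz o k ho
      have hz' : ¬2 ^ J < i z + 2 + (2 ^ j - 1) := hz
      have hlt : i z + (o + k) < 2 ^ J := by omega
      rw [h6 z _ hlt]
      exact congrArg (f z) (Fin.ext (Nat.mod_eq_of_lt hlt))
    have b1 := rig_bad (fun t => a p t ≠ a x t) (n := 2 ^ j - 1) ht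
    have b2 := rig_bad (fun t => a p (ℓ * 2 ^ j + t) ≠ a y t) (n := 2 ^ j - 1) ht
    rw [hn] at b1 b2
    refine ⟨⟨_, ho x⟩, ⟨_, ho y⟩, ?_⟩
    refine le_trans (Finset.card_le_card (t := Finset.univ.filter (fun k : Fin (2 ^ j - 1) =>
      ℓ ≤ 80 * ((Finset.range ℓ).filter fun τ =>
        a p (t0 + k * ℓ + τ) ≠ a x (t0 + k * ℓ + τ)).card) ∪
      Finset.univ.filter fun k : Fin (2 ^ j - 1) => ℓ ≤ 80 * ((Finset.range ℓ).filter fun τ =>
        a p (ℓ * 2 ^ j + (t0 + k * ℓ + τ)) ≠ a y (t0 + k * ℓ + τ)).card) fun k hk => ?_)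
      ((Finset.card_union_le _ _).trans ?_)
    · by_contra hk'
      simp only [Finset.mem_union, Finset.mem_filter, Finset.mem_univ, true_and, not_or,
        not_le] at hk'
      have e1 : pos p + (t0 + k * ℓ) = (c + k) * ℓ := by rw [← add_assoc, hc, add_mul]
      have e2 : pos p + (ℓ * 2 ^ j + (t0 + k * ℓ)) = (c + k + 2 ^ j) * ℓ := by
        rw [add_left_comm, e1]; ring
      obtain ⟨c1, c2⟩ := h7 p x (t0 + k * ℓ) (t0 + k * ℓ) (e1 ▸ dvd_mul_left _ _) hk'.1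
      obtain ⟨c3, -⟩ := h7 p y (ℓ * 2 ^ j + (t0 + k * ℓ)) (t0 + k * ℓ) (e2 ▸ dvd_mul_left _ _)
        (by simpa only [add_assoc] using hk'.2)
      have c4 := c2 j hj
      rw [e1, hq, Nat.mul_div_cancel _ hℓ] at c1 c4
      rw [e2, hq, Nat.mul_div_cancel _ hℓ] at c3
      refine (Finset.mem_filter.1 hk).2 ?_
      simp only
      rw [hf x hx _ _ (ho x), hf y hy _ _ (ho y), c4, c1, c3]
    · rw [Nat.le_div_iff_mul_le (by norm_num)]
      refine Nat.le_of_mul_le_mul_left ?_ hℓ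
      nlinarith

end Vale.Agent.P109.N
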