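import Vale.Agent.P109.N.Shadow1

/-! P109: shadowing of true orbits by pseudo-orbits with one jump, with bounded volume distortion. -/

open MeasureTheory Set Metric Module
open scoped NNReal ENNReal

noncomputable section

namespace Vale.Agent.P109.N

theorem exists_rinv {d W : ℕ} (A : ℕ → R d →L[ℝ] R d) (Γ : ℝ) (hΓ : 0 ≤ Γ)
    (hR : ∀ a, 1 ≤ a → a < W → ∀ v : R d, ∃ δ : ℕ → R d,
      (∀ t, t + 1 < W → δ (t + 1) = A t (δ t) + if t + 1 = a then v else 0) ∧
      ∀ t < W, ‖δ t‖ ≤ Γ * ‖v‖) :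
    ∃ Q : (ℕ → R d) → Fin W → R d,
      (∀ w t, t + 1 < W → ev (Q w) (t + 1) = A t (ev (Q w) t) + w (t + 1)) ∧
      (∀ w w' b, 0 ≤ b → (∀ t, 1 ≤ t → t < W → ‖w t - w' t‖ ≤ b) →
        ‖Q w - Q w'‖ ≤ d * W * Γ * b) ∧ Q 0 = 0 := by
  classical
  choose! δ h1 h2 using hR
  refine ⟨fun w t => ∑ a ∈ Finset.Ico 1 W, ∑ i, w a i • δ a (Pi.single i 1) t, ?_, ?_, ?_⟩
  · intro w t ht
    rw [ev_lt _ ht, ev_lt _ (by omega : t < W)]
    simp only [map_sum, map_smul]
    have : w (t + 1) = ∑ a ∈ Finset.Ico 1 W, ∑ i,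
        w a i • (if t + 1 = a then (Pi.single i 1 : R d) else 0) := by
      rw [Finset.sum_eq_single (t + 1)]
      · simp only [if_true]
        exact pi_eq_sum_univ' _
      · intro b _ hb
        simp [hb.symm]
      · intro h
        exact absurd (Finset.mem_Ico.2 ⟨by omega, ht⟩) h
    rw [this, ← Finset.sum_add_distrib]
    refine Finset.sum_congr rfl fun a ha => ?_
    rw [← Finset.sum_add_distrib]
    refine Finset.sum_congr rfl fun i _ => ?_
    rw [Finset.mem_Ico] at ha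
    rw [h1 a ha.1 ha.2 _ t ht, smul_add]
  · intro w w' b hb h
    refine (pi_norm_le_iff_of_nonneg (by positivity)).2 fun t => ?_
    simp only [Pi.sub_apply]
    rw [← Finset.sum_sub_distrib]
    calc _ ≤ ∑ a ∈ Finset.Ico 1 W, (d : ℝ) * Γ * b := by
          refine norm_sum_le_of_le _ fun a ha => ?_
          rw [← Finset.sum_sub_distrib]
          rw [Finset.mem_Ico] at ha
          calc _ ≤ ∑ _i : Fin d, Γ * b := by
                refine norm_sum_le_of_le _ fun i _ => ?_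
                rw [← sub_smul, norm_smul]
                have e1 := h2 a ha.1 ha.2 (Pi.single i 1) t t.isLt
                rw [Pi.norm_single, norm_one, mul_one] at e1
                have e2 : ‖w a i - w' a i‖ ≤ b :=
                  (norm_le_pi_norm (w a - w' a) i).trans (h a ha.1 ha.2)
                calc _ ≤ b * Γ := by gcongr
                  _ = _ := mul_comm _ _
            _ = _ := by simp [mul_assoc]
      _ ≤ _ := by
          simp only [Finset.sum_const, Nat.card_Ico, nsmul_eq_mul]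
          have : ((W - 1 : ℕ) : ℝ) ≤ W := by exact_mod_cast Nat.sub_le _ _
          calc _ ≤ (W : ℝ) * (d * Γ * b) := by gcongr
            _ = _ := by ring
  · ext t : 1
    simp

theorem vol_tri {d n : ℕ} (s : R d → R d) (hs : Measurable s) (P : Set (R d))
    (mP : MeasurableSet P) (c : ℕ → R d) (σ : ℝ) :
    volume {η : Fin (n + 1) → R d | ev η 0 ∈ P ∧
      ∀ t, t + 1 < n + 1 → ‖ev η (t + 1) - s (ev η t) - c (t + 1)‖ ≤ σ} =
      volume P * volume (closedBall (0 : R d) σ) ^ n := by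
  let B : Fin (n + 1) → Set (R d) := fun t => if t.val = 0 then P else closedBall (c t) σ
  have mB : ∀ t, MeasurableSet (B t) := by
    intro t
    simp only [B]
    split_ifs
    exacts [mP, measurableSet_closedBall]
  have := (tri_mp (W := n + 1) s hs (n + 1)).measure_preimage
    (MeasurableSet.univ_pi mB).nullMeasurableSet
  rw [volume_pi_pi, Fin.prod_univ_succ] at this
  convert this using 2
  · ext η
    simp only [mem_ofPred_eq, mem_preimage, mem_pi, mem_univ, true_imp_iff]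
    rw [Fin.forall_fin_succ]
    refine and_congr ?_ ⟨fun h t => ?_, fun h t ht => ?_⟩
    · simp [B, tri, ev]
    · have := h t (by omega)
      rw [ev_lt _ (by omega : t.val + 1 < n + 1)] at this
      change ‖η t.succ - _ - _‖ ≤ _ at this
      simpa [B, tri, dist_eq_norm] using this
    · have := h ⟨t, by omega⟩
      rw [ev_lt _ ht]
      simpa [B, tri, dist_eq_norm, ht] using this
  · simp [B]
  · simp [B, Measure.addHaar_closedBall_center]

theorem shadow {d W L : ℕ} {C Γ r r' ρ : ℝ} {ν : Measure (R d)} {s : R d → R d}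
    (hs : Measurable s) (hC : 0 ≤ C) (hΓ : 0 ≤ Γ) (ξ : R d)
    (hn : ∀ t < W, Nice C ν s (s^[t] ξ) (4 * r))
    (hR : ∀ a, 1 ≤ a → a < W → ∀ v : R d, ∃ δ : ℕ → R d,
      (∀ t, t + 1 < W → δ (t + 1) = fderiv ℝ s (s^[t] ξ) (δ t) + if t + 1 = a then v else 0) ∧
      ∀ t < W, ‖δ t‖ ≤ Γ * ‖v‖)
    (small : 16 * (d * W) ^ 2 * Γ * C * r ≤ 1) (hr' : 0 < r') (hr : r' ≤ r)
    (hρ : 4 * (d * W) * Γ * ρ ≤ r') (hW : 0 < W) (v : R d) (hv : ‖v‖ ≤ ρ)
    (P Q : Set (R d)) (mP : MeasurableSet P) (mQ : MeasurableSet Q)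
    (hP : ∀ p ∈ P, ∀ t < W, dist (s^[t] p) (s^[t] ξ) ≤ r)
    (hPQ : ∀ p ∈ P, ∀ x, (∀ t < W, dist (porb s L v x t) (s^[t] p) ≤ r') → x ∈ Q) :
    volume P ≤ 3 * volume Q := by
  obtain ⟨n, rfl⟩ : ∃ n, W = n + 1 := ⟨W - 1, by omega⟩
  set W := n + 1 with hWn
  have r0 : 0 < r := hr'.trans_le hr
  let A : ℕ → R d →L[ℝ] R d := fun t => fderiv ℝ s (s^[t] ξ)
  obtain ⟨Z, Z1, Z2, Z3⟩ := exists_rinv A Γ hΓ hR
  have loc : ∀ t < W, ∀ y ∈ ball (s^[t] ξ) (4 * r), ∀ y' ∈ ball (s^[t] ξ) (4 * r),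
      ‖s y - s y' - A t (y - y')‖ ≤ C * (4 * r) * ‖y - y'‖ := fun t ht y hy y' hy' =>
    (convex_ball _ _).norm_image_sub_le_of_norm_fderiv_le' (hn t ht).diff (hn t ht).lip hy' hy
  set Λ := C + C * (4 * r) with hΛ
  have Λ0 : 0 ≤ Λ := by positivity
  have lip : ∀ t < W, ∀ y ∈ ball (s^[t] ξ) (4 * r), ∀ y' ∈ ball (s^[t] ξ) (4 * r),
      ‖s y - s y'‖ ≤ Λ * ‖y - y'‖ := by
    intro t ht y hy y' hy'
    have e1 := loc t ht y hy y' hy'
    have e2 : ‖A t (y - y')‖ ≤ C * ‖y - y'‖ :=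
      ((A t).le_opNorm _).trans (by gcongr; exact (hn t ht).bd)
    calc ‖s y - s y'‖ = ‖(s y - s y' - A t (y - y')) + A t (y - y')‖ := by congr 1; abel
      _ ≤ _ := norm_add_le _ _
      _ ≤ _ := by rw [hΛ]; linarith
  set σ := r' / 4 / (Λ + 1) ^ W with hσ
  have σ0 : 0 < σ := by positivity
  have σ1 : σ * (Λ + 1) ^ W ≤ r' / 4 := by
    rw [hσ, div_mul_cancel₀]
    positivity
  let ξv : Fin W → R d := fun t => s^[t] ξ
  let T : Set (Fin W → R d) := ball ξv (4 * r)
  have memT : ∀ η ∈ T, ∀ t < W, ev η t ∈ ball (s^[t] ξ) (4 * r) := by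
    intro η hη t ht
    rw [ev_lt _ ht]
    exact (dist_le_pi_dist η ξv ⟨t, ht⟩).trans_lt hη
  let N : (Fin W → R d) → ℕ → R d := fun η t => s (ev η (t - 1)) - A (t - 1) (ev η (t - 1))
  let G : (Fin W → R d) → Fin W → R d := fun η => η - Z (N η)
  set x := d * W * Γ * (C * (4 * r)) with hx
  have x0 : 0 ≤ x := by positivity
  have hG : ∀ a ∈ T, ∀ b ∈ T, ‖G a - G b - (a - b)‖ ≤ x * ‖a - b‖ := by
    intro a ha b hb
    have : G a - G b - (a - b) = Z (N b) - Z (N a) := by simp only [G]; abel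
    rw [this, norm_sub_rev, hx, mul_assoc _ _ ‖a - b‖]
    refine Z2 _ _ _ (by positivity) fun t h1 h2 => ?_
    have h3 : t - 1 < W := by omega
    have e := loc _ h3 _ (memT a ha _ h3) _ (memT b hb _ h3)
    have e2 := norm_ev_le (a - b) (t - 1)
    rw [ev_sub] at e2
    calc _ = ‖s (ev a (t - 1)) - s (ev b (t - 1)) - A (t - 1) (ev a (t - 1) - ev b (t - 1))‖ := by
          simp only [N, map_sub]; congr 1; abel
      _ ≤ _ := e
      _ ≤ _ := by gcongr
  have Gdef : ∀ η t, t + 1 < W →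
      ev (G η) (t + 1) - A t (ev (G η) t) = ev η (t + 1) - s (ev η t) := by
    intro η t ht
    simp only [G, ev_sub, Z1 _ _ ht, N, map_sub, Nat.add_sub_cancel]
    abel
  have fr : finrank ℝ (Fin W → R d) = d * W := by
    simp [finrank_pi_fintype, mul_comm]
  have hn4 : 4 * x * (d * W : ℕ) ≤ 1 := by
    push_cast
    rw [hx]; linarith
  have x1 : x ≤ 1 / 2 := by
    rcases Nat.eq_zero_or_pos (d * W) with h | h
    · have : (d : ℝ) * W = 0 := by exact_mod_cast h
      rw [hx, this]; norm_num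
    · have : (1 : ℝ) ≤ (d * W : ℕ) := by exact_mod_cast h
      nlinarith
  let j : ℕ → R d := fun t => if t = L then v else 0
  have ρ0 : 0 ≤ ρ := (norm_nonneg _).trans hv
  have hu : 2 * ‖Z j‖ ≤ r' / 2 := by
    have := Z2 j 0 ρ ρ0 fun t _ _ => by
      simp only [j, Pi.zero_apply, sub_zero]
      split_ifs
      · exact hv
      · simpa using ρ0
    rw [Z3, sub_zero] at this
    linarith
  let SA : Set (Fin W → R d) := {η | ev η 0 ∈ P ∧
      ∀ t, t + 1 < W → ‖ev η (t + 1) - s (ev η t) - (0 : ℕ → R d) (t + 1)‖ ≤ σ}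
  let SB : Set (Fin W → R d) := {η | ev η 0 ∈ Q ∧
      ∀ t, t + 1 < W → ‖ev η (t + 1) - s (ev η t) - j (t + 1)‖ ≤ σ}
  have closeA : ∀ η ∈ SA, ∀ t < W, ‖s^[t] (ev η 0) - ev η t‖ ≤ r' / 4 := by
    intro η hη
    refine gron s W (fun t => s^[t] ξ) (fun t => s^[t] (ev η 0)) (ev η) Λ σ (4 * r) _ Λ0 σ0.le
      lip rfl σ1 (fun t ht => ?_) (fun t ht => ?_)
    · have := hP _ hη.1 t ht
      rw [dist_eq_norm] at this
      linarith
    · have := hη.2 t ht
      rw [Function.iterate_succ_apply', sub_self, zero_sub, norm_neg]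
      simpa using this
  have nearA : ∀ η ∈ SA, dist η ξv ≤ r + r' / 4 := by
    intro η hη
    refine (dist_pi_le_iff (by positivity)).2 fun t => ?_
    have e1 := closeA η hη t t.isLt
    have e2 := hP _ hη.1 t t.isLt
    rw [ev_coe, ← dist_eq_norm] at e1
    have := dist_triangle_left (η t) (ξv t) (s^[t] (ev η 0))
    exact this.trans (by simp only [ξv]; linarith)
  have main := near_id (volume : Measure (Fin W → R d)) G T SA SB x x0 x1 (by rw [fr]; exact hn4)
    hG (fun η hη => by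
      have := nearA η hη
      simp only [T, mem_ball]; linarith) (Z j) (by
    intro a ha
    have na := nearA a ha
    have sub : closedBall a (r' / 2) ⊆ T := by
      intro b hb
      have := dist_triangle b a ξv
      rw [mem_closedBall] at hb
      simp only [T, mem_ball]; linarith
    obtain ⟨b, hb, e⟩ := exists_solve G T x x0 x1 hG a (Z j) (r' / 2) sub hu
    have db : ∀ t, t + 1 < W → ‖ev b (t + 1) - s (ev b t) - j (t + 1)‖ ≤ σ := by
      intro t ht
      have e1 := Gdef b t ht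
      rw [e, ev_add, ev_add, Z1 _ _ ht, map_add] at e1
      have e2 := Gdef a t ht
      have e3 := ha.2 t ht
      rw [← e1]
      rw [← e2] at e3
      convert e3 using 2
      simp only [Pi.zero_apply]
      abel
    have nb : ∀ t, ‖ev b t - ev a t‖ ≤ r' / 2 := by
      intro t
      rw [← ev_sub]
      exact (norm_ev_le _ _).trans (by rwa [← dist_eq_norm])
    refine ⟨b, ⟨⟨hPQ _ ha.1 _ fun t ht => ?_, db⟩, sub hb⟩, e⟩
    have c2 := gron s W (fun t => s^[t] ξ) (ev b) (porb s L v (ev b 0)) Λ σ (4 * r) _ Λ0 σ0.le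
      lip rfl σ1 (fun t ht => by
        have e1 := nb t
        have e2 : ‖ev a t - s^[t] ξ‖ ≤ r + r' / 4 := by
          rw [ev_lt _ ht, ← dist_eq_norm]
          exact (dist_le_pi_dist a ξv ⟨t, ht⟩).trans na
        have := norm_sub_le_norm_sub_add_norm_sub (ev b t) (ev a t) (s^[t] ξ)
        linarith) (fun t ht => by
        have := db t ht
        have e : porb s L v (ev b 0) (t + 1) - s (porb s L v (ev b 0) t) = j (t + 1) := by
          simp [porb, j]
        rwa [e]) t ht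
    have e1 := nb t
    have e2 := closeA a ha t ht
    rw [← dist_eq_norm] at c2 e1 e2
    have t1 := dist_triangle_left (porb s L v (ev b 0) t) (s^[t] (ev a 0)) (ev b t)
    have t2 := dist_triangle (ev b t) (ev a t) (s^[t] (ev a 0))
    rw [dist_comm] at e2
    linarith)
  rw [vol_tri s hs P mP 0 σ, vol_tri s hs Q mQ j σ, ← mul_assoc] at main
  have p0 : volume (closedBall (0 : R d) σ) ^ n ≠ 0 :=
    pow_ne_zero _ (measure_closedBall_pos _ _ σ0).ne'
  have p1 : volume (closedBall (0 : R d) σ) ^ n ≠ ⊤ :=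
    ENNReal.pow_ne_top measure_closedBall_lt_top.ne
  exact (ENNReal.mul_le_mul_iff_left p0 p1).1 main

end Vale.Agent.P109.N
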