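import Vale.Agent.P109.N.Flat

/-! P109: general lemmas for the shadowing step. -/

open MeasureTheory Set Metric Module
open scoped NNReal ENNReal

noncomputable section

namespace Vale.Agent.P109.N

section general

variable {V : Type} [NormedAddCommGroup V] [NormedSpace ℝ V] [FiniteDimensional ℝ V]
  [MeasurableSpace V] [BorelSpace V]

theorem lip_image (μ : Measure V) [μ.IsAddHaarMeasure] {K : ℝ≥0} {f : V → V} {s : Set V}
    (h : LipschitzOnWith K f s) : μ (f '' s) ≤ (K : ℝ≥0∞) ^ finrank ℝ V * μ s := by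
  have e := Measure.isAddLeftInvariant_eq_smul μ (μH[finrank ℝ V] : Measure V)
  have h1 := h.hausdorffMeasure_image_le (d := finrank ℝ V) (by positivity)
  rw [ENNReal.rpow_natCast] at h1
  rw [e]
  simp only [Measure.smul_apply, ENNReal.smul_def, smul_eq_mul]
  rw [mul_left_comm]
  gcongr

theorem near_id (μ : Measure V) [μ.IsAddHaarMeasure] (G : V → V) (T A B : Set V) (x : ℝ)
    (hx0 : 0 ≤ x) (hx : x ≤ 1 / 2) (hn : 4 * x * finrank ℝ V ≤ 1)
    (hG : ∀ a ∈ T, ∀ b ∈ T, ‖G a - G b - (a - b)‖ ≤ x * ‖a - b‖) (hA : A ⊆ T) (u : V)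
    (h : ∀ a ∈ A, ∃ b ∈ B ∩ T, G b = G a + u) : μ A ≤ 3 * μ B := by
  classical
  have lo : ∀ a ∈ T, ∀ b ∈ T, (1 - x) * ‖a - b‖ ≤ ‖G a - G b‖ := by
    intro a ha b hb
    have := hG a ha b hb
    have h2 : ‖a - b‖ ≤ ‖G a - G b‖ + ‖G a - G b - (a - b)‖ := by
      calc ‖a - b‖ = ‖(G a - G b) - (G a - G b - (a - b))‖ := by congr 1; abel
        _ ≤ _ := norm_sub_le _ _
    linarith
  have up : ∀ a ∈ T, ∀ b ∈ T, ‖G a - G b‖ ≤ (1 + x) * ‖a - b‖ := by
    intro a ha b hb
    have := hG a ha b hb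
    have h2 : ‖G a - G b‖ ≤ ‖a - b‖ + ‖G a - G b - (a - b)‖ := by
      calc ‖G a - G b‖ = ‖(a - b) + (G a - G b - (a - b))‖ := by congr 1; abel
        _ ≤ _ := norm_add_le _ _
    linarith
  let f : V → V := fun b => if hb : ∃ a ∈ A, G b = G a + u then hb.choose else 0
  let B' : Set V := {b | b ∈ B ∩ T ∧ ∃ a ∈ A, G b = G a + u}
  have hf : ∀ b ∈ B', f b ∈ A ∧ G b = G (f b) + u := by
    intro b hb
    have := hb.2
    simp only [f, dif_pos this]
    exact this.choose_spec
  let K : ℝ≥0 := ⟨1 + 4 * x, by positivity⟩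
  have hl : LipschitzOnWith K f B' := by
    refine LipschitzOnWith.of_dist_le_mul fun b hb b' hb' => ?_
    obtain ⟨h1, h2⟩ := hf b hb
    obtain ⟨h3, h4⟩ := hf b' hb'
    have e1 := lo _ (hA h1) _ (hA h3)
    have e2 := up _ hb.1.2 _ hb'.1.2
    have e3 : G (f b) - G (f b') = G b - G b' := by rw [h2, h4]; abel
    rw [e3] at e1
    rw [dist_eq_norm, dist_eq_norm]
    change _ ≤ (1 + 4 * x) * _
    have p := norm_nonneg (b - b')
    have q := norm_nonneg (f b - f b')
    have hx1 : 0 < 1 - x := by linarith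
    refine le_of_mul_le_mul_left ?_ hx1
    have : (1 + x) * ‖b - b'‖ ≤ (1 - x) * ((1 + 4 * x) * ‖b - b'‖) := by
      have : 0 ≤ x * (1 - 2 * x) * ‖b - b'‖ := by
        have : 0 ≤ 1 - 2 * x := by linarith
        positivity
      nlinarith
    linarith
  have hs : A ⊆ f '' B' := by
    intro a ha
    obtain ⟨b, hb, e⟩ := h a ha
    have hb' : b ∈ B' := ⟨hb, a, ha, e⟩
    obtain ⟨h1, h2⟩ := hf b hb'
    refine ⟨b, hb', ?_⟩
    have e1 := lo _ (hA h1) _ (hA ha)
    have : G (f b) - G a = 0 := by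
      have : G (f b) + u = G a + u := by rw [← h2, e]
      rw [add_right_cancel this, sub_self]
    rw [this, norm_zero] at e1
    have q := norm_nonneg (f b - a)
    have : ‖f b - a‖ = 0 := by nlinarith
    exact sub_eq_zero.1 (norm_eq_zero.1 this)
  have hK : (K : ℝ≥0∞) ^ finrank ℝ V ≤ 3 := by
    have : K ^ finrank ℝ V ≤ 3 := by
      rw [← NNReal.coe_le_coe]
      push_cast
      change (1 + 4 * x) ^ _ ≤ _
      calc (1 + 4 * x) ^ finrank ℝ V ≤ (Real.exp (4 * x)) ^ finrank ℝ V := by
            gcongr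
            linarith [Real.add_one_le_exp (4 * x)]
        _ = Real.exp (4 * x * finrank ℝ V) := by rw [← Real.exp_nat_mul]; ring_nf
        _ ≤ Real.exp 1 := by gcongr
        _ ≤ 3 := by linarith [Real.exp_one_lt_d9]
    exact_mod_cast this
  calc μ A ≤ μ (f '' B') := measure_mono hs
    _ ≤ (K : ℝ≥0∞) ^ finrank ℝ V * μ B' := lip_image μ hl
    _ ≤ 3 * μ B := by
      gcongr
      exact fun b hb => hb.1.1

omit [MeasurableSpace V] [BorelSpace V] in
theorem exists_solve (G : V → V) (T : Set V) (x : ℝ) (hx0 : 0 ≤ x) (hx : x ≤ 1 / 2)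
    (hG : ∀ a ∈ T, ∀ b ∈ T, ‖G a - G b - (a - b)‖ ≤ x * ‖a - b‖) (a u : V) (ε : ℝ)
    (hε : closedBall a ε ⊆ T) (hu : 2 * ‖u‖ ≤ ε) : ∃ b ∈ closedBall a ε, G b = G a + u := by
  have := FiniteDimensional.complete ℝ V
  have h0 : 0 ≤ ε := le_trans (by positivity) hu
  have hf : ApproximatesLinearOn G (ContinuousLinearMap.id ℝ V) T ⟨x, hx0⟩ :=
    fun a ha b hb => hG a ha b hb
  let inv : (ContinuousLinearMap.id ℝ V).NonlinearRightInverse :=
    ⟨id, 1, fun y => by simp, fun y => rfl⟩
  have := hf.surjOn_closedBall_of_nonlinearRightInverse inv h0 hε (a := G a + u) (by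
    rw [mem_closedBall, dist_eq_norm, add_sub_cancel_left]
    change _ ≤ (((1 : ℝ≥0) : ℝ)⁻¹ - x) * ε
    simp only [NNReal.coe_one, inv_one]
    nlinarith)
  exact this

end general

/-- a finite sequence extended by zero -/
def ev {d W : ℕ} (η : Fin W → R d) (t : ℕ) : R d := if h : t < W then η ⟨t, h⟩ else 0

theorem measurable_ev {d W : ℕ} (t : ℕ) : Measurable fun η : Fin W → R d => ev η t := by
  unfold ev
  split_ifs
  · exact measurable_pi_apply _
  · exact measurable_const

theorem ev_coe {d W : ℕ} (η : Fin W → R d) (t : Fin W) : ev η t = η t := by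
  simp [ev]

theorem ev_lt {d W : ℕ} (η : Fin W → R d) {t : ℕ} (h : t < W) : ev η t = η ⟨t, h⟩ := by
  simp [ev, h]

theorem ev_sub {d W : ℕ} (η η' : Fin W → R d) (t : ℕ) : ev (η - η') t = ev η t - ev η' t := by
  unfold ev; split_ifs <;> simp

theorem ev_add {d W : ℕ} (η η' : Fin W → R d) (t : ℕ) : ev (η + η') t = ev η t + ev η' t := by
  unfold ev; split_ifs <;> simp

theorem norm_ev_le {d W : ℕ} (η : Fin W → R d) (t : ℕ) : ‖ev η t‖ ≤ ‖η‖ := by
  unfold ev; split_ifs
  · exact norm_le_pi_norm _ _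
  · simp

theorem shear_mp {d W : ℕ} (i : Fin W) (φ : (Fin W → R d) → R d) (hφ : Measurable φ)
    (hi : ∀ η y, φ (Function.update η i y) = φ η) :
    MeasurePreserving (fun η => Function.update η i (η i - φ η)) volume volume := by
  have hm : Measurable fun η : Fin W → R d => Function.update η i (η i - φ η) :=
    measurable_update'.comp (measurable_id.prodMk ((measurable_pi_apply i).sub hφ))
  refine ⟨hm, ?_⟩
  ext A hA
  rw [Measure.map_apply hm hA, ← lintegral_indicator_one hA, ← lintegral_indicator_one (hm hA)]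
  refine lintegral_eq_of_lmarginal_eq {i} (measurable_one.indicator (hm hA))
    (measurable_one.indicator hA) ?_
  rw [lmarginal_singleton, lmarginal_singleton]
  ext x
  have := lintegral_sub_right_eq_self (μ := (volume : Measure (R d)))
    (fun y => A.indicator (1 : (Fin W → R d) → ℝ≥0∞) (Function.update x i y)) (φ x)
  rw [← this]
  refine lintegral_congr fun y => ?_
  have e : Function.update x i y ∈ (fun η => Function.update η i (η i - φ η)) ⁻¹' A ↔
      Function.update x i (y - φ x) ∈ A := by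
    simp only [mem_preimage, hi, Function.update_self, Function.update_idem]
  by_cases h : Function.update x i (y - φ x) ∈ A
  · rw [indicator_of_mem h, indicator_of_mem (e.2 h)]; rfl
  · rw [indicator_of_notMem h, indicator_of_notMem (fun h' => h (e.1 h'))]

/-- initial point and defects of a finite sequence -/
def tri {d W : ℕ} (s : R d → R d) (k : ℕ) (η : Fin W → R d) : Fin W → R d :=
  fun t => if 0 < t.val ∧ t.val < k then η t - s (ev η (t.val - 1)) else η t

theorem tri_mp {d W : ℕ} (s : R d → R d) (hs : Measurable s) (k : ℕ) :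
    MeasurePreserving (tri (W := W) s k) volume volume := by
  induction k with
  | zero =>
    have : tri (W := W) s 0 = id := by
      ext η t : 2; simp [tri]
    rw [this]; exact MeasurePreserving.id _
  | succ k ih =>
    by_cases hk : 0 < k ∧ k < W
    · have h1 := shear_mp (⟨k, hk.2⟩ : Fin W) (fun η => s (ev η (k - 1)))
        (hs.comp (measurable_ev _)) (by
          intro η y
          have : k - 1 < W := by omega
          rw [ev_lt _ this, ev_lt _ this, Function.update_of_ne]
          intro h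
          have := congrArg Fin.val h
          simp at this; omega)
      convert ih.comp h1 using 1
      ext η t : 2
      simp only [tri, Function.comp]
      by_cases ht : t = ⟨k, hk.2⟩
      · subst ht
        simp [hk.1]
      · have ht' : t.val ≠ k := fun h => ht (Fin.ext h)
        rw [Function.update_of_ne ht]
        by_cases h2 : 0 < t.val ∧ t.val < k
        · have h3 : t.val - 1 < W := by omega
          rw [if_pos h2, if_pos ⟨h2.1, by omega⟩, ev_lt _ h3, ev_lt _ h3, Function.update_of_ne]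
          intro h
          have := congrArg Fin.val h
          simp at this; omega
        · rw [if_neg h2, if_neg (by omega)]
    · convert ih using 1
      ext η t : 2
      have := t.isLt
      simp only [tri]
      by_cases h2 : 0 < t.val ∧ t.val < k
      · rw [if_pos h2, if_pos ⟨h2.1, by omega⟩]
      · rw [if_neg h2, if_neg (by omega)]

/-- pseudo-orbits with the same initial point and close defects stay close -/
theorem gron {E : Type} [NormedAddCommGroup E] (s : E → E) (W : ℕ) (ξ a b : ℕ → E)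
    (Λ σ ρ ε : ℝ) (hΛ : 0 ≤ Λ) (hσ : 0 ≤ σ)
    (hl : ∀ t < W, ∀ y ∈ ball (ξ t) ρ, ∀ y' ∈ ball (ξ t) ρ, ‖s y - s y'‖ ≤ Λ * ‖y - y'‖)
    (h0 : a 0 = b 0) (hε : σ * (Λ + 1) ^ W ≤ ε) (ha : ∀ t < W, ‖a t - ξ t‖ + ε < ρ)
    (hd : ∀ t, t + 1 < W → ‖a (t + 1) - s (a t) - (b (t + 1) - s (b t))‖ ≤ σ) :
    ∀ t < W, ‖a t - b t‖ ≤ ε := by
  have mono : ∀ t < W, σ * (Λ + 1) ^ t ≤ ε := fun t ht => le_trans (by
    gcongr
    linarith) hε
  have key : ∀ t < W, ‖a t - b t‖ ≤ σ * (Λ + 1) ^ t := by
    intro t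
    induction t with
    | zero => intro _; simp [h0, hσ]
    | succ t ih =>
      intro ht
      have ht' : t < W := by omega
      have i1 := ih ht'
      have i2 := mono t ht'
      have i3 := ha t ht'
      have e0 : 0 ≤ ε := le_trans (by positivity) i2
      have m1 : a t ∈ ball (ξ t) ρ := by rw [mem_ball, dist_eq_norm]; linarith
      have m2 : b t ∈ ball (ξ t) ρ := by
        rw [mem_ball, dist_eq_norm]
        have : ‖b t - ξ t‖ ≤ ‖a t - ξ t‖ + ‖a t - b t‖ := by
          calc ‖b t - ξ t‖ = ‖(a t - ξ t) - (a t - b t)‖ := by congr 1; abel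
            _ ≤ _ := norm_sub_le _ _
        linarith
      have i4 := hl t ht' _ m1 _ m2
      have i5 := hd t ht
      have : ‖a (t + 1) - b (t + 1)‖ ≤
          ‖a (t + 1) - s (a t) - (b (t + 1) - s (b t))‖ + ‖s (a t) - s (b t)‖ := by
        calc ‖a (t + 1) - b (t + 1)‖
            = ‖(a (t + 1) - s (a t) - (b (t + 1) - s (b t))) + (s (a t) - s (b t))‖ := by
              congr 1; abel
          _ ≤ _ := norm_add_le _ _
      have i6 : Λ * ‖a t - b t‖ ≤ Λ * (σ * (Λ + 1) ^ t) := by gcongr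
      have i7 : 1 ≤ (Λ + 1) ^ t := one_le_pow₀ (by linarith)
      have i8 : σ * 1 ≤ σ * (Λ + 1) ^ t := by gcongr
      rw [pow_succ]
      nlinarith
  exact fun t ht => (key t ht).trans (mono t ht)

end Vale.Agent.P109.N
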