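import Vale.Agent.P109.N.Flat

/-! P109: analytic and volume lemmas for `ToFlat`. -/

open MeasureTheory Set Metric Filter Topology

namespace Vale.Agent.P109.N

/-- uniform `C^{1,1}` bounds near the point `z`, within `D` -/
def UAt {d : ℕ} (D : Set (R d)) (G : R d → R d) (Q : R d → Prop) (r L : ℝ) (z : R d) : Prop :=
  ‖fderivWithin ℝ G D z‖ ≤ L ∧ ∀ y ∈ D, dist y z < r → Q y ∧ DifferentiableWithinAt ℝ G D y ∧
    dist (G y) (G z) ≤ L * dist y z ∧
    ‖fderivWithin ℝ G D y - fderivWithin ℝ G D z‖ ≤ L * dist y z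

lemma UAt.mono {d : ℕ} {D : Set (R d)} {G : R d → R d} {Q : R d → Prop} {r L r' L' : ℝ} {z : R d}
    (h : UAt D G Q r L z) (hr : r' ≤ r) (hL : L ≤ L') : UAt D G Q r' L' z := by
  refine ⟨h.1.trans hL, fun y hy hyz => ?_⟩
  obtain ⟨h1, h2, h3, h4⟩ := h.2 y hy (hyz.trans_le hr)
  exact ⟨h1, h2, h3.trans (by gcongr), h4.trans (by gcongr)⟩

lemma exists_uat {d : ℕ} {D K : Set (R d)} (hD : Convex ℝ D) (hu : UniqueDiffOn ℝ D)
    (hK : IsCompact K) (hKD : K ⊆ D) {G : R d → R d} {Q : R d → Prop}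
    (hG : ∀ z ∈ K, ContDiffWithinAt ℝ 2 G D z) (hQ : ∀ z ∈ K, ∀ᶠ y in 𝓝[D] z, Q y) :
    ∃ r, 0 < r ∧ ∃ L, ∀ z ∈ K, UAt D G Q r L z := by
  suffices h : ∃ r, 0 < r ∧ ∃ L, ∀ z ∈ K, z ∈ D → UAt D G Q r L z by
    obtain ⟨r, hr, L, h⟩ := h
    exact ⟨r, hr, L, fun z hz => h z hz (hKD hz)⟩
  refine hK.induction_on (p := fun s => ∃ r, 0 < r ∧ ∃ L, ∀ z ∈ s, z ∈ D → UAt D G Q r L z)
    ⟨1, one_pos, 0, fun z hz => absurd hz (notMem_empty z)⟩ ?_ ?_ ?_
  · rintro s t hst ⟨r, hr, L, h⟩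
    exact ⟨r, hr, L, fun z hz => h z (hst hz)⟩
  · rintro s t ⟨r, hr, L, h⟩ ⟨r', hr', L', h'⟩
    refine ⟨min r r', lt_min hr hr', max L L', ?_⟩
    rintro z (hz | hz) hzD
    · exact (h z hz hzD).mono (min_le_left _ _) (le_max_left _ _)
    · exact (h' z hz hzD).mono (min_le_right _ _) (le_max_right _ _)
  · intro x hx
    have hxD := hKD hx
    have h1 : ContDiffWithinAt ℝ 1 G D x := (hG x hx).of_le (by norm_num)
    have h2 : ContDiffWithinAt ℝ 1 (fderivWithin ℝ G D) D x :=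
      (hG x hx).fderivWithin_right hu (by norm_num) hxD
    obtain ⟨K1, t1, ht1, hl1⟩ := h1.exists_lipschitzOnWith hD
    obtain ⟨K2, t2, ht2, hl2⟩ := h2.exists_lipschitzOnWith hD
    have h3 := h1.eventually (by simp)
    rw [insert_eq_of_mem hxD] at h3
    have h4 : ∀ᶠ y in 𝓝[D] x, y ∈ t1 ∧ y ∈ t2 ∧ ContDiffWithinAt ℝ 1 G D y ∧ Q y :=
      Filter.Eventually.and ht1 (Filter.Eventually.and ht2 (h3.and (hQ x hx)))
    obtain ⟨ε, hε, hsub⟩ := Metric.mem_nhdsWithin_iff.1 h4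
    refine ⟨ball x (ε / 2), mem_nhdsWithin_of_mem_nhds (ball_mem_nhds x (by positivity)),
      ε / 2, by positivity, ‖fderivWithin ℝ G D x‖ + K2 * ε + K1 + K2, fun z hz hzD => ?_⟩
    have hz' : dist z x < ε / 2 := hz
    have hzε : z ∈ ball x ε ∩ D := ⟨mem_ball.2 (by linarith), hzD⟩
    have hxε : x ∈ ball x ε ∩ D := ⟨mem_ball_self hε, hxD⟩
    have k1 : (0 : ℝ) ≤ K1 := K1.2
    have k2 : (0 : ℝ) ≤ K2 := K2.2
    have n0 := norm_nonneg (fderivWithin ℝ G D x)
    have kε : 0 ≤ (K2 : ℝ) * ε := by positivity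
    refine ⟨?_, fun y hy hyz => ?_⟩
    · have := hl2.dist_le_mul z (hsub hzε).2.1 x (hsub hxε).2.1
      rw [dist_eq_norm] at this
      have h5 := norm_le_norm_add_norm_sub' (fderivWithin ℝ G D z) (fderivWithin ℝ G D x)
      have h6 : (K2 : ℝ) * dist z x ≤ K2 * ε := by gcongr; linarith
      linarith
    · have hyε : y ∈ ball x ε ∩ D :=
        ⟨mem_ball.2 (by linarith [dist_triangle y z x]), hy⟩
      obtain ⟨a1, a2, a3, a4⟩ := hsub hyε
      refine ⟨a4, a3.differentiableWithinAt (by norm_num), ?_, ?_⟩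
      · refine (hl1.dist_le_mul y a1 z (hsub hzε).1).trans ?_
        gcongr; linarith
      · rw [← dist_eq_norm]
        refine (hl2.dist_le_mul y a2 z (hsub hzε).2.1).trans ?_
        gcongr; linarith

/-- the boundary layer of a convex body -/
lemma vol_layer {d : ℕ} {D : Set (R d)} (hD : Convex ℝ D) (hfin : volume D ≠ ⊤) {a : R d} {σ : ℝ}
    (hσ : 0 < σ) (ha : ball a σ ⊆ D) :
    ∃ C, 0 ≤ C ∧ ∀ w, 0 < w → volume {z | z ∈ D ∧ ¬ball z w ⊆ D} ≤ ENNReal.ofReal (C * w) := by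
  set V := (volume D).toReal with hV
  have hV0 : 0 ≤ V := ENNReal.toReal_nonneg
  have hVe : volume D = ENNReal.ofReal V := (ENNReal.ofReal_toReal hfin).symm
  refine ⟨(d + 1) * V / σ, by positivity, fun w hw => ?_⟩
  by_cases hwσ : σ ≤ w
  · refine (measure_mono fun z hz => hz.1).trans ?_
    rw [hVe]
    refine ENNReal.ofReal_le_ofReal ?_
    rw [div_mul_eq_mul_div, le_div_iff₀ hσ]
    have : (0 : ℝ) ≤ d := by positivity
    nlinarith [mul_le_mul_of_nonneg_left hwσ hV0, mul_nonneg (mul_nonneg this hV0) hw.le]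
  push Not at hwσ
  set t := w / σ with ht
  have ht0 : 0 < t := by positivity
  have ht1 : t < 1 := (div_lt_one hσ).2 hwσ
  have hw' : w = t * σ := by rw [ht]; field_simp
  let Hh := AffineMap.homothety a (1 - t) '' D
  have key : ∀ z ∈ Hh, ball z w ⊆ D := by
    rintro _ ⟨p, hp, rfl⟩ y hy
    have h1 : a + t⁻¹ • (y - AffineMap.homothety a (1 - t) p) ∈ D := by
      refine ha ?_
      rw [mem_ball, dist_eq_norm, add_sub_cancel_left, norm_smul, Real.norm_eq_abs,
        abs_of_pos (inv_pos.2 ht0), ← dist_eq_norm, inv_mul_lt_iff₀ ht0, ← hw']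
      exact hy
    have h2 := hD hp h1 (by linarith : 0 ≤ 1 - t) ht0.le (by ring)
    have e : (1 - t) • p + t • (a + t⁻¹ • (y - AffineMap.homothety a (1 - t) p)) = y := by
      rw [smul_add, smul_smul, mul_inv_cancel₀ ht0.ne', one_smul, AffineMap.homothety_apply]
      simp only [vsub_eq_sub, vadd_eq_add]
      module
    rwa [e] at h2
  have hHD : Hh ⊆ D := fun z hz => key z hz (mem_ball_self hw)
  have hHc : Convex ℝ Hh := hD.affine_image _
  have hvol : volume Hh = ENNReal.ofReal ((1 - t) ^ d * V) := by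
    rw [Measure.addHaar_image_homothety, hVe, Module.finrank_fin_fun,
      abs_of_nonneg (pow_nonneg (by linarith) _),
      ENNReal.ofReal_mul (pow_nonneg (by linarith) _)]
  calc volume {z | z ∈ D ∧ ¬ball z w ⊆ D} ≤ volume (D \ Hh) :=
        measure_mono fun z hz => ⟨hz.1, fun h => hz.2 (key z h)⟩
    _ = volume D - volume Hh :=
        measure_sdiff hHD (hHc.nullMeasurableSet _) (ne_top_of_le_ne_top hfin (measure_mono hHD))
    _ = ENNReal.ofReal (V - (1 - t) ^ d * V) := by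
        rw [hvol, hVe, ENNReal.ofReal_sub _ (mul_nonneg (pow_nonneg (by linarith) _) hV0)]
    _ ≤ _ := by
        refine ENNReal.ofReal_le_ofReal ?_
        have h1 := one_add_mul_sub_le_pow (a := 1 - t) (by linarith) d
        have e : (d + 1) * V / σ * w = (d + 1) * V * t := by rw [ht]; ring
        rw [e]
        nlinarith [mul_le_mul_of_nonneg_right h1 hV0, mul_nonneg hV0 ht0.le]

/-- thin shells -/
lemma vol_shell {d : ℕ} (c : R d) {ρ δ : ℝ} (hρ : 0 < ρ) (hδ : 0 ≤ δ) (hδρ : δ ≤ ρ) :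
    volume (closedBall c (ρ + δ) \ ball c ρ) ≤
      ENNReal.ofReal (2 * d * (4 * ρ) ^ (d - 1) * δ) := by
  rw [measure_sdiff (ball_subset_closedBall.trans (closedBall_subset_closedBall (by linarith)))
    measurableSet_ball.nullMeasurableSet measure_ball_lt_top.ne,
    Real.volume_pi_closedBall _ (by linarith), Real.volume_pi_ball _ hρ, Fintype.card_fin,
    ← ENNReal.ofReal_sub _ (by positivity)]
  refine ENNReal.ofReal_le_ofReal ((le_abs_self _).trans ((abs_pow_sub_pow_le _ _ _).trans ?_))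
  have e : |2 * (ρ + δ) - 2 * ρ| = 2 * δ := by
    rw [abs_of_nonneg (by linarith)]; ring
  have h : max |2 * (ρ + δ)| |2 * ρ| ≤ 4 * ρ := by
    rw [abs_of_nonneg (by linarith), abs_of_nonneg (by linarith)]
    exact max_le (by linarith) (by linarith)
  rw [e]
  calc 2 * δ * d * max |2 * (ρ + δ)| |2 * ρ| ^ (d - 1) ≤ 2 * δ * d * (4 * ρ) ^ (d - 1) := by
        gcongr
    _ = _ := by ring

end Vale.Agent.P109.N
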