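import Vale.Agent.P109.N.ToFlat1

/-! P109: finite atlases with values in `R d`, robust points. -/

open MeasureTheory Set Metric Filter Topology

namespace Vale.Agent.P109.N

/-- a finite atlas with a convex model -/
structure Atl (d : ℕ) (M : Type*) [TopologicalSpace M] (N : ℕ) where
  Rg : Set (R d)
  χ : Fin N → M → R d
  η : Fin N → R d → M
  src : Fin N → Set M
  ctr : Fin N → R d
  ρ : Fin N → ℝ
  convex : Convex ℝ Rg
  closed : IsClosed Rg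
  int : (interior Rg).Nonempty
  ρ_pos : ∀ i, 0 < ρ i
  ctr_mem : ∀ i, ctr i ∈ Rg
  src_open : ∀ i, IsOpen (src i)
  χ_cont : ∀ i, ContinuousOn (χ i) (src i)
  η_cont : ∀ i, ContinuousOn (η i) (Rg ∩ closedBall (ctr i) (2 * ρ i))
  left : ∀ i, ∀ y ∈ src i, η i (χ i y) = y
  mem : ∀ i, ∀ y ∈ src i, χ i y ∈ Rg
  right_mem : ∀ i, ∀ z ∈ Rg ∩ closedBall (ctr i) (2 * ρ i), η i z ∈ src i
  right : ∀ i, ∀ z ∈ Rg ∩ closedBall (ctr i) (2 * ρ i), χ i (η i z) = z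
  cover : ∀ y, ∃ i, y ∈ src i ∧ dist (χ i y) (ctr i) < ρ i

namespace Atl

variable {d N : ℕ} {M : Type*} [TopologicalSpace M] (A : Atl d M N)

def U (i : Fin N) : Set M := {y | y ∈ A.src i ∧ dist (A.χ i y) (A.ctr i) < A.ρ i}
def D (i : Fin N) : Set (R d) := A.Rg ∩ ball (A.ctr i) (A.ρ i)
def D2 (i : Fin N) : Set (R d) := A.Rg ∩ closedBall (A.ctr i) (2 * A.ρ i)
def V (i : Fin N) : Set M := {y | y ∈ A.U i ∧ ∀ k, k < i → y ∉ A.U k}

def Sm (g : M → M) : Prop :=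
  Continuous g ∧ ∀ i j, ∀ z ∈ A.D2 i, g (A.η i z) ∈ A.src j →
    ContDiffWithinAt ℝ 2 (A.χ j ∘ g ∘ A.η i) A.Rg z ∧
      ∀ᶠ z' in 𝓝[A.Rg] z, g (A.η i z') ∈ A.src j

def Unif (g : M → M) (r L : ℝ) : Prop :=
  ∀ i j, ∀ y ∈ A.U i, g y ∈ A.U j →
    UAt A.Rg (A.χ j ∘ g ∘ A.η i) (fun z => g (A.η i z) ∈ A.src j) r L (A.χ i y)

def Rob (L : ℝ) (i : Fin N) (w : ℝ) (y : M) : Prop :=
  ball (A.χ i y) w ⊆ A.D i ∧ ∀ k, y ∈ A.src k →
    ¬(A.ρ k ≤ dist (A.χ k y) (A.ctr k) ∧ dist (A.χ k y) (A.ctr k) ≤ A.ρ k + L * w)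

def NR (L w : ℝ) : Set M := {y | ∃ i, y ∈ A.V i ∧ ¬A.Rob L i w y}

lemma D_sub (i : Fin N) : A.D i ⊆ A.D2 i := fun _ hz =>
  ⟨hz.1, ball_subset_closedBall (ball_subset_ball (by linarith [A.ρ_pos i]) hz.2)⟩

lemma χ_mem_D {i : Fin N} {y : M} (hy : y ∈ A.U i) : A.χ i y ∈ A.D i := ⟨A.mem i y hy.1, hy.2⟩

lemma η_mem_U {i : Fin N} {z : R d} (hz : z ∈ A.D i) : A.η i z ∈ A.U i :=
  ⟨A.right_mem i z (A.D_sub i hz), by rw [A.right i z (A.D_sub i hz)]; exact hz.2⟩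

lemma U_open (i : Fin N) : IsOpen (A.U i) :=
  (A.χ_cont i).isOpen_inter_preimage (A.src_open i) (isOpen_ball (x := A.ctr i) (ε := A.ρ i))

lemma exists_V (y : M) : ∃ i, y ∈ A.V i := by
  classical
  obtain ⟨i0, hi0⟩ := A.cover y
  obtain ⟨i, hi, hmin⟩ := Finset.exists_min_image (Finset.univ.filter fun i => y ∈ A.U i) id
    ⟨i0, Finset.mem_filter.2 ⟨Finset.mem_univ _, hi0⟩⟩
  refine ⟨i, (Finset.mem_filter.1 hi).2, fun k hk hy => ?_⟩
  exact absurd (hmin k (Finset.mem_filter.2 ⟨Finset.mem_univ _, hy⟩)) (not_le.2 hk)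

lemma V_unique {i j : Fin N} {y : M} (hi : y ∈ A.V i) (hj : y ∈ A.V j) : i = j := by
  rcases lt_trichotomy i j with h | h | h
  · exact absurd hi.1 (hj.2 i h)
  · exact h
  · exact absurd hj.1 (hi.2 j h)

lemma V_meas [MeasurableSpace M] [BorelSpace M] (i : Fin N) : MeasurableSet (A.V i) := by
  have : A.V i = A.U i ∩ ⋂ k, ⋂ (_ : k < i), (A.U k)ᶜ := by
    ext y; simp [V]
  rw [this]
  exact (A.U_open i).measurableSet.inter (MeasurableSet.iInter fun k =>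
    MeasurableSet.iInter fun _ => (A.U_open k).measurableSet.compl)

lemma D_meas (i : Fin N) : MeasurableSet (A.D i) :=
  A.closed.measurableSet.inter measurableSet_ball

lemma D2_compact (i : Fin N) : IsCompact (A.D2 i) :=
  (isCompact_closedBall _ _).inter_left A.closed

lemma Unif.mono {A : Atl d M N} {g : M → M} {r L r' L' : ℝ} (h : A.Unif g r L) (hr : r' ≤ r)
    (hL : L ≤ L') : A.Unif g r' L' := fun i j y hy hg => (h i j y hy hg).mono hr hL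

lemma exists_unif [T2Space M] {g : M → M} (hg : A.Sm g) :
    ∃ r, 0 < r ∧ ∃ L, A.Unif g r L := by
  have hu : UniqueDiffOn ℝ A.Rg := uniqueDiffOn_convex A.convex A.int
  have h : ∀ p : Fin N × Fin N, ∃ r, 0 < r ∧ ∃ L, ∀ y ∈ A.U p.1, g y ∈ A.U p.2 →
      UAt A.Rg (A.χ p.2 ∘ g ∘ A.η p.1) (fun z => g (A.η p.1 z) ∈ A.src p.2) r L (A.χ p.1 y) := by
    rintro ⟨i, j⟩
    have hc : IsClosed (A.η j '' A.D2 j) := ((A.D2_compact j).image_of_continuousOn (A.η_cont j)).isClosed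
    have hK : IsCompact (A.D2 i ∩ (g ∘ A.η i) ⁻¹' (A.η j '' A.D2 j)) :=
      (A.D2_compact i).of_isClosed_subset
        ((hg.1.comp_continuousOn (A.η_cont i)).preimage_isClosed_of_isClosed
          (A.D2_compact i).isClosed hc) inter_subset_left
    have hs : ∀ z ∈ A.D2 i ∩ (g ∘ A.η i) ⁻¹' (A.η j '' A.D2 j), g (A.η i z) ∈ A.src j := by
      rintro z ⟨-, p, hp, e⟩
      have : g (A.η i z) = A.η j p := e.symm
      rw [this]; exact A.right_mem j p hp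
    obtain ⟨r, hr, L, h⟩ := exists_uat A.convex hu hK (fun z hz => hz.1.1)
      (fun z hz => (hg.2 i j z hz.1 (hs z hz)).1) (fun z hz => (hg.2 i j z hz.1 (hs z hz)).2)
    refine ⟨r, hr, L, fun y hy hgy => h _ ⟨A.D_sub i (A.χ_mem_D hy), A.χ j (g y),
      A.D_sub j (A.χ_mem_D hgy), ?_⟩⟩
    simp only [Function.comp_apply]
    rw [A.left j _ hgy.1, A.left i _ hy.1]
  choose r hr L h using h
  obtain ⟨r0, hr0, hr0'⟩ : ∃ r0, 0 < r0 ∧ ∀ p, r0 ≤ r p := by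
    have : ∀ᶠ x in 𝓝[>] (0 : ℝ), ∀ p, x ≤ r p :=
      eventually_all.2 fun p => mem_nhdsWithin_of_mem_nhds (Iic_mem_nhds (hr p))
    obtain ⟨x, hx1, hx2⟩ := (this.and self_mem_nhdsWithin).exists
    exact ⟨x, hx2, hx1⟩
  obtain ⟨L0, hL0⟩ := (finite_range L).bddAbove
  exact ⟨r0, hr0, L0, fun i j y hy hgy =>
    (h (i, j) y hy hgy).mono (hr0' _) (hL0 (mem_range_self _))⟩

lemma rob_V {r L w : ℝ} (hL : 0 ≤ L) (hid : A.Unif id r L) (hw : w ≤ r) {i : Fin N} {y : M}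
    (hy : y ∈ A.V i) (hR : A.Rob L i w y) {z : R d} (hz : z ∈ ball (A.χ i y) w) :
    A.η i z ∈ A.V i := by
  have hzD := hR.1 hz
  refine ⟨A.η_mem_U hzD, fun k hk hU => ?_⟩
  have h1 := hid i k _ (A.η_mem_U hzD) hU
  rw [A.right i z (A.D_sub i hzD)] at h1
  have hd : dist (A.χ i y) z < w := by rw [dist_comm]; exact hz
  obtain ⟨a1, -, a2, -⟩ := h1.2 _ (A.mem i y hy.1.1) (hd.trans_le hw)
  simp only [Function.comp_apply, id, A.left i y hy.1.1] at a1 a2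
  refine hR.2 k a1 ⟨not_lt.1 fun h => hy.2 k hk ⟨a1, h⟩, ?_⟩
  have a3 : L * dist (A.χ i y) z ≤ L * w := by gcongr
  linarith [dist_triangle (A.χ k y) (A.χ k (A.η i z)) (A.ctr k), hU.2]

lemma meas_NR [MeasurableSpace M] (ν : Measure M) {C L : ℝ} (hC : 0 ≤ C) (hL : 0 ≤ L)
    (hup : ∀ i B, B ⊆ A.D2 i → ν (A.η i '' B) ≤ ENNReal.ofReal C * volume B) :
    ∃ C0, 0 ≤ C0 ∧ ∀ w, 0 < w → (∀ k, L * w ≤ A.ρ k) → ν (A.NR L w) ≤ ENNReal.ofReal (C0 * w) := by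
  have h1 : ∀ i, ∃ C1, 0 ≤ C1 ∧ ∀ w, 0 < w →
      volume {z | z ∈ A.D i ∧ ¬ball z w ⊆ A.D i} ≤ ENNReal.ofReal (C1 * w) := by
    intro i
    have hc : A.ctr i ∈ closure (interior A.Rg) := by
      rw [A.convex.closure_interior_eq_closure_of_nonempty_interior A.int]
      exact subset_closure (A.ctr_mem i)
    obtain ⟨a, ha1, ha2⟩ := mem_closure_iff.1 hc _ isOpen_ball (mem_ball_self (A.ρ_pos i))
    obtain ⟨σ, hσ, hs⟩ := Metric.isOpen_iff.1 (isOpen_ball.inter isOpen_interior) a ⟨ha1, ha2⟩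
    exact vol_layer (A.convex.inter (convex_ball _ _))
      (ne_top_of_le_ne_top measure_ball_lt_top.ne (measure_mono inter_subset_right)) hσ
      fun z hz => ⟨interior_subset (hs hz).2, (hs hz).1⟩
  choose C1 hC1 h1 using h1
  let C2 : Fin N → ℝ := fun k => 2 * d * (4 * A.ρ k) ^ (d - 1) * L
  have hC2 : ∀ k, 0 ≤ C2 k := fun k => by have := A.ρ_pos k; positivity
  refine ⟨∑ i, C * (C1 i + C2 i), Finset.sum_nonneg fun i _ => mul_nonneg hC
    (add_nonneg (hC1 i) (hC2 i)), fun w hw hρ => ?_⟩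
  let B : Fin N → Set (R d) := fun i => {z | z ∈ A.D i ∧ ¬ball z w ⊆ A.D i} ∪
    A.Rg ∩ (closedBall (A.ctr i) (A.ρ i + L * w) \ ball (A.ctr i) (A.ρ i))
  have hsub : A.NR L w ⊆ ⋃ i, A.η i '' B i := by
    rintro y ⟨i, hy, hn⟩
    by_cases hb : ball (A.χ i y) w ⊆ A.D i
    · have : ∃ k, y ∈ A.src k ∧ A.ρ k ≤ dist (A.χ k y) (A.ctr k) ∧
          dist (A.χ k y) (A.ctr k) ≤ A.ρ k + L * w := by
        by_contra hne
        exact hn ⟨hb, fun k hk h => hne ⟨k, hk, h⟩⟩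
      obtain ⟨k, hk, h2, h3⟩ := this
      exact mem_iUnion.2 ⟨k, A.χ k y, Or.inr ⟨A.mem k y hk, h3, not_lt.2 h2⟩, A.left k y hk⟩
    · exact mem_iUnion.2 ⟨i, A.χ i y, Or.inl ⟨A.χ_mem_D hy.1, hb⟩, A.left i y hy.1.1⟩
  have hB : ∀ i, B i ⊆ A.D2 i := by
    rintro i z (hz | hz)
    · exact A.D_sub i hz.1
    · exact ⟨hz.1, closedBall_subset_closedBall (by linarith [hρ i]) hz.2.1⟩
  have hv : ∀ i, volume (B i) ≤ ENNReal.ofReal ((C1 i + C2 i) * w) := by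
    intro i
    refine (measure_union_le _ _).trans ?_
    rw [add_mul, ENNReal.ofReal_add (mul_nonneg (hC1 i) hw.le) (mul_nonneg (hC2 i) hw.le)]
    refine add_le_add (h1 i w hw) ((measure_mono inter_subset_right).trans ?_)
    refine (vol_shell _ (A.ρ_pos i) (mul_nonneg hL hw.le) (hρ i)).trans (le_of_eq ?_)
    congr 1; simp only [C2]; ring
  refine (measure_mono hsub).trans ((measure_iUnion_fintype_le _ _).trans ?_)
  rw [Finset.sum_mul, ENNReal.ofReal_sum_of_nonneg fun i _ =>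
    mul_nonneg (mul_nonneg hC (add_nonneg (hC1 i) (hC2 i))) hw.le]
  refine Finset.sum_le_sum fun i _ => (hup i _ (hB i)).trans ?_
  rw [mul_assoc, ENNReal.ofReal_mul hC]
  gcongr
  exact hv i

/-- the gluing maps -/
lemma exists_glue [MeasurableSpace M] [BorelSpace M] (hd : 0 < d) (y0 : M) :
    ∃ (T : Fin N → R d) (Φ : M → R d) (ψ : R d → M) (Bd : ℝ), Measurable Φ ∧ Measurable ψ ∧
      (∀ i, ∀ y ∈ A.V i, Φ y = A.χ i y + T i) ∧ (∀ i, ∀ z ∈ A.D i, ψ (z + T i) = A.η i z) ∧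
      ∀ y, ‖Φ y‖ ≤ Bd := by
  classical
  obtain ⟨i0, -⟩ := A.cover y0
  have : Nonempty (Fin N) := ⟨i0⟩
  obtain ⟨b, hb⟩ := (finite_range fun i => ‖A.ctr i‖ + A.ρ i).bddAbove
  have hbD : ∀ i, ∀ z ∈ A.D i, ‖z‖ ≤ b := by
    intro i z hz
    have h1 : ‖A.ctr i‖ + A.ρ i ≤ b := hb (mem_range_self i)
    have h2 : dist z (A.ctr i) < A.ρ i := hz.2
    rw [dist_eq_norm] at h2
    linarith [norm_le_norm_add_norm_sub' z (A.ctr i)]
  have hb0 : 0 ≤ b := le_trans (add_nonneg (norm_nonneg _) (A.ρ_pos i0).le) (hb (mem_range_self i0))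
  let T : Fin N → R d := fun i _ => (i : ℕ) * (2 * b + 1)
  have hm1 : ∀ i, Measurable ((A.src i).piecewise (A.χ i) fun _ => 0) := fun i =>
    (A.χ_cont i).measurable_piecewise continuousOn_const (A.src_open i).measurableSet
  have hm2 : ∀ i, Measurable ((A.D i).piecewise (A.η i) fun _ => y0) := fun i =>
    ((A.η_cont i).mono (A.D_sub i)).measurable_piecewise continuousOn_const (A.D_meas i)
  obtain ⟨Φ, hΦ, hΦe⟩ := exists_measurable_piecewise A.V A.V_meas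
    (fun i y => (A.src i).piecewise (A.χ i) (fun _ => 0) y + T i)
    (fun i => (hm1 i).add_const _) fun i j hij y hy => absurd (A.V_unique hy.1 hy.2) hij
  obtain ⟨ψ, hψ, hψe⟩ := exists_measurable_piecewise (fun i => (fun z => z - T i) ⁻¹' A.D i)
    (fun i => (measurable_id.sub_const _) (A.D_meas i))
    (fun i z => (A.D i).piecewise (A.η i) (fun _ => y0) (z - T i))
    (fun i => (hm2 i).comp (measurable_id.sub_const _)) (by
      intro i j hij z hz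
      exfalso
      have h1 := (norm_le_pi_norm (z - T i) ⟨0, hd⟩).trans (hbD i _ hz.1)
      have h2 := (norm_le_pi_norm (z - T j) ⟨0, hd⟩).trans (hbD j _ hz.2)
      simp only [T, Pi.sub_apply, Real.norm_eq_abs, abs_le] at h1 h2
      have hne : (i : ℕ) ≠ j := fun h => hij (Fin.ext h)
      rcases lt_or_gt_of_ne hne with h | h
      · have : ((i : ℕ) : ℝ) + 1 ≤ (j : ℕ) := by exact_mod_cast h
        nlinarith
      · have : ((j : ℕ) : ℝ) + 1 ≤ (i : ℕ) := by exact_mod_cast h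
        nlinarith)
  have e1 : ∀ i, ∀ y ∈ A.V i, Φ y = A.χ i y + T i := fun i y hy => by
    rw [hΦe i hy]; simp only [piecewise_eq_of_mem _ _ _ hy.1.1]
  refine ⟨T, Φ, ψ, b + N * (2 * b + 1), hΦ, hψ, e1, fun i z hz => ?_, fun y => ?_⟩
  · have : z + T i ∈ (fun z => z - T i) ⁻¹' A.D i := by simpa using hz
    rw [hψe i this]
    have e : z + T i - T i = z := add_sub_cancel_right z (T i)
    beta_reduce
    rw [e, piecewise_eq_of_mem _ _ _ hz]
  · obtain ⟨i, hi⟩ := A.exists_V y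
    rw [e1 i y hi]
    refine (norm_add_le _ _).trans (add_le_add (hbD i _ (A.χ_mem_D hi.1)) ?_)
    refine (pi_norm_le_iff_of_nonneg (by positivity)).2 fun _ => ?_
    simp only [T]
    rw [Real.norm_eq_abs, abs_of_nonneg (by positivity)]
    gcongr
    exact i.2.le

end Atl

end Vale.Agent.P109.N
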